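import Mathlib

namespace Vale.Agent.P072.Cara

open MeasureTheory Real Set
open scoped BoundedContinuousFunction NNReal

variable {E : Type*} [NormedAddCommGroup E] [NormedSpace ℝ E]

lemma intervalIntegrable_of_bdd {f : ℝ → E} {M : ℝ} (hf : AEStronglyMeasurable f volume)
    (hM : ∀ t, ‖f t‖ ≤ M) (a b : ℝ) : IntervalIntegrable f volume a b := by
  rw [intervalIntegrable_iff]
  refine Measure.integrableOn_of_bounded (M := M) ?_ hf ?_
  · simp [uIoc]
  · exact ae_of_all _ hM

lemma integral_exp_mul {l : ℝ} (hl : l ≠ 0) (t : ℝ) :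
    ∫ s in (0 : ℝ)..t, exp (l * s) = (exp (l * t) - 1) / l := by
  have h : ∀ s ∈ uIcc 0 t, HasDerivAt (fun s => exp (l * s) / l) (exp (l * s)) s := by
    intro s _
    have h1 : HasDerivAt (fun s => l * s) l s := by simpa using (hasDerivAt_id s).const_mul l
    have h2 := (h1.exp).div_const l
    rwa [mul_div_assoc, div_self hl, mul_one] at h2
  rw [intervalIntegral.integral_eq_sub_of_hasDerivAt h
    (Continuous.intervalIntegrable (by fun_prop) _ _)]
  simp only [mul_zero, exp_zero]
  ring

variable [CompleteSpace E]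

theorem exists_global_solution (F : ℝ → E → E) (K M : ℝ) (hK : 0 ≤ K)
    (hL : ∀ t x y, ‖F t x - F t y‖ ≤ K * ‖x - y‖) (hM : ∀ t x, ‖F t x‖ ≤ M)
    (hmeas : ∀ x : ℝ → E, Continuous x → AEStronglyMeasurable (fun t => F t (x t)) volume)
    (x₀ : E) :
    ∃ x : ℝ → E, Continuous x ∧ ∀ t, 0 ≤ t → x t = x₀ + ∫ s in (0 : ℝ)..t, F s (x s) := by
  have hM0 : 0 ≤ M := (norm_nonneg _).trans (hM 0 0)
  set l : ℝ := 2 * K + 1 with hl
  have hlpos : 0 < l := by positivity
  have hcont : ∀ y : ℝ →ᵇ E, Continuous (fun s => exp (l * s) • y s) := by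
    intro y
    exact (by fun_prop : Continuous fun s : ℝ => exp (l * s)).smul y.continuous
  have hint : ∀ (y : ℝ →ᵇ E) (a b : ℝ),
      IntervalIntegrable (fun s => F s (exp (l * s) • y s)) volume a b := fun y a b =>
    intervalIntegrable_of_bdd (hmeas _ (hcont y)) (fun t => hM _ _) a b
  have hbound : ∀ (y : ℝ →ᵇ E) (t : ℝ), 0 ≤ t →
      ‖exp (-(l * t)) • (x₀ + ∫ s in (0 : ℝ)..t, F s (exp (l * s) • y s))‖ ≤
        ‖x₀‖ + M / l := by
    intro y t ht
    rw [norm_smul, norm_eq_abs, abs_of_pos (exp_pos _)]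
    have h1 : ‖∫ s in (0 : ℝ)..t, F s (exp (l * s) • y s)‖ ≤ M * t := by
      have := intervalIntegral.norm_integral_le_of_norm_le_const (a := 0) (b := t)
        (f := fun s => F s (exp (l * s) • y s)) (C := M) (fun s _ => hM _ _)
      rwa [sub_zero, abs_of_nonneg ht] at this
    have h2 : ‖x₀ + ∫ s in (0 : ℝ)..t, F s (exp (l * s) • y s)‖ ≤ ‖x₀‖ + M * t :=
      (norm_add_le _ _).trans (by linarith)
    have h3 : exp (-(l * t)) ≤ 1 := by
      rw [exp_le_one_iff]
      have := mul_nonneg hlpos.le ht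
      linarith
    have h4 : exp (-(l * t)) * t ≤ 1 / l := by
      rw [exp_neg, le_div_iff₀ hlpos]
      have h5 : l * t ≤ exp (l * t) := by
        have := add_one_le_exp (l * t)
        linarith
      have h6 := exp_pos (l * t)
      rw [mul_assoc, inv_mul_le_iff₀ h6]
      linarith
    calc exp (-(l * t)) * ‖x₀ + ∫ s in (0 : ℝ)..t, F s (exp (l * s) • y s)‖
        ≤ exp (-(l * t)) * (‖x₀‖ + M * t) := mul_le_mul_of_nonneg_left h2 (exp_pos _).le
      _ = exp (-(l * t)) * ‖x₀‖ + M * (exp (-(l * t)) * t) := by ring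
      _ ≤ 1 * ‖x₀‖ + M * (1 / l) := add_le_add
          (mul_le_mul_of_nonneg_right h3 (norm_nonneg _)) (mul_le_mul_of_nonneg_left h4 hM0)
      _ = ‖x₀‖ + M / l := by ring
  let Φ : (ℝ →ᵇ E) → (ℝ →ᵇ E) := fun y => BoundedContinuousFunction.ofNormedAddCommGroup
    (fun t => exp (-(l * max t 0)) • (x₀ + ∫ s in (0 : ℝ)..(max t 0), F s (exp (l * s) • y s)))
    (by
      refine Continuous.smul (by fun_prop) (continuous_const.add ?_)
      exact (intervalIntegral.continuous_primitive (hint y) 0).comp (by fun_prop))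
    (‖x₀‖ + M / l) (fun t => hbound y _ (le_max_right _ _))
  have hΦ : ContractingWith (1 / 2 : ℝ≥0) Φ := by
    refine ⟨by
      rw [← NNReal.coe_lt_coe]
      push_cast
      norm_num, LipschitzWith.of_dist_le_mul fun y z => ?_⟩
    rw [BoundedContinuousFunction.dist_le (by positivity)]
    intro t
    simp only [Φ, BoundedContinuousFunction.coe_ofNormedAddCommGroup]
    have hτ : 0 ≤ max t 0 := le_max_right _ _
    set τ := max t 0 with hτd
    rw [dist_eq_norm, ← smul_sub, add_sub_add_left_eq_sub,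
      ← intervalIntegral.integral_sub (hint y 0 τ) (hint z 0 τ), norm_smul, norm_eq_abs,
      abs_of_pos (exp_pos _)]
    have h1 : ‖∫ s in (0 : ℝ)..τ, (F s (exp (l * s) • y s) - F s (exp (l * s) • z s))‖ ≤
        ∫ s in (0 : ℝ)..τ, K * dist y z * exp (l * s) := by
      apply intervalIntegral.norm_integral_le_of_norm_le hτ
      · refine ae_of_all _ fun s _ => ?_
        refine (hL _ _ _).trans ?_
        rw [← smul_sub, norm_smul, norm_eq_abs, abs_of_pos (exp_pos _)]
        have h2 : ‖y s - z s‖ ≤ dist y z := by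
          rw [← dist_eq_norm]
          exact BoundedContinuousFunction.dist_coe_le_dist s
        calc K * (exp (l * s) * ‖y s - z s‖) ≤ K * (exp (l * s) * dist y z) := by gcongr
          _ = K * dist y z * exp (l * s) := by ring
      · exact Continuous.intervalIntegrable (by fun_prop) _ _
    rw [intervalIntegral.integral_const_mul, integral_exp_mul hlpos.ne'] at h1
    have h3 : exp (-(l * τ)) * (K * dist y z * ((exp (l * τ) - 1) / l)) ≤
        1 / 2 * dist y z := by
      have h4 : exp (-(l * τ)) * (exp (l * τ) - 1) ≤ 1 := by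
        rw [mul_sub, ← exp_add]
        have := exp_pos (-(l * τ))
        simp only [neg_add_cancel, exp_zero]
        linarith
      have h5 : K / l ≤ 1 / 2 := by
        rw [div_le_div_iff₀ hlpos (by norm_num)]
        linarith
      calc exp (-(l * τ)) * (K * dist y z * ((exp (l * τ) - 1) / l))
          = (exp (-(l * τ)) * (exp (l * τ) - 1)) * (K / l * dist y z) := by ring
        _ ≤ 1 * (K / l * dist y z) := mul_le_mul_of_nonneg_right h4 (by positivity)
        _ = K / l * dist y z := one_mul _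
        _ ≤ 1 / 2 * dist y z := mul_le_mul_of_nonneg_right h5 dist_nonneg
    have h6 := mul_le_mul_of_nonneg_left h1 (exp_pos (-(l * τ))).le
    refine h6.trans (h3.trans ?_)
    push_cast
    exact le_rfl
  have hfix := hΦ.fixedPoint_isFixedPt
  set y : ℝ →ᵇ E := hΦ.fixedPoint with hy
  refine ⟨fun s => exp (l * s) • y s, hcont y, ?_⟩
  intro t ht
  have h1 : y t = (Φ y) t := by
    have : Φ y = y := hfix
    rw [this]
  simp only [Φ, BoundedContinuousFunction.coe_ofNormedAddCommGroup] at h1
  rw [max_eq_left ht] at h1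
  simp only
  rw [h1, smul_smul, ← exp_add]
  simp only [add_neg_cancel, exp_zero, one_smul]

end Vale.Agent.P072.Cara
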