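import Vale.Agent.P072.CaraExist

namespace Vale.Agent.P072.Cara

open MeasureTheory Real Set Filter Topology

variable {d : ℕ}

/-- the linear functional `x ↦ n · x` -/
noncomputable def dotL (n : Fin d → ℝ) : (Fin d → ℝ) →L[ℝ] ℝ :=
  ∑ i, n i • ContinuousLinearMap.proj (R := ℝ) (φ := fun _ : Fin d => ℝ) i

lemma dotL_apply (n x : Fin d → ℝ) : dotL n x = ∑ i, n i * x i := by
  simp [dotL]

lemma integral_mem (S : Submodule ℝ (Fin d → ℝ)) {f : ℝ → Fin d → ℝ} {a b : ℝ}
    (hf : IntervalIntegrable f volume a b) (hS : ∀ s, f s ∈ S) :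
    ∫ s in a..b, f s ∈ S := by
  by_contra hcon
  obtain ⟨φ, h1, h2⟩ := Submodule.exists_le_ker_of_notMem hcon
  apply h1
  have h3 := (LinearMap.toContinuousLinearMap φ).intervalIntegral_comp_comm hf
  have h4 : ∀ s, (LinearMap.toContinuousLinearMap φ) (f s) = 0 := fun s => h2 (hS s)
  simp only [h4, intervalIntegral.integral_zero] at h3
  exact h3.symm

/-- continuous induction for finitely many inequalities -/
lemma forall_le_of_local {ι : Type*} [Finite ι] {u h : ι → ℝ → ℝ} {T : ℝ}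
    (hu : ∀ j, ContinuousOn (u j) (Icc 0 T)) (hh : ∀ j, ContinuousOn (h j) (Icc 0 T))
    (h0 : ∀ j, u j 0 ≤ h j 0)
    (hloc : ∀ t ∈ Ico 0 T, (∀ j, u j t ≤ h j t) → ∀ j, u j t = h j t →
      ∀ᶠ s in 𝓝[>] t, u j s ≤ h j s) :
    ∀ t ∈ Icc 0 T, ∀ j, u j t ≤ h j t := by
  have key : Icc 0 T ⊆ {t | ∀ j, u j t ≤ h j t} := by
    apply IsClosed.Icc_subset_of_forall_mem_nhdsWithin
    · have : {t | ∀ j, u j t ≤ h j t} ∩ Icc 0 T =
          Icc 0 T ∩ ⋂ j, {t ∈ Icc 0 T | u j t ≤ h j t} := by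
        ext t
        simp only [mem_inter_iff, mem_ofPred_eq, mem_iInter]
        constructor
        · rintro ⟨h1, h2⟩
          exact ⟨h2, fun j => ⟨h2, h1 j⟩⟩
        · rintro ⟨h1, h2⟩
          exact ⟨fun j => (h2 j).2, h1⟩
      rw [this]
      exact isClosed_Icc.inter (isClosed_iInter fun j => isClosed_Icc.isClosed_le (hu j) (hh j))
    · exact h0
    · rintro t ⟨ht, htI⟩
      have : ∀ᶠ s in 𝓝[>] t, ∀ j, u j s ≤ h j s := by
        rw [eventually_all]
        intro j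
        rcases (ht j).lt_or_eq with h1 | h1
        · have htI' : t ∈ Icc 0 T := Ico_subset_Icc_self htI
          have h2 : ∀ᶠ s in 𝓝[Icc 0 T] t, u j s < h j s :=
            (hu j t htI').eventually_lt (hh j t htI') h1
          have h3 : 𝓝[>] t ≤ 𝓝[Icc 0 T] t := nhdsWithin_le_of_mem
            (Icc_mem_nhdsGT_of_mem htI)
          have h4 : ∀ᶠ s in 𝓝[>] t, u j s < h j s := h3 h2
          exact h4.mono fun s hs => hs.le
        · exact hloc t htI ht j h1
      exact this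
  exact fun t ht => key ht

theorem region_invariant (G : ℝ → (Fin d → ℝ) → Fin d → ℝ) (S : Submodule ℝ (Fin d → ℝ))
    (c : Fin d → ℝ) {ι : Type*} [Finite ι] (n : ι → Fin d → ℝ) (h : ι → ℝ → ℝ)
    (T δ K R : ℝ) (hδ : 0 < δ)
    (hlip : ∀ t ∈ Icc 0 T, ∀ x y, ‖x‖ ≤ R → ‖y‖ ≤ R → ‖G t x - G t y‖ ≤ K * ‖x - y‖)
    (hS : ∀ t x, G t x ∈ S) (x : ℝ → Fin d → ℝ) (hx : ContinuousOn x (Icc 0 T))
    (hxR : ∀ t ∈ Icc 0 T, ‖x t‖ ≤ R)
    (hint : ∀ t ∈ Icc 0 T, IntervalIntegrable (fun s => G s (x s)) volume 0 t)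
    (hsol : ∀ t ∈ Icc 0 T, x t = x 0 + ∫ s in (0 : ℝ)..t, G s (x s))
    (hx0 : x 0 - c ∈ S) (hh : ∀ j, ContinuousOn (h j) (Icc 0 T))
    (hhd : ∀ j, ∀ s ∈ Icc 0 T, ∀ t ∈ Icc 0 T, s ≤ t → h j s - h j t ≤ δ / 2 * (t - s))
    (h0 : ∀ j, ∑ i, n j i * x 0 i ≤ h j 0)
    (hin : ∀ t ∈ Icc 0 T, ∀ s ∈ Icc 0 T, x t - c ∈ S → (∀ j, ∑ i, n j i * x t i ≤ h j t) →
      ∀ j, ∑ i, n j i * x t i = h j t → ∑ i, n j i * G s (x t) i ≤ -δ) :
    ∀ t ∈ Icc 0 T, ∀ j, ∑ i, n j i * x t i ≤ h j t := by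
  have hmem : ∀ t ∈ Icc 0 T, x t - c ∈ S := by
    intro t ht
    have h1 := hsol t ht
    have h2 := integral_mem S (hint t ht) (fun s => hS s (x s))
    have h3 : x t - c = (x 0 - c) + ∫ s in (0 : ℝ)..t, G s (x s) := by
      rw [h1]; abel
    rw [h3]
    exact S.add_mem hx0 h2
  apply forall_le_of_local
  · intro j
    have : (fun t => ∑ i, n j i * x t i) = fun t => dotL (n j) (x t) := by
      funext t; rw [dotL_apply]
    rw [this]
    exact (dotL (n j)).continuous.comp_continuousOn hx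
  · exact hh
  · exact h0
  · intro t htI hall j hj
    have ht : t ∈ Icc 0 T := Ico_subset_Icc_self htI
    have hK0 : 0 ≤ K * ‖x t - x t‖ := (norm_nonneg _).trans
      (hlip t ht (x t) (x t) (hxR t ht) (hxR t ht))
    -- closeness
    have hcl : ∀ᶠ s in 𝓝[Icc 0 T] t, ‖dotL (n j)‖ * (K * ‖x s - x t‖) < δ / 2 := by
      have h1 : Tendsto (fun s => ‖dotL (n j)‖ * (K * ‖x s - x t‖)) (𝓝[Icc 0 T] t)
          (𝓝 (‖dotL (n j)‖ * (K * ‖x t - x t‖))) := by
        have h2 : Tendsto x (𝓝[Icc 0 T] t) (𝓝 (x t)) := hx t ht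
        exact ((h2.sub_const (x t)).norm.const_mul K).const_mul _
      rw [sub_self, norm_zero, mul_zero, mul_zero] at h1
      exact h1.eventually_lt_const (by positivity)
    rw [eventually_nhdsWithin_iff, Metric.eventually_nhds_iff] at hcl
    obtain ⟨η, hη, hcl⟩ := hcl
    have hev : ∀ᶠ s in 𝓝[>] t, s ∈ Ioo t (min T (t + η)) :=
      Ioo_mem_nhdsGT (lt_min htI.2 (by linarith))
    filter_upwards [hev] with s hs
    have hsT : s ≤ T := hs.2.le.trans (min_le_left _ _)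
    have hsη : s < t + η := hs.2.trans_le (min_le_right _ _)
    have hsI : s ∈ Icc 0 T := ⟨ht.1.trans hs.1.le, hsT⟩
    have hdiff : x s - x t = ∫ τ in t..s, G τ (x τ) := by
      rw [hsol s hsI, hsol t ht, add_sub_add_left_eq_sub]
      exact intervalIntegral.integral_interval_sub_left (hint s hsI) (hint t ht)
    have hints : IntervalIntegrable (fun τ => G τ (x τ)) volume t s :=
      (hint t ht).symm.trans (hint s hsI)
    have hφ : dotL (n j) (x s) - dotL (n j) (x t) = ∫ τ in t..s, dotL (n j) (G τ (x τ)) := by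
      rw [← map_sub, hdiff, (dotL (n j)).intervalIntegral_comp_comm hints]
    have hle : ∫ τ in t..s, dotL (n j) (G τ (x τ)) ≤ ∫ _τ in t..s, -(δ / 2) := by
      apply intervalIntegral.integral_mono_on hs.1.le
      · exact ⟨(dotL (n j)).integrable_comp hints.1, (dotL (n j)).integrable_comp hints.2⟩
      · exact intervalIntegrable_const
      · intro τ hτ
        have hτI : τ ∈ Icc 0 T := ⟨ht.1.trans hτ.1, hτ.2.trans hsT⟩
        have h1 := hin t ht τ hτI (hmem t ht) hall j hj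
        rw [← dotL_apply] at h1
        have h2 : dotL (n j) (G τ (x τ)) - dotL (n j) (G τ (x t)) ≤
            ‖dotL (n j)‖ * (K * ‖x τ - x t‖) := by
          rw [← map_sub]
          refine (le_abs_self _).trans ?_
          rw [← Real.norm_eq_abs]
          refine ((dotL (n j)).le_opNorm _).trans ?_
          exact mul_le_mul_of_nonneg_left (hlip τ hτI _ _ (hxR τ hτI) (hxR t ht))
            (norm_nonneg _)
        have h3 := hcl (y := τ) (by
          rw [Real.dist_eq, abs_of_nonneg (by linarith [hτ.1])]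
          linarith [hτ.2]) hτI
        linarith
    rw [intervalIntegral.integral_const, smul_eq_mul] at hle
    have h4 := hhd j t ht s hsI hs.1.le
    rw [← dotL_apply] at hj ⊢
    linarith

end Vale.Agent.P072.Cara
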