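import Vale.Agent.P072.VarDefs
import Vale.Agent.P072.CaraTrap

namespace Vale.Agent.P072

namespace Cara

open MeasureTheory Real Set Filter Topology

variable {d : ℕ}

lemma mem_of_sol {G : ℝ → (Fin d → ℝ) → Fin d → ℝ} {S : Submodule ℝ (Fin d → ℝ)}
    {c : Fin d → ℝ} (hS : ∀ t x, G t x ∈ S) {x : ℝ → Fin d → ℝ} {t : ℝ}
    (hint : IntervalIntegrable (fun s => G s (x s)) volume 0 t)
    (hsol : x t = x 0 + ∫ s in (0 : ℝ)..t, G s (x s)) (hx0 : x 0 - c ∈ S) : x t - c ∈ S := by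
  have h2 := integral_mem S hint (fun s => hS s (x s))
  have h3 : x t - c = (x 0 - c) + ∫ s in (0 : ℝ)..t, G s (x s) := by
    rw [hsol]; abel
  rw [h3]
  exact S.add_mem hx0 h2

/-- uniqueness -/
lemma cara_unique {G : ℝ → (Fin d → ℝ) → Fin d → ℝ} {T K R : ℝ} (hT : 0 ≤ T)
    (hlip : ∀ t ∈ Icc 0 T, ∀ x y, ‖x‖ ≤ R → ‖y‖ ≤ R → ‖G t x - G t y‖ ≤ K * ‖x - y‖)
    {x y : ℝ → Fin d → ℝ} (hx : ContinuousOn x (Icc 0 T)) (hy : ContinuousOn y (Icc 0 T))
    (hxR : ∀ t ∈ Icc 0 T, ‖x t‖ ≤ R) (hyR : ∀ t ∈ Icc 0 T, ‖y t‖ ≤ R)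
    (hxi : ∀ t ∈ Icc 0 T, IntervalIntegrable (fun s => G s (x s)) volume 0 t)
    (hyi : ∀ t ∈ Icc 0 T, IntervalIntegrable (fun s => G s (y s)) volume 0 t)
    (hxs : ∀ t ∈ Icc 0 T, x t = x 0 + ∫ s in (0 : ℝ)..t, G s (x s))
    (hys : ∀ t ∈ Icc 0 T, y t = y 0 + ∫ s in (0 : ℝ)..t, G s (y s))
    (h0 : x 0 = y 0) : ∀ t ∈ Icc 0 T, x t = y t := by
  -- extend continuously
  set w : ℝ → ℝ := fun t => ‖x (projIcc 0 T hT t) - y (projIcc 0 T hT t)‖ with hw
  have hwc : Continuous w := by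
    have h1 : Continuous (fun t => x (projIcc 0 T hT t)) :=
      (continuousOn_iff_continuous_domRestrict.mp hx).comp continuous_projIcc
    have h2 : Continuous (fun t => y (projIcc 0 T hT t)) :=
      (continuousOn_iff_continuous_domRestrict.mp hy).comp continuous_projIcc
    exact (h1.sub h2).norm
  have hwe : ∀ t ∈ Icc 0 T, w t = ‖x t - y t‖ := by
    intro t ht
    simp only [hw, projIcc_of_mem hT ht]
  have hbound : ∀ t ∈ Icc 0 T, w t ≤ K * ∫ s in (0 : ℝ)..t, w s := by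
    intro t ht
    rw [hwe t ht, hxs t ht, hys t ht, h0, add_sub_add_left_eq_sub,
      ← intervalIntegral.integral_sub (hxi t ht) (hyi t ht), ← intervalIntegral.integral_const_mul]
    apply intervalIntegral.norm_integral_le_of_norm_le ht.1
    · refine ae_of_all _ fun s hs => ?_
      have hsI : s ∈ Icc 0 T := ⟨hs.1.le, hs.2.trans ht.2⟩
      rw [hwe s hsI]
      exact hlip s hsI _ _ (hxR s hsI) (hyR s hsI)
    · exact (hwc.const_mul K).intervalIntegrable _ _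
  have hW : ∀ t ∈ Icc 0 T, (fun t => ∫ s in (0 : ℝ)..t, w s) t = 0 := by
    apply eq_zero_of_abs_deriv_le_mul_abs_self_of_eq_zero_right (f' := w) (K := K)
    · exact (intervalIntegral.continuous_primitive
        (fun a b => hwc.intervalIntegrable a b) 0).continuousOn
    · intro t _
      exact (intervalIntegral.integral_hasDerivAt_right (hwc.intervalIntegrable 0 t)
        (hwc.stronglyMeasurableAtFilter _ _) hwc.continuousAt).hasDerivWithinAt
    · simp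
    · intro t ht
      have htI : t ∈ Icc 0 T := Ico_subset_Icc_self ht
      have h1 := hbound t htI
      have h2 : 0 ≤ w t := norm_nonneg _
      have h3 : 0 ≤ ∫ s in (0 : ℝ)..t, w s :=
        intervalIntegral.integral_nonneg ht.1 (fun s _ => norm_nonneg _)
      rw [Real.norm_eq_abs, Real.norm_eq_abs, abs_of_nonneg h2, abs_of_nonneg h3]
      exact h1
  intro t ht
  have h1 := hbound t ht
  have h2 := hW t ht
  simp only at h2
  rw [h2, mul_zero, hwe t ht] at h1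
  exact sub_eq_zero.mp (norm_le_zero_iff.mp h1)

/-- coordinatewise truncation -/
noncomputable def trunc (R : ℝ) (x : Fin d → ℝ) : Fin d → ℝ := fun i => max (-R) (min R (x i))

lemma trunc_continuous (R : ℝ) : Continuous (trunc R : (Fin d → ℝ) → Fin d → ℝ) := by
  unfold trunc
  fun_prop

lemma norm_trunc_le {R : ℝ} (hR : 0 ≤ R) (x : Fin d → ℝ) : ‖trunc R x‖ ≤ R := by
  rw [pi_norm_le_iff_of_nonneg hR]
  intro i
  rw [Real.norm_eq_abs, abs_le]
  simp only [trunc]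
  exact ⟨le_max_left _ _, max_le (by linarith) (min_le_left _ _)⟩

lemma trunc_eq {R : ℝ} {x : Fin d → ℝ} (hx : ‖x‖ ≤ R) : trunc R x = x := by
  funext i
  have h1 : |x i| ≤ R := by
    rw [← Real.norm_eq_abs]
    exact (norm_le_pi_norm x i).trans hx
  rw [abs_le] at h1
  simp only [trunc]
  rw [min_eq_right h1.2, max_eq_right h1.1]

lemma norm_trunc_sub_le (R : ℝ) (x y : Fin d → ℝ) : ‖trunc R x - trunc R y‖ ≤ ‖x - y‖ := by
  rw [pi_norm_le_iff_of_nonneg (norm_nonneg _)]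
  intro i
  refine le_trans ?_ (norm_le_pi_norm (x - y) i)
  simp only [trunc, Pi.sub_apply, Real.norm_eq_abs]
  refine (abs_max_sub_max_le_max _ _ _ _).trans (max_le (by simp) ?_)
  exact (abs_min_sub_min_le_max _ _ _ _).trans (max_le (by simp) le_rfl)

lemma exists_bound_of_continuousOn {x : ℝ → Fin d → ℝ} {T : ℝ} (hx : ContinuousOn x (Icc 0 T)) :
    ∃ R, 0 ≤ R ∧ ∀ t ∈ Icc 0 T, ‖x t‖ ≤ R := by
  obtain ⟨C, hC⟩ := isCompact_Icc.exists_bound_of_continuousOn hx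
  exact ⟨max C 0, le_max_right _ _, fun t ht => (hC t ht).trans (le_max_left _ _)⟩

/-- data of the main abstract theorem -/
structure Field (G : ℝ → (Fin d → ℝ) → Fin d → ℝ) (S : Submodule ℝ (Fin d → ℝ)) : Prop where
  meas : ∀ x : ℝ → Fin d → ℝ, Continuous x →
    AEStronglyMeasurable (fun t => G t (x t)) (volume.restrict (Ici 0))
  lip : ∀ R, ∃ K, 0 ≤ K ∧ ∀ t, 0 ≤ t → ∀ x y, ‖x‖ ≤ R → ‖y‖ ≤ R →
    ‖G t x - G t y‖ ≤ K * ‖x - y‖
  bdd : ∀ R, ∃ M, ∀ t, 0 ≤ t → ∀ x, ‖x‖ ≤ R → ‖G t x‖ ≤ M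
  mem : ∀ t x, G t x ∈ S

/-- existence of a global solution inside a region -/
theorem exists_sol_in_region {G : ℝ → (Fin d → ℝ) → Fin d → ℝ} {S : Submodule ℝ (Fin d → ℝ)}
    (hG : Field G S) (c : Fin d → ℝ) {ι : Type*} [Finite ι] (n : ι → Fin d → ℝ) (g : ι → ℝ)
    (δ : ℝ) (hδ : 0 < δ)
    (hbdd : Bornology.IsBounded {x : Fin d → ℝ | x - c ∈ S ∧ ∀ j, ∑ i, n j i * x i ≤ g j})
    (hin : ∀ t, 0 ≤ t → ∀ x : Fin d → ℝ, x - c ∈ S → (∀ j, ∑ i, n j i * x i ≤ g j) →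
      ∀ j, ∑ i, n j i * x i = g j → ∑ i, n j i * G t x i ≤ -δ)
    (x₀ : Fin d → ℝ) (hx₀ : x₀ - c ∈ S) (hx₀' : ∀ j, ∑ i, n j i * x₀ i ≤ g j) :
    ∃ x : ℝ → Fin d → ℝ, x 0 = x₀ ∧ IsCaratheodorySolutionOn G (Ici 0) x ∧
      ∀ t, 0 ≤ t → x t - c ∈ S ∧ ∀ j, ∑ i, n j i * x t i ≤ g j := by
  obtain ⟨R₀, hR₀⟩ := isBounded_iff_forall_norm_le.mp hbdd
  obtain ⟨R, hR0, hR⟩ : ∃ R : ℝ, 0 ≤ R ∧ ∀ x : Fin d → ℝ, x - c ∈ S →
      (∀ j, ∑ i, n j i * x i ≤ g j) → ‖x‖ ≤ R :=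
    ⟨max R₀ 0, le_max_right _ _, fun x h1 h2 => (hR₀ x ⟨h1, h2⟩).trans (le_max_left _ _)⟩
  obtain ⟨K, hK, hlip⟩ := hG.lip R
  obtain ⟨M, hM⟩ := hG.bdd R
  set F : ℝ → (Fin d → ℝ) → Fin d → ℝ := fun t x => if 0 ≤ t then G t (trunc R x) else 0 with hF
  have hFlip : ∀ t x y, ‖F t x - F t y‖ ≤ K * ‖x - y‖ := by
    intro t x y
    by_cases ht : 0 ≤ t
    · simp only [hF, if_pos ht]
      refine (hlip t ht _ _ (norm_trunc_le hR0 x) (norm_trunc_le hR0 y)).trans ?_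
      exact mul_le_mul_of_nonneg_left (norm_trunc_sub_le R x y) hK
    · simp only [hF, if_neg ht, sub_self, norm_zero]
      positivity
  have hFbdd : ∀ t x, ‖F t x‖ ≤ max M 0 := by
    intro t x
    by_cases ht : 0 ≤ t
    · simp only [hF, if_pos ht]
      exact (hM t ht _ (norm_trunc_le hR0 x)).trans (le_max_left _ _)
    · simp only [hF, if_neg ht, norm_zero]
      exact le_max_right _ _
  have hFmeas : ∀ x : ℝ → Fin d → ℝ, Continuous x →
      AEStronglyMeasurable (fun t => F t (x t)) volume := by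
    intro x hx
    have h1 := hG.meas (fun t => trunc R (x t)) ((trunc_continuous R).comp hx)
    rw [← aestronglyMeasurable_indicator_iff measurableSet_Ici] at h1
    have h2 : (Ici (0 : ℝ)).indicator (fun t => G t (trunc R (x t))) = fun t => F t (x t) := by
      funext t
      simp only [hF, indicator, mem_Ici]
    rwa [h2] at h1
  have hFmem : ∀ t x, F t x ∈ S := by
    intro t x
    by_cases ht : 0 ≤ t
    · simp only [hF, if_pos ht]
      exact hG.mem _ _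
    · simp only [hF, if_neg ht]
      exact S.zero_mem
  obtain ⟨x, hxc, hxs⟩ := exists_global_solution F K (max M 0) hK hFlip hFbdd hFmeas x₀
  have hx0 : x 0 = x₀ := by
    have := hxs 0 le_rfl
    simpa using this
  have hxi : ∀ a b, IntervalIntegrable (fun s => F s (x s)) volume a b := fun a b =>
    intervalIntegrable_of_bdd (hFmeas x hxc) (fun t => hFbdd _ _) a b
  have hreg : ∀ t, 0 ≤ t → x t - c ∈ S ∧ ∀ j, ∑ i, n j i * x t i ≤ g j := by
    intro T hT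
    refine ⟨mem_of_sol hFmem (hxi 0 T) (by rw [hxs T hT, hx0]) (by rw [hx0]; exact hx₀), ?_⟩
    obtain ⟨R', hR'0, hR'⟩ := exists_bound_of_continuousOn (T := T) hxc.continuousOn
    refine region_invariant F S c n (fun j _ => g j) T δ K R' hδ (fun t _ x y _ _ => hFlip t x y)
      hFmem x hxc.continuousOn hR' (fun t _ => hxi 0 t)
      (fun t ht => by rw [hxs t ht.1, hx0]) (by rw [hx0]; exact hx₀)
      (fun j => continuousOn_const) ?_ (by rw [hx0]; exact hx₀') ?_ T ⟨hT, le_rfl⟩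
    · intro j s _ t _ hst
      rw [sub_self]
      have : 0 ≤ t - s := by linarith
      positivity
    · intro t ht s hs h1 h2 j hj
      have h3 : F s (x t) = G s (x t) := by
        simp only [hF, if_pos hs.1]
        rw [trunc_eq (hR _ h1 h2)]
      rw [h3]
      exact hin s hs.1 _ h1 h2 j hj
  have hFG : ∀ s, 0 ≤ s → F s (x s) = G s (x s) := by
    intro s hs
    obtain ⟨h1, h2⟩ := hreg s hs
    simp only [hF, if_pos hs]
    rw [trunc_eq (hR _ h1 h2)]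
  refine ⟨x, hx0, ⟨hxc.continuousOn, ?_⟩, hreg⟩
  intro t ht
  have ht : 0 ≤ t := ht
  have h1 : EqOn (fun s => F s (x s)) (fun s => G s (x s)) (uIcc 0 t) := by
    intro s hs
    rw [uIcc_of_le ht] at hs
    exact hFG s hs.1
  refine ⟨(hxi 0 t).congr (h1.mono uIoc_subset_uIcc), ?_⟩
  rw [← intervalIntegral.integral_congr h1, hx0]
  exact hxs t ht

/-- the trapping theorem for Carathéodory solutions -/
theorem trap {G : ℝ → (Fin d → ℝ) → Fin d → ℝ} {S : Submodule ℝ (Fin d → ℝ)}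
    (hG : Field G S) (c : Fin d → ℝ) {ι : Type*} [Finite ι] (n : ι → Fin d → ℝ)
    (g : ι → ℝ → ℝ) (hg : ∀ j, ContDiff ℝ 1 (g j)) (l₀ : ℝ)
    (hpos : ∀ l, l₀ ≤ l → ∀ x : Fin d → ℝ, x - c ∈ S → (∀ j, ∑ i, n j i * x i ≤ g j l) →
      ∀ i, 0 < x i)
    (hbdd : ∀ l, l₀ ≤ l →
      Bornology.IsBounded {x : Fin d → ℝ | x - c ∈ S ∧ ∀ j, ∑ i, n j i * x i ≤ g j l})
    (hcover : ∀ x : Fin d → ℝ, (∀ i, 0 < x i) → x - c ∈ S →
      ∃ l, l₀ ≤ l ∧ ∀ j, ∑ i, n j i * x i ≤ g j l)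
    (hin : ∀ l₁, l₀ ≤ l₁ → ∃ δ > 0, ∀ t, 0 ≤ t → ∀ l ∈ Set.Icc l₀ l₁, ∀ x : Fin d → ℝ,
      x - c ∈ S → (∀ j, ∑ i, n j i * x i ≤ g j l) → ∀ j, ∑ i, n j i * x i = g j l →
      ∑ i, n j i * G t x i ≤ -δ) :
    (∀ x₀ : Fin d → ℝ, (∀ i, 0 < x₀ i) → x₀ - c ∈ S → ∃ x : ℝ → Fin d → ℝ, x 0 = x₀ ∧
      IsCaratheodorySolutionOn G (Ici 0) x ∧ (∀ t, 0 ≤ t → ∀ i, 0 < x t i) ∧
      ∀ T : ℝ, 0 < T → ∀ y : ℝ → Fin d → ℝ, y 0 = x₀ → IsCaratheodorySolutionOn G (Ico 0 T) y →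
        ∀ t ∈ Ico 0 T, y t = x t) ∧
    (∀ x : ℝ → Fin d → ℝ, (∀ i, 0 < x 0 i) → x 0 - c ∈ S →
      IsCaratheodorySolutionOn G (Ici 0) x →
      ∃ T : ℝ, ∀ t, T ≤ t → x t - c ∈ S ∧ ∀ j, ∑ i, n j i * x t i ≤ g j l₀) := by
  constructor
  · intro x₀ hx₀ hx₀S
    obtain ⟨l₁, hl₁, hx₀l⟩ := hcover x₀ hx₀ hx₀S
    obtain ⟨δ, hδ, hinδ⟩ := hin l₁ hl₁
    obtain ⟨x, hx0, hxsol, hxreg⟩ := exists_sol_in_region hG c n (fun j => g j l₁) δ hδ
      (hbdd l₁ hl₁) (fun t ht x h1 h2 j hj => hinδ t ht l₁ ⟨hl₁, le_rfl⟩ x h1 h2 j hj) x₀ hx₀S hx₀l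
    refine ⟨x, hx0, hxsol, fun t ht => hpos l₁ hl₁ _ (hxreg t ht).1 (hxreg t ht).2, ?_⟩
    intro T _ y hy0 hysol t ht
    have hIcc : Icc 0 t ⊆ Ico 0 T := fun s hs => ⟨hs.1, hs.2.trans_lt ht.2⟩
    have hIcc' : Icc 0 t ⊆ Ici (0 : ℝ) := fun s hs => hs.1
    have hxc := hxsol.1.mono hIcc'
    have hyc := hysol.1.mono hIcc
    obtain ⟨R₁, hR₁0, hR₁⟩ := exists_bound_of_continuousOn hxc
    obtain ⟨R₂, hR₂0, hR₂⟩ := exists_bound_of_continuousOn hyc
    obtain ⟨K, hK, hlip⟩ := hG.lip (max R₁ R₂)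
    exact cara_unique (K := K) (R := max R₁ R₂) ht.1 (fun t ht x y h1 h2 => hlip t ht.1 x y h1 h2)
      hyc hxc (fun s hs => (hR₂ s hs).trans (le_max_right _ _))
      (fun s hs => (hR₁ s hs).trans (le_max_left _ _))
      (fun s hs => (hysol.2 s (hIcc hs)).1) (fun s hs => (hxsol.2 s (hIcc' hs)).1)
      (fun s hs => (hysol.2 s (hIcc hs)).2) (fun s hs => (hxsol.2 s (hIcc' hs)).2)
      (by rw [hy0, hx0]) t ⟨ht.1, le_rfl⟩
  · intro x hx0 hx0S hxsol
    obtain ⟨l₁, hl₁, hx0l⟩ := hcover (x 0) hx0 hx0S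
    obtain ⟨δ, hδ, hinδ⟩ := hin l₁ hl₁
    -- Lipschitz constant of the `g j`
    have hLj : ∀ j, ∃ C : ℝ, 0 ≤ C ∧ ∀ l ∈ Icc l₀ l₁, ∀ l' ∈ Icc l₀ l₁,
        g j l - g j l' ≤ C * |l - l'| := by
      intro j
      obtain ⟨C, hC⟩ := LocallyLipschitzOn.exists_lipschitzOnWith_of_compact
        (isCompact_Icc (a := l₀) (b := l₁)) ((hg j).locallyLipschitz.locallyLipschitzOn)
      refine ⟨C, C.coe_nonneg, fun l hl l' hl' => ?_⟩
      have h1 := hC.dist_le_mul l hl l' hl'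
      rw [Real.dist_eq, Real.dist_eq] at h1
      exact (le_abs_self _).trans h1
    choose Cj hCj0 hCj using hLj
    obtain ⟨C, hC0, hC⟩ : ∃ C : ℝ, 0 ≤ C ∧ ∀ j, Cj j ≤ C := by
      have := Fintype.ofFinite ι
      exact ⟨∑ j, Cj j, Finset.sum_nonneg fun j _ => hCj0 j, fun j =>
        Finset.single_le_sum (fun j _ => hCj0 j) (Finset.mem_univ j)⟩
    obtain ⟨κ, hκ, hκC⟩ : ∃ κ : ℝ, 0 < κ ∧ C * κ ≤ δ / 2 := by
      refine ⟨δ / 2 / (C + 1), by positivity, ?_⟩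
      rw [mul_div_assoc', div_le_iff₀ (by positivity)]
      nlinarith
    refine ⟨max 0 ((l₁ - l₀) / κ), ?_⟩
    intro T hT
    have hT0 : 0 ≤ T := (le_max_left _ _).trans hT
    have hTl : l₁ - κ * T ≤ l₀ := by
      have h1 : (l₁ - l₀) / κ ≤ T := (le_max_right _ _).trans hT
      rw [div_le_iff₀ hκ] at h1
      linarith
    have hIcc' : Icc 0 T ⊆ Ici (0 : ℝ) := fun s hs => hs.1
    have hxc := hxsol.1.mono hIcc'
    obtain ⟨R, hR0, hR⟩ := exists_bound_of_continuousOn hxc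
    obtain ⟨K, hK, hlip⟩ := hG.lip R
    set l : ℝ → ℝ := fun t => max l₀ (l₁ - κ * t) with hl
    have hlI : ∀ t, 0 ≤ t → l t ∈ Icc l₀ l₁ := by
      intro t ht
      refine ⟨le_max_left _ _, max_le hl₁ ?_⟩
      have := mul_nonneg hκ.le ht
      linarith
    have hlc : Continuous l := by
      simp only [hl]
      fun_prop
    have hld : ∀ s t, s ≤ t → |l s - l t| ≤ κ * (t - s) := by
      intro s t hst
      simp only [hl]
      refine (abs_max_sub_max_le_max _ _ _ _).trans (max_le ?_ ?_)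
      · rw [sub_self, abs_zero]
        have : 0 ≤ t - s := by linarith
        positivity
      · have e : l₁ - κ * s - (l₁ - κ * t) = κ * (t - s) := by ring
        rw [e, abs_of_nonneg (mul_nonneg hκ.le (by linarith))]
    refine ⟨mem_of_sol hG.mem (hxsol.2 T hT0).1 (hxsol.2 T hT0).2 hx0S, ?_⟩
    have key := region_invariant G S c n (fun j t => g j (l t)) T δ K R hδ
      (fun t ht x y h1 h2 => hlip t ht.1 x y h1 h2) hG.mem x hxc hR
      (fun t ht => (hxsol.2 t ht.1).1) (fun t ht => (hxsol.2 t ht.1).2) hx0S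
      (fun j => ((hg j).continuous.comp hlc).continuousOn) ?_ ?_ ?_ T ⟨hT0, le_rfl⟩
    · have hlT : l T = l₀ := by
        simp only [hl]
        exact max_eq_left hTl
      simpa only [hlT] using key
    · intro j s hs t ht hst
      have h1 := hCj j (l s) (hlI s hs.1) (l t) (hlI t ht.1)
      have h2 := hld s t hst
      have h3 : Cj j * |l s - l t| ≤ C * (κ * (t - s)) :=
        mul_le_mul (hC j) h2 (abs_nonneg _) hC0
      have h4 : C * (κ * (t - s)) = C * κ * (t - s) := by ring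
      have h5 : C * κ * (t - s) ≤ δ / 2 * (t - s) :=
        mul_le_mul_of_nonneg_right hκC (by linarith)
      linarith
    · intro j
      have : l 0 = l₁ := by
        simp only [hl, mul_zero, sub_zero]
        exact max_eq_right hl₁
      simp only [this]
      exact hx0l j
    · intro t ht s hs h1 h2 j hj
      exact hinδ s hs.1 (l t) (hlI t ht.1) _ h1 h2 j hj

end Cara

end Vale.Agent.P072
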