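import Vale.Agent.P072.Start

namespace Vale.Agent.P072.Tree

open Real Filter Topology

/-- integer list of a choice -/
def ksOf {r : ℕ} {K : ℤ} (κ : Fin r → Finset.Icc (-K) K) : List ℤ :=
  List.ofFn fun s => (κ s : ℤ)

lemma ksOf_length {r : ℕ} {K : ℤ} (κ : Fin r → Finset.Icc (-K) K) :
    (ksOf κ).length = r := by simp [ksOf]

lemma ksOf_mem {r : ℕ} {K : ℤ} (κ : Fin r → Finset.Icc (-K) K) :
    ∀ k ∈ ksOf κ, |k| ≤ K := by
  intro k hk
  simp only [ksOf, List.mem_ofFn] at hk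
  obtain ⟨s, rfl⟩ := hk
  rw [abs_le]
  exact Finset.mem_Icc.mp (κ s).2

lemma exists_ksOf {r : ℕ} {K : ℤ} {ks : List ℤ} (h : ks.length = r)
    (hK : ∀ k ∈ ks, |k| ≤ K) : ∃ κ : Fin r → Finset.Icc (-K) K, ksOf κ = ks := by
  subst h
  refine ⟨fun s => ⟨ks.get s, Finset.mem_Icc.mpr (abs_le.mp (hK _ (List.get_mem _ _)))⟩, ?_⟩
  simp [ksOf]

/-- all values, in order -/
noncomputable def V (ε : ℝ) (B : ℕ) (τ : ℝ) (ks : List ℤ) : List ℝ :=
  τ :: vals ε B ks [τ] 0

lemma V_length (ε : ℝ) (B : ℕ) (τ : ℝ) (ks : List ℤ) :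
    (V ε B τ ks).length = ks.length + 1 := by simp [V, vals_length]

lemma fin_V (ε : ℝ) (B : ℕ) (τ : ℝ) (ks : List ℤ) :
    (fin ε B ks [τ] 0).1 = (V ε B τ ks).reverse := by
  rw [fin_fst, V, List.reverse_cons]

lemma V_le {ε : ℝ} (hε : 0 < ε) (B : ℕ) (τ : ℝ) (ks : List ℤ) : ∀ v ∈ V ε B τ ks, v ≤ τ := by
  intro v hv
  simp only [V, List.mem_cons] at hv
  rcases hv with rfl | hv
  · exact le_rfl
  · have := vals_le hε B ks [τ] 0 v hv
    simpa only [hd, List.headD_cons] using this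

lemma V_pairwise {ε : ℝ} (hε : 0 < ε) (B : ℕ) (τ : ℝ) (ks : List ℤ) :
    (V ε B τ ks).Pairwise (· ≥ ·) := by
  simp only [V, List.pairwise_cons]
  refine ⟨?_, vals_pairwise hε B _ _ _⟩
  intro v hv
  have := vals_le hε B ks [τ] 0 v hv
  simpa only [hd, List.headD_cons] using this

lemma good_start (B c : ℕ) {τ : ℝ} (hτ : τ = 1 ∨ τ = -1) (ε : ℝ) :
    Good (bd B c) (ε ^ 0) [τ] := by
  intro z hz _
  match z, hz with
  | [w], _ =>
    simp only [dot, add_zero, pow_zero]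
    by_cases hw : w = 0
    · left; simp [hw]
    · right
      have h1 : (1 : ℤ) ≤ |w| := Int.one_le_abs hw
      have h2 : (1 : ℝ) ≤ |(w : ℝ)| := by exact_mod_cast h1
      rw [abs_mul]
      rcases hτ with rfl | rfl <;> simpa using h2

lemma getD_mem_of_lt {l : List ℝ} {i : ℕ} (h : i < l.length) : l.getD i 0 ∈ l := by
  rw [List.getD_eq_getElem l 0 h]
  exact List.getElem_mem h

lemma getD_antitone {l : List ℝ} (h : l.Pairwise (· ≥ ·)) {i j : ℕ} (hij : i ≤ j)
    (hj : j < l.length) : l.getD j 0 ≤ l.getD i 0 := by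
  rcases hij.eq_or_lt with rfl | hlt
  · exact le_rfl
  · rw [List.getD_eq_getElem l 0 hj, List.getD_eq_getElem l 0 (hlt.trans hj)]
    exact List.pairwise_iff_getElem.mp h i j _ _ hlt

theorem core_proof (r B : ℕ) (τ : ℝ) (hτ : τ = 1 ∨ τ = -1) :
    ∃ m : ℝ, 0 < m ∧ m ≤ 1 ∧ ∀ a : ℝ, 0 < a →
      ∃ (ι : Type) (_ : Fintype ι) (n : ι → Fin (r + 1) → ℝ) (γ : ι → Fin r → ℝ) (Λ₀ A : ℝ),
        0 < Λ₀ ∧
        (∀ j i, n j i ≤ τ) ∧ (∀ j i, |n j i| ≤ A) ∧
        (∀ j, ∀ z : Fin (r + 1) → ℤ, (∀ i, |z i| ≤ B) →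
          ∑ i, (z i : ℝ) * n j i = 0 ∨ m ≤ |∑ i, (z i : ℝ) * n j i|) ∧
        (∃ j, (∀ i, n j i = τ) ∧ ∀ Λ, Λ₀ ≤ Λ →
          ∑ s, Real.exp (Λ * γ j s) ≤ Real.exp (τ * Λ) / 2) ∧
        ∀ Λ, Λ₀ ≤ Λ → ∀ x : Fin (r + 1) → ℝ, (∀ i, 0 < x i) →
          (∀ i, -a * Λ ≤ Real.log (x i)) →
          (∀ j, ∑ i, n j i * x i ≤ τ * Real.exp (τ * Λ) + ∑ s, Real.exp (Λ * γ j s)) →
          ∀ j, ∑ i, n j i * x i = τ * Real.exp (τ * Λ) + ∑ s, Real.exp (Λ * γ j s) →
          ∀ z : Fin (r + 1) → ℤ, (∀ i, |z i| ≤ B) → 0 < ∑ i, (z i : ℝ) * n j i →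
            m / 2 * Λ ≤ ∑ i, (z i : ℝ) * Real.log (x i) := by
  -- choice of `ε`
  obtain ⟨ε, hεpos, hε1, hε2⟩ : ∃ ε : ℝ, 0 < ε ∧ 4 * (bd B r : ℝ) ^ 2 * ε ≤ 1 ∧
      6 * ((r + 1) * B) * ε ≤ 1 := by
    refine ⟨1 / (4 * (bd B r : ℝ) ^ 2 + 6 * ((r + 1) * B) + 1), by positivity, ?_, ?_⟩
    · rw [mul_one_div, div_le_one (by positivity)]
      have : (0 : ℝ) ≤ 6 * ((r + 1) * B) := by positivity
      linarith
    · rw [mul_one_div, div_le_one (by positivity)]
      have : (0 : ℝ) ≤ 4 * (bd B r : ℝ) ^ 2 := by positivity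
      linarith
  have hs : Small ε B r := ⟨hεpos, hε1⟩
  have hHpos : 0 < ε ^ ell r := pow_pos hεpos _
  refine ⟨ε ^ ell r, hHpos, pow_le_one₀ hεpos.le hs.lt_one.le, ?_⟩
  intro a ha
  obtain ⟨K, hK⟩ : ∃ K : ℤ, a + 4 ≤ K * ε ^ ell r := by
    refine ⟨⌈(a + 4) / ε ^ ell r⌉, ?_⟩
    rw [← div_le_iff₀ hHpos]
    exact Int.le_ceil _
  have h : Par ε B r a K := ⟨hs, ha, hK⟩
  -- choice of `Λ₀`
  have hev : ∀ᶠ Λ : ℝ in atTop, (3 * r + 2) * exp (-(Λ * ε ^ ell r)) ≤ 1 ∧
      (r + 1) * exp (-(Λ * ε ^ ell r)) < ε ^ ell r ∧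
      log (2 * (r + 1)) ≤ ε ^ ell r * Λ := by
    have t1 : Tendsto (fun Λ : ℝ => exp (-(Λ * ε ^ ell r))) atTop (𝓝 0) := by
      have := (tendsto_id (α := ℝ) (x := atTop)).atTop_mul_const hHpos
      exact tendsto_exp_neg_atTop_nhds_zero.comp this
    have t2 : Tendsto (fun Λ : ℝ => ε ^ ell r * Λ) atTop atTop :=
      (tendsto_id (α := ℝ) (x := atTop)).const_mul_atTop hHpos
    have e1 := (t1.const_mul (3 * (r : ℝ) + 2)).eventually_le_const (u := 1) (by simp)
    have e2 := (t1.const_mul ((r : ℝ) + 1)).eventually_lt_const (u := ε ^ ell r)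
      (by simpa using hHpos)
    have e3 := t2.eventually_ge_atTop (log (2 * (r + 1)))
    filter_upwards [e1, e2, e3] with Λ h1 h2 h3
    exact ⟨h1, h2, h3⟩
  obtain ⟨Λ₁, hΛ₁⟩ := eventually_atTop.mp hev
  let ι : Type := Equiv.Perm (Fin (r + 1)) × (Fin r → Finset.Icc (-K) K)
  let n : ι → Fin (r + 1) → ℝ := fun j i => (V ε B τ (ksOf j.2)).getD (j.1.symm i : ℕ) 0
  let γ : ι → Fin r → ℝ := fun j s => (exps ε B (ksOf j.2) [τ] 0).getD (s : ℕ) 0
  have hVlen : ∀ j : ι, (V ε B τ (ksOf j.2)).length = r + 1 := fun j => by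
    rw [V_length, ksOf_length]
  -- sums against `n`
  have hsum : ∀ (j : ι) (y : Fin (r + 1) → ℝ),
      ∑ i, n j i * y i = ∑ i : Fin (r + 1), (V ε B τ (ksOf j.2)).getD (i : ℕ) 0 * y (j.1 i) := by
    intro j y
    rw [← Equiv.sum_comp j.1]
    simp only [n, Equiv.symm_apply_apply]
  have hsumR : ∀ (j : ι) (x : Fin (r + 1) → ℝ), ∑ i, n j i * x i =
      τ * x (j.1 0) + dotR (vals ε B (ksOf j.2) [τ] 0)
        (List.ofFn fun s : Fin r => x (j.1 s.succ)) := by
    intro j x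
    rw [hsum, ← dotR_ofFn (r + 1) _ (fun i => x (j.1 i)) (hVlen j), List.ofFn_succ]
    simp only [V, dotR]
  have hsumγ : ∀ (j : ι) (Λ : ℝ), ∑ s, exp (Λ * γ j s) =
      ((exps ε B (ksOf j.2) [τ] 0).map (fun e => exp (Λ * e))).sum := by
    intro j Λ
    rw [sum_map_getD _ r _ (by rw [exps_length, ksOf_length])]
  have hobj : ∀ (j : ι) (Λ : ℝ) (x : Fin (r + 1) → ℝ),
      ∑ i, n j i * x i - ∑ s, exp (Λ * γ j s) = τ * x (j.1 0) +
        obj ε B Λ (ksOf j.2) [τ] 0 (List.ofFn fun s : Fin r => x (j.1 s.succ)) := by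
    intro j Λ x
    rw [hsumR, hsumγ, obj_eq _ _ _ _ _ _ _ (by simp [ksOf_length])]
    ring
  have hsumZ : ∀ (j : ι) (z : Fin (r + 1) → ℤ), ∑ i, (z i : ℝ) * n j i =
      dot (List.ofFn (fun i => z (j.1 i))).reverse (fin ε B (ksOf j.2) [τ] 0).1 := by
    intro j z
    rw [fin_V, dot_reverse _ _ (by simp [V_length, ksOf_length]), dot_ofFn (r + 1) _ _ (hVlen j),
      ← Equiv.sum_comp j.1]
    simp only [n, Equiv.symm_apply_apply]
  have hgood : ∀ (j : ι) (z : Fin (r + 1) → ℤ), (∀ i, |z i| ≤ B) →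
      ∑ i, (z i : ℝ) * n j i = 0 ∨
        ε ^ (fin ε B (ksOf j.2) [τ] 0).2 ≤ |∑ i, (z i : ℝ) * n j i| := by
    intro j z hz
    have hG := good_fin hs (ksOf j.2) [τ] 0 (by simp) (by rw [ksOf_length])
      (good_start B _ hτ ε)
    rw [hsumZ]
    apply hG
    · rw [fin_V]
      simp [V_length, ksOf_length]
    · intro w hw
      simp only [List.mem_reverse, List.mem_ofFn] at hw
      obtain ⟨i, rfl⟩ := hw
      refine (hz _).trans ?_
      simp [bd]
  have hpf : ∀ j : ι, (fin ε B (ksOf j.2) [τ] 0).2 + 1 ≤ ell r := by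
    intro j
    have := fin_exp_le ε B (ksOf j.2) [τ] 0
    rw [ksOf_length] at this
    simpa using this
  have hnle : ∀ j i, n j i ≤ τ := by
    intro j i
    exact V_le hεpos B τ _ _ (getD_mem_of_lt (by rw [hVlen]; exact Fin.is_lt _))
  refine ⟨ι, inferInstance, n, γ, max Λ₁ 1, ∑ j, ∑ i, |n j i|, by positivity, hnle, ?_, ?_,
    ?_, ?_⟩
  · intro j i
    calc |n j i| ≤ ∑ i, |n j i| :=
          Finset.single_le_sum (f := fun i => |n j i|) (fun _ _ => abs_nonneg _)
            (Finset.mem_univ i)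
      _ ≤ ∑ j, ∑ i, |n j i| :=
          Finset.single_le_sum (f := fun j => ∑ i, |n j i|)
            (fun _ _ => Finset.sum_nonneg fun _ _ => abs_nonneg _) (Finset.mem_univ j)
  · intro j z hz
    rcases hgood j z hz with h1 | h1
    · exact Or.inl h1
    · right
      refine le_trans ?_ h1
      exact hs.pow_le (by have := hpf j; omega)
  · -- the constant normal
    obtain ⟨ks, hks, hksK, hv, he⟩ := allJoin h (y := τ - ε ^ ell r) r [τ] 0 (by simp)
      (by
        simp only [hd, List.headD_cons]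
        rcases hτ with rfl | rfl
        · rw [abs_one]; linarith
        · rw [abs_neg, abs_one]; linarith)
      (by
        intro c hc
        simp only [hd, List.headD_cons]
        have h1 := mesh_le_rad hs 0 c
        have h2 : ε ^ ell r ≤ mesh ε 0 (c + 1) := h.le_mesh (by rw [← hc]; simp)
        have h3 := mesh_pos hs.pos 0 (c + 1)
        linarith)
    obtain ⟨κ, hκ⟩ := exists_ksOf hks hksK
    refine ⟨(1, κ), ?_, ?_⟩
    · intro i
      have hmem : n (1, κ) i ∈ V ε B τ ks := by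
        have := getD_mem_of_lt (l := V ε B τ (ksOf κ)) (i := ((1 : Equiv.Perm (Fin (r + 1))).symm i : ℕ))
          (by rw [V_length, ksOf_length]; exact Fin.is_lt _)
        rw [hκ] at this
        simpa only [n, hκ] using this
      simp only [V, List.mem_cons] at hmem
      rcases hmem with h1 | h1
      · exact h1
      · have := hv _ h1
        simpa only [hd, List.headD_cons] using this
    · intro Λ hΛ
      have hΛ1 := hΛ₁ Λ ((le_max_left _ _).trans hΛ)
      have hΛpos : 0 < Λ := lt_of_lt_of_le one_pos ((le_max_right _ _).trans hΛ)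
      rw [hsumγ]
      simp only [hκ]
      have h2 := sum_map_exp_le hΛpos.le _ he
      rw [exps_length, hks] at h2
      refine h2.trans ?_
      have h5 : exp (Λ * (τ - ε ^ ell r)) = exp (τ * Λ) * exp (-(Λ * ε ^ ell r)) := by
        rw [← exp_add]
        congr 1
        ring
      rw [h5]
      have h6 := hΛ1.1
      have h7 : 0 < exp (-(Λ * ε ^ ell r)) := exp_pos _
      have h8 : 0 < exp (τ * Λ) := exp_pos _
      have h9 : (r : ℝ) * exp (-(Λ * ε ^ ell r)) ≤ 1 / 2 := by nlinarith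
      nlinarith
  · -- the active constraint
    intro Λ hΛ x hx hlogx hcon j hact z hz hzpos
    obtain ⟨hδ1, hδ2, hlog⟩ := hΛ₁ Λ ((le_max_left _ _).trans hΛ)
    have hΛpos : 0 < Λ := lt_of_lt_of_le one_pos ((le_max_right _ _).trans hΛ)
    have hsw : ∀ ω : Equiv.Perm (Fin (r + 1)), ∑ i, n j i * x (ω i) ≤ ∑ i, n j i * x i := by
      intro ω
      have h1 := hcon (j.1.trans ω, j.2)
      have h2 : ∑ i, n (j.1.trans ω, j.2) i * x i = ∑ i, n j i * x (ω i) := by
        rw [hsum, hsum j (fun i => x (ω i))]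
        rfl
      have h3 : ∑ s, exp (Λ * γ (j.1.trans ω, j.2) s) = ∑ s, exp (Λ * γ j s) := rfl
      rw [h2, h3] at h1
      linarith
    obtain ⟨σ, hσn, hσx⟩ := exists_sort (n j) x hsw
    set θ : Fin (r + 1) → ℝ := fun i => (V ε B τ (ksOf j.2)).getD (i : ℕ) 0 with hθ
    have hθanti : Antitone θ := by
      intro i i' hii'
      exact getD_antitone (V_pairwise hεpos B τ _) hii' (by rw [hVlen]; exact Fin.is_lt _)
    have hnσ : ∀ i, n j (σ i) = θ i := by
      have h1 : Antitone (θ ∘ (σ.trans j.1.symm)) := hσn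
      have h2 : Antitone (θ ∘ (1 : Equiv.Perm (Fin (r + 1)))) := hθanti
      have h3 := Tuple.unique_antitone h1 h2
      intro i
      exact congrFun h3 i
    set xs : List ℝ := List.ofFn fun s : Fin r => x (σ s.succ) with hxs
    have hxslen : xs.length = r := by simp [hxs]
    have hall : ∀ ks' : List ℤ, ks'.length = r → (∀ k ∈ ks', |k| ≤ K) →
        τ * x (σ 0) + obj ε B Λ ks' [τ] 0 xs ≤ τ * exp (τ * Λ) := by
      intro ks' hks' hks'K
      obtain ⟨κ', hκ'⟩ := exists_ksOf hks' hks'K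
      have h1 := hcon (σ, κ')
      have h2 := hobj (σ, κ') Λ x
      simp only [hκ'] at h2
      rw [← hxs] at h2
      linarith
    have hactive : τ * x (σ 0) + obj ε B Λ (ksOf j.2) [τ] 0 xs = τ * exp (τ * Λ) := by
      have h2 := hobj (σ, j.2) Λ x
      simp only at h2
      rw [← hxs] at h2
      have h3 : ∑ i, n (σ, j.2) i * x i = ∑ i, n j i * x i := by
        rw [hsum (σ, j.2) x, ← Equiv.sum_comp σ (fun i => n j i * x i)]
        apply Finset.sum_congr rfl
        intro i _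
        rw [hnσ]
      have h4 : ∑ s, exp (Λ * γ (σ, j.2) s) = ∑ s, exp (Λ * γ j s) := rfl
      rw [h3, h4] at h2
      linarith
    have hpw : (x (σ 0) :: xs).Pairwise (· ≥ ·) := by
      have : x (σ 0) :: xs = List.ofFn (x ∘ σ) := by
        rw [List.ofFn_succ]
        rfl
      rw [this]
      exact hσx.sortedGE_ofFn.pairwise
    have hmemx : ∀ y ∈ x (σ 0) :: xs, ∃ i, y = x i := by
      intro y hy
      simp only [List.mem_cons, hxs, List.mem_ofFn] at hy
      rcases hy with rfl | ⟨s, rfl⟩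
      · exact ⟨_, rfl⟩
      · exact ⟨_, rfl⟩
    have hlen : (ksOf j.2).length = xs.length := by rw [ksOf_length, hxslen]
    have hst := start h hτ hΛpos hδ1 hlog hlen hxslen (hx (σ 0))
      (fun y hy => by
        refine ⟨?_, (List.pairwise_cons.mp hpw).1 y hy⟩
        obtain ⟨i, rfl⟩ := hmemx y (by simp [hy])
        exact (hx i).le) hall hactive
    have hτ1 : τ ≤ 1 := by rcases hτ with rfl | rfl <;> norm_num
    have hnear := near_main h hΛpos hδ1 hδ2 xs (ksOf j.2) τ [] (x (σ 0)) [] 0 hlen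
      (ksOf_mem j.2) hxslen.le (good_start B _ hτ ε) (by rw [hxslen]; simp) hτ1 hpw
      (fun y hy => by
        obtain ⟨i, rfl⟩ := hmemx y hy
        exact ⟨hx i, hlogx i⟩)
      (by
        refine List.Forall₂.cons ?_ List.Forall₂.nil
        rw [hxslen, Nat.zero_add]
        have : 0 ≤ ε ^ ell r * Λ := by positivity
        linarith)
      (by
        intro ks' hks' hks'K
        have h1 := hall ks' (by rw [hks', hxslen]) hks'K
        linarith)
    -- pointwise closeness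
    set R := 3 * ε ^ ((fin ε B (ksOf j.2) [τ] 0).2 + 1) with hR
    have hclose : ∀ i : Fin (r + 1), |log (x i) - Λ * n j i| ≤ R * Λ := by
      have h1 : List.Forall₂ (fun t x => |log x - Λ * t| ≤ R * Λ) (V ε B τ (ksOf j.2))
          (List.ofFn (x ∘ σ)) := by
        rw [← List.forall₂_reverse_iff]
        have e1 : (List.ofFn (x ∘ σ)).reverse = xs.reverse ++ [x (σ 0)] := by
          rw [List.ofFn_succ, List.reverse_cons]
          rfl
        rw [e1, ← fin_V]
        exact hnear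
      rw [List.forall₂_iff_get] at h1
      intro i
      obtain ⟨i, rfl⟩ := σ.surjective i
      have hi : (i : ℕ) < (V ε B τ (ksOf j.2)).length := by rw [hVlen]; exact i.is_lt
      have h2 := h1.2 i hi (by rw [List.length_ofFn]; exact i.is_lt)
      rw [hnσ i, hθ]
      simp only
      rw [List.getD_eq_getElem _ 0 hi]
      simp only [List.get_eq_getElem, List.getElem_ofFn, Function.comp] at h2
      exact h2
    -- conclusion
    have hge : ε ^ (fin ε B (ksOf j.2) [τ] 0).2 ≤ ∑ i, (z i : ℝ) * n j i := by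
      rcases hgood j z hz with h1 | h1
      · exact absurd h1 hzpos.ne'
      · rwa [abs_of_pos hzpos] at h1
    have hdiff : ∑ i, (z i : ℝ) * log (x i) - Λ * ∑ i, (z i : ℝ) * n j i =
        ∑ i, (z i : ℝ) * (log (x i) - Λ * n j i) := by
      rw [Finset.mul_sum, ← Finset.sum_sub_distrib]
      apply Finset.sum_congr rfl
      intro i _
      ring
    have hR0 : 0 ≤ R * Λ := by positivity
    have hbound : -((r + 1) * (B * (R * Λ))) ≤ ∑ i, (z i : ℝ) * (log (x i) - Λ * n j i) := by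
      have h1 : |∑ i, (z i : ℝ) * (log (x i) - Λ * n j i)| ≤ ∑ i : Fin (r + 1), (B : ℝ) * (R * Λ) := by
        refine (Finset.abs_sum_le_sum_abs _ _).trans (Finset.sum_le_sum fun i _ => ?_)
        rw [abs_mul]
        have h2 : |(z i : ℝ)| ≤ B := by exact_mod_cast hz i
        exact mul_le_mul h2 (hclose i) (abs_nonneg _) (by positivity)
      rw [Finset.sum_const, Finset.card_univ, Fintype.card_fin, nsmul_eq_mul] at h1
      push_cast at h1
      exact (abs_le.mp h1).1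
    set g := ε ^ (fin ε B (ksOf j.2) [τ] 0).2 with hg
    have hgpos : 0 < g := pow_pos hεpos _
    have hRg : R = 3 * (g * ε) := by rw [hR, hg, pow_succ]
    have hfin : (r + 1) * (B * (R * Λ)) ≤ g / 2 * Λ := by
      rw [hRg]
      have : (r + 1) * (B * (3 * (g * ε) * Λ)) = (6 * ((r + 1) * B) * ε) * (g / 2 * Λ) := by ring
      rw [this]
      have h0 : 0 ≤ g / 2 * Λ := by positivity
      nlinarith
    have hge2 : Λ * g ≤ Λ * ∑ i, (z i : ℝ) * n j i := mul_le_mul_of_nonneg_left hge hΛpos.le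
    have hmg : ε ^ ell r ≤ g := hs.pow_le (by have := hpf j; omega)
    have hmg2 : ε ^ ell r / 2 * Λ ≤ g / 2 * Λ := by
      apply mul_le_mul_of_nonneg_right _ hΛpos.le
      linarith
    linarith

end Vale.Agent.P072.Tree
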