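import Vale.Agent.P072.Defs
import Vale.Agent.P072.CoreProof

namespace Vale.Agent.P072

/- The combinatorial core.  `r + 1` coordinates, integer forms bounded by `B`, sign `τ = ±1`.
Produces a finite family of normals `n j` with cost exponents `γ j s` such that at an active
constraint the sign of every bounded integer form at `n j` controls it at `log x`. -/
theorem core (r B : ℕ) (τ : ℝ) (hτ : τ = 1 ∨ τ = -1) :
    ∃ m : ℝ, 0 < m ∧ m ≤ 1 ∧ ∀ a : ℝ, 0 < a →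
      ∃ (ι : Type) (_ : Fintype ι) (n : ι → Fin (r + 1) → ℝ) (γ : ι → Fin r → ℝ) (Λ₀ A : ℝ),
        0 < Λ₀ ∧
        (∀ j i, n j i ≤ τ) ∧ (∀ j i, |n j i| ≤ A) ∧
        (∀ j, ∀ z : Fin (r + 1) → ℤ, (∀ i, |z i| ≤ B) →
          ∑ i, (z i : ℝ) * n j i = 0 ∨ m ≤ |∑ i, (z i : ℝ) * n j i|) ∧
        (∃ j, (∀ i, n j i = τ) ∧ ∀ Λ, Λ₀ ≤ Λ →
          ∑ s, Real.exp (Λ * γ j s) ≤ Real.exp (τ * Λ) / 2) ∧
        ∀ Λ, Λ₀ ≤ Λ → ∀ x : Fin (r + 1) → ℝ, (∀ i, 0 < x i) →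
          (∀ i, -a * Λ ≤ Real.log (x i)) →
          (∀ j, ∑ i, n j i * x i ≤ τ * Real.exp (τ * Λ) + ∑ s, Real.exp (Λ * γ j s)) →
          ∀ j, ∑ i, n j i * x i = τ * Real.exp (τ * Λ) + ∑ s, Real.exp (Λ * γ j s) →
          ∀ z : Fin (r + 1) → ℤ, (∀ i, |z i| ≤ B) → 0 < ∑ i, (z i : ℝ) * n j i →
            m / 2 * Λ ≤ ∑ i, (z i : ℝ) * Real.log (x i) :=
  Tree.core_proof r B τ hτ

end Vale.Agent.P072
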