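import Mathlib

namespace Vale.Agent.P072

abbrev Reaction (d : ℕ) : Type := (Fin d → ℕ) × (Fin d → ℕ)

def WeaklyReversible {d : ℕ} (R : Finset (Reaction d)) : Prop :=
  ∀ y y' : Fin d → ℕ, (y, y') ∈ R → Relation.ReflTransGen (fun a b => (a, b) ∈ R) y' y

def reactionVector {d : ℕ} (r : Reaction d) : Fin d → ℝ :=
  fun i => (r.2 i : ℝ) - (r.1 i : ℝ)

noncomputable def massAction {d : ℕ} (R : Finset (Reaction d)) (k : Reaction d → ℝ)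
    (x : Fin d → ℝ) : Fin d → ℝ :=
  ∑ r ∈ R, (k r * ∏ i, x i ^ r.1 i) • reactionVector r

def stoichiometricSubspace {d : ℕ} (R : Finset (Reaction d)) : Submodule ℝ (Fin d → ℝ) :=
  Submodule.span ℝ (reactionVector '' (R : Set (Reaction d)))

def positiveClass {d : ℕ} (R : Finset (Reaction d)) (c : Fin d → ℝ) : Set (Fin d → ℝ) :=
  {x | (∀ i, 0 < x i) ∧ x - c ∈ stoichiometricSubspace R}

def IsSolutionOn {d : ℕ} (f : (Fin d → ℝ) → (Fin d → ℝ)) (J : Set ℝ)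
    (x : ℝ → Fin d → ℝ) : Prop :=
  ∀ t ∈ J, HasDerivWithinAt x (f (x t)) J t

def PermanentOn {d : ℕ} (f : (Fin d → ℝ) → (Fin d → ℝ)) (P : Set (Fin d → ℝ)) : Prop :=
  (∀ x₀ ∈ P, ∃ x : ℝ → Fin d → ℝ, x 0 = x₀ ∧ IsSolutionOn f (Set.Ici 0) x ∧
    (∀ t, 0 ≤ t → ∀ i, 0 < x t i) ∧
    ∀ T : ℝ, 0 < T → ∀ y : ℝ → Fin d → ℝ, y 0 = x₀ → IsSolutionOn f (Set.Ico 0 T) y →
      ∀ t ∈ Set.Ico 0 T, y t = x t) ∧
  ∃ K : Set (Fin d → ℝ), K ⊆ P ∧ IsCompact K ∧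
    ∀ x : ℝ → Fin d → ℝ, x 0 ∈ P → IsSolutionOn f (Set.Ici 0) x →
      ∃ T : ℝ, ∀ t, T ≤ t → x t ∈ K

end Vale.Agent.P072
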