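import Vale.Agent.P072.VarDefs

namespace Vale.Agent.P072

lemma sum_reactionVector {d : ℕ} (w : Fin d → ℝ) (r : Reaction d) :
    ∑ i, w i * reactionVector r i = ∑ i, w i * (r.2 i : ℝ) - ∑ i, w i * (r.1 i : ℝ) := by
  rw [← Finset.sum_sub_distrib]
  apply Finset.sum_congr rfl
  intro i _
  simp only [reactionVector]
  ring

lemma exists_down_edge {α : Type*} (E : α → α → Prop) (h : α → ℝ) {y' y : α}
    (hp : Relation.ReflTransGen E y' y) (hy : h y < h y') :
    ∃ a b, E a b ∧ h y' ≤ h a ∧ h b < h a := by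
  induction hp using Relation.ReflTransGen.head_induction_on with
  | refl => exact absurd hy (lt_irrefl _)
  | @head a c hac _ ih =>
    rcases lt_or_ge (h c) (h a) with h1 | h1
    · exact ⟨a, c, hac, le_rfl, h1⟩
    · obtain ⟨a', b', hab, h2, h3⟩ := ih (lt_of_lt_of_le hy h1)
      exact ⟨a', b', hab, h1.trans h2, h3⟩

theorem WeaklyReversible.endotactic {d : ℕ} {R : Finset (Reaction d)} (hR : WeaklyReversible R) :
    Endotactic R := by
  intro w r hr hpos
  have hpath := hR r.1 r.2 hr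
  rw [sum_reactionVector] at hpos
  obtain ⟨a, b, hab, h1, h2⟩ := exists_down_edge (fun a b => (a, b) ∈ R)
    (fun y => ∑ i, w i * (y i : ℝ)) hpath (by linarith)
  refine ⟨(a, b), hab, ?_, ?_⟩
  · simp only at h1 ⊢
    linarith
  · rw [sum_reactionVector]
    simp only at h2 ⊢
    linarith

lemma dot_massAction {d : ℕ} (R : Finset (Reaction d)) (k : Reaction d → ℝ)
    (n x : Fin d → ℝ) : ∑ i, n i * massAction R k x i =
      ∑ r ∈ R, k r * (∏ i, x i ^ r.1 i) * ∑ i, n i * reactionVector r i := by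
  simp only [massAction, Finset.sum_apply, Pi.smul_apply, smul_eq_mul, Finset.mul_sum]
  rw [Finset.sum_comm]
  apply Finset.sum_congr rfl
  intro r _
  apply Finset.sum_congr rfl
  intro i _
  ring

theorem dot_massAction_le_of_endotactic {d : ℕ} (R : Finset (Reaction d)) (hR : Endotactic R)
    (ε : ℝ) (hε : 0 < ε) (B : ℕ)
    (hB : ∀ r ∈ R, ∀ i, r.1 i ≤ B ∧ r.2 i ≤ B) (m a : ℝ) (hm : 0 < m) (ha : 0 < a) :
    ∃ D : ℝ, ∃ δ > 0, ∀ (k : Reaction d → ℝ), (∀ r ∈ R, ε ≤ k r ∧ k r ≤ 1 / ε) →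
      ∀ (n x : Fin d → ℝ) (κ : ℝ), (∀ i, |n i| ≤ a) → 0 < κ → κ ≤ 1 →
      (∀ i, κ ≤ x i) →
      (∀ z : Fin d → ℤ, (∀ i, |z i| ≤ B) → ∑ i, (z i : ℝ) * n i = 0 ∨
        m ≤ |∑ i, (z i : ℝ) * n i|) →
      (∀ z : Fin d → ℤ, (∀ i, |z i| ≤ B) → 0 < ∑ i, (z i : ℝ) * n i →
        D ≤ ∑ i, (z i : ℝ) * Real.log (x i)) →
      (∀ r ∈ R, ∑ i, n i * reactionVector r i = 0) ∨
        ∑ i, n i * massAction R k x i ≤ -δ * κ ^ (d * B) := by
  obtain ⟨W, hW⟩ : ∃ W : ℝ, W = d * (a * B) := ⟨_, rfl⟩
  have hW0 : 0 ≤ W := by rw [hW]; positivity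
  obtain ⟨D, hD⟩ : ∃ D : ℝ, (R.card : ℝ) * (1 / ε * (Real.exp (-D) * W)) ≤ ε * m / 2 := by
    refine ⟨-Real.log (ε * m / 2 / (R.card * (1 / ε * W) + 1)), ?_⟩
    rw [neg_neg, Real.exp_log (by positivity)]
    have h0 : 0 ≤ (R.card : ℝ) * (1 / ε * W) := by positivity
    have h1 : (R.card : ℝ) * (1 / ε * (ε * m / 2 / (R.card * (1 / ε * W) + 1) * W)) =
        (ε * m / 2) * ((R.card * (1 / ε * W)) / (R.card * (1 / ε * W) + 1)) := by ring
    rw [h1]
    have h2 : (R.card * (1 / ε * W)) / (R.card * (1 / ε * W) + 1) ≤ 1 := by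
      rw [div_le_one (by positivity)]
      linarith
    have h3 : 0 ≤ ε * m / 2 := by positivity
    nlinarith
  refine ⟨D, ε * m / 2, by positivity, ?_⟩
  intro k hk n x κ hn hκ hκ1 hx hdich hlog
  have hxpos : ∀ i, 0 < x i := fun i => hκ.trans_le (hx i)
  by_cases hall : ∀ r ∈ R, ∑ i, n i * reactionVector r i = 0
  · exact Or.inl hall
  right
  -- abbreviations
  set M : Reaction d → ℝ := fun r => ∏ i, x i ^ r.1 i with hM
  set v : Reaction d → ℝ := fun r => ∑ i, n i * reactionVector r i with hv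
  have hMpos : ∀ r, 0 < M r := fun r => Finset.prod_pos fun i _ => pow_pos (hxpos i) _
  have hvint : ∀ r, v r = ∑ i, (((r.2 i : ℤ) - (r.1 i : ℤ) : ℤ) : ℝ) * n i := by
    intro r
    simp only [hv]
    apply Finset.sum_congr rfl
    intro i _
    simp only [reactionVector]
    push_cast
    ring
  have hvdich : ∀ r ∈ R, v r = 0 ∨ m ≤ |v r| := by
    intro r hr
    rw [hvint]
    apply hdich
    intro i
    have := hB r hr i
    rw [abs_le]
    constructor <;> omega
  have hvW : ∀ r ∈ R, |v r| ≤ W := by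
    intro r hr
    have h1 : |v r| ≤ ∑ i : Fin d, a * B := by
      refine (Finset.abs_sum_le_sum_abs _ _).trans (Finset.sum_le_sum fun i _ => ?_)
      rw [abs_mul]
      refine mul_le_mul (hn i) ?_ (abs_nonneg _) ha.le
      have h2 := hB r hr i
      simp only [reactionVector]
      have h3 : (r.1 i : ℝ) ≤ B := by exact_mod_cast h2.1
      have h4 : (r.2 i : ℝ) ≤ B := by exact_mod_cast h2.2
      have h5 : (0 : ℝ) ≤ r.1 i := by positivity
      have h6 : (0 : ℝ) ≤ r.2 i := by positivity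
      rw [abs_le]
      constructor <;> linarith
    rw [Finset.sum_const, Finset.card_univ, Fintype.card_fin, nsmul_eq_mul, ← hW] at h1
    exact h1
  have hneg : (R.filter fun r => v r < 0).Nonempty := by
    simp only [not_forall] at hall
    obtain ⟨r, hr, hvr⟩ := hall
    rcases lt_or_gt_of_ne hvr with h1 | h1
    · exact ⟨r, Finset.mem_filter.mpr ⟨hr, h1⟩⟩
    · obtain ⟨s, hs, _, h2⟩ := hR n r hr h1
      exact ⟨s, Finset.mem_filter.mpr ⟨hs, h2⟩⟩
  obtain ⟨s, hs, hsmax⟩ := Finset.exists_max_image _ M hneg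
  rw [Finset.mem_filter] at hs
  have hsR := hs.1
  have hvs : v s ≤ -m := by
    rcases hvdich s hsR with h1 | h1
    · exact absurd h1 hs.2.ne
    · rw [abs_of_neg hs.2] at h1
      linarith
  have hlogM : ∀ r, Real.log (M r) = ∑ i, (r.1 i : ℝ) * Real.log (x i) := by
    intro r
    simp only [hM]
    rw [Real.log_prod (fun i _ => (pow_pos (hxpos i) _).ne')]
    apply Finset.sum_congr rfl
    intro i _
    rw [Real.log_pow]
  have hbad : ∀ r ∈ R, 0 < v r → M r ≤ Real.exp (-D) * M s := by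
    intro r hr hvr
    obtain ⟨q, hq, h1, h2⟩ := hR n r hr hvr
    have h3 : M q ≤ M s := hsmax q (Finset.mem_filter.mpr ⟨hq, h2⟩)
    have h4 := hlog (fun i => (q.1 i : ℤ) - (r.1 i : ℤ)) (by
      intro i
      have h5 := hB r hr i
      have h6 := hB q hq i
      rw [abs_le]
      constructor <;> omega) (by
      have : ∑ i, (((q.1 i : ℤ) - (r.1 i : ℤ) : ℤ) : ℝ) * n i =
          ∑ i, n i * (q.1 i : ℝ) - ∑ i, n i * (r.1 i : ℝ) := by
        rw [← Finset.sum_sub_distrib]
        apply Finset.sum_congr rfl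
        intro i _
        push_cast
        ring
      rw [this]
      linarith)
    have h7 : ∑ i, (((q.1 i : ℤ) - (r.1 i : ℤ) : ℤ) : ℝ) * Real.log (x i) =
        Real.log (M q) - Real.log (M r) := by
      rw [hlogM, hlogM, ← Finset.sum_sub_distrib]
      apply Finset.sum_congr rfl
      intro i _
      push_cast
      ring
    rw [h7] at h4
    have h8 : M r ≤ Real.exp (-D) * M q := by
      have e1 : Real.exp (-D) * M q = Real.exp (-D + Real.log (M q)) := by
        rw [Real.exp_add, Real.exp_log (hMpos q)]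
      rw [e1, ← Real.log_le_iff_le_exp (hMpos r)]
      linarith
    refine h8.trans ?_
    exact mul_le_mul_of_nonneg_left h3 (Real.exp_pos _).le
  rw [dot_massAction]
  rw [← Finset.add_sum_erase R _ hsR]
  have hterm : ∀ r ∈ R.erase s, k r * (∏ i, x i ^ r.1 i) * ∑ i, n i * reactionVector r i ≤
      1 / ε * (Real.exp (-D) * M s * W) := by
    intro r hr
    have hrR := Finset.mem_of_mem_erase hr
    have e : k r * (∏ i, x i ^ r.1 i) * ∑ i, n i * reactionVector r i = k r * (M r * v r) := by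
      simp only [hM, hv]
      ring
    rw [e]
    have hk1 := hk r hrR
    have hk0 : 0 < k r := hε.trans_le hk1.1
    have h0 : 0 ≤ 1 / ε * (Real.exp (-D) * M s * W) := by
      have := hMpos s
      positivity
    rcases le_or_gt (v r) 0 with h1 | h1
    · refine le_trans ?_ h0
      exact mul_nonpos_of_nonneg_of_nonpos hk0.le
        (mul_nonpos_of_nonneg_of_nonpos (hMpos r).le h1)
    · have h2 := hbad r hrR h1
      have h3 : v r ≤ W := (le_abs_self _).trans (hvW r hrR)
      have h4 : M r * v r ≤ Real.exp (-D) * M s * W :=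
        mul_le_mul h2 h3 h1.le (by have := hMpos s; positivity)
      exact mul_le_mul hk1.2 h4 (by have := hMpos r; positivity) (by positivity)
  have hsum := Finset.sum_le_sum hterm
  rw [Finset.sum_const, nsmul_eq_mul] at hsum
  have hcard : ((R.erase s).card : ℝ) ≤ R.card := by
    exact_mod_cast Finset.card_le_card (Finset.erase_subset s R)
  have hMs := hMpos s
  have h1 : ((R.erase s).card : ℝ) * (1 / ε * (Real.exp (-D) * M s * W)) ≤ ε * m / 2 * M s := by
    have e1 : ((R.erase s).card : ℝ) * (1 / ε * (Real.exp (-D) * M s * W)) ≤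
        (R.card : ℝ) * (1 / ε * (Real.exp (-D) * M s * W)) :=
      mul_le_mul_of_nonneg_right hcard (by positivity)
    have e2 : (R.card : ℝ) * (1 / ε * (Real.exp (-D) * M s * W)) =
        ((R.card : ℝ) * (1 / ε * (Real.exp (-D) * W))) * M s := by ring
    rw [e2] at e1
    exact e1.trans (mul_le_mul_of_nonneg_right hD hMs.le)
  have h2 : k s * (∏ i, x i ^ s.1 i) * ∑ i, n i * reactionVector s i ≤ -(ε * m * M s) := by
    have e : k s * (∏ i, x i ^ s.1 i) * ∑ i, n i * reactionVector s i = k s * (M s * v s) := by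
      simp only [hM, hv]
      ring
    rw [e]
    have hks := hk s hsR
    have e3 : M s * v s ≤ M s * (-m) := mul_le_mul_of_nonneg_left hvs hMs.le
    have e4 : k s * (M s * v s) ≤ k s * (M s * (-m)) :=
      mul_le_mul_of_nonneg_left e3 (hε.le.trans hks.1)
    have e5 : ε * (M s * m) ≤ k s * (M s * m) :=
      mul_le_mul_of_nonneg_right hks.1 (by positivity)
    nlinarith
  have h3 : κ ^ (d * B) ≤ M s := by
    simp only [hM]
    have e1 : κ ^ (d * B) = ∏ _i : Fin d, κ ^ B := by
      rw [Finset.prod_const, Finset.card_univ, Fintype.card_fin, ← pow_mul, mul_comm]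
    rw [e1]
    apply Finset.prod_le_prod
    · intro i _
      positivity
    · intro i _
      calc κ ^ B ≤ κ ^ (s.1 i) := pow_le_pow_of_le_one hκ.le hκ1 (hB s hsR i).1
        _ ≤ x i ^ s.1 i := pow_le_pow_left₀ hκ.le (hx i) _
  have h4 : ε * m / 2 * κ ^ (d * B) ≤ ε * m / 2 * M s :=
    mul_le_mul_of_nonneg_left h3 (by positivity)
  linarith

theorem exists_rate_bound {d : ℕ} (R : Finset (Reaction d)) (k : Reaction d → ℝ)
    (hk : ∀ r ∈ R, 0 < k r) : ∃ ε > 0, ∀ r ∈ R, ε ≤ k r ∧ k r ≤ 1 / ε := by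
  induction R using Finset.induction_on with
  | empty => exact ⟨1, one_pos, by simp⟩
  | insert r R hrR ih =>
    obtain ⟨ε, hε, h⟩ := ih fun s hs => hk s (Finset.mem_insert_of_mem hs)
    have hkr := hk r (Finset.mem_insert_self _ _)
    refine ⟨min ε (min (k r) (1 / k r)), by positivity, ?_⟩
    intro s hs
    rcases Finset.mem_insert.mp hs with rfl | hs
    · refine ⟨(min_le_right _ _).trans (min_le_left _ _), ?_⟩
      have h1 : min ε (min (k s) (1 / k s)) ≤ 1 / k s := (min_le_right _ _).trans (min_le_right _ _)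
      rw [le_div_iff₀ hkr] at h1
      rw [le_div_iff₀ (by positivity)]
      linarith
    · have h1 := h s hs
      refine ⟨(min_le_left _ _).trans h1.1, h1.2.trans ?_⟩
      exact one_div_le_one_div_of_le (by positivity) (min_le_left _ _)

end Vale.Agent.P072
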