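import Vale.Agent.P072.Step

namespace Vale.Agent.P072.Tree

open Real

/-- standing assumptions on the constants -/
structure Par (ε : ℝ) (B r : ℕ) (a : ℝ) (K : ℤ) : Prop where
  small : Small ε B r
  a0 : 0 < a
  K_le : a + 4 ≤ K * ε ^ (ell r)

lemma Par.H_pos {ε a : ℝ} {B r : ℕ} {K : ℤ} (h : Par ε B r a K) : 0 < ε ^ (ell r) :=
  pow_pos h.small.pos _

lemma Par.le_mesh {ε a : ℝ} {B r : ℕ} {K : ℤ} (h : Par ε B r a K) {p n : ℕ}
    (hp : p + ell n ≤ ell r) : ε ^ (ell r) ≤ mesh ε p n := h.small.pow_le hp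

lemma Par.bound {ε a : ℝ} {B r : ℕ} {K : ℤ} (h : Par ε B r a K) {p n : ℕ}
    (hp : p + ell n ≤ ell r) {k : ℤ} (hk : |(k : ℝ) * mesh ε p n| ≤ a + 4) : |k| ≤ K := by
  have hH := h.H_pos
  have hm := h.le_mesh hp
  have hK : (0 : ℝ) ≤ K := by
    by_contra hneg
    have hneg := not_le.mp hneg
    have h1 := h.K_le
    have h2 := h.a0
    nlinarith
  have : ((|k| : ℤ) : ℝ) ≤ K := by
    rw [abs_mul, abs_of_pos (mesh_pos h.small.pos p n)] at hk
    rw [Int.cast_abs]
    by_contra hlt
    have hlt := not_le.mp hlt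
    have h1 : (K : ℝ) * ε ^ ell r ≤ K * mesh ε p n := mul_le_mul_of_nonneg_left hm hK
    have h2 : (K : ℝ) * mesh ε p n < |(k : ℝ)| * mesh ε p n :=
      mul_lt_mul_of_pos_right hlt (mesh_pos h.small.pos p n)
    have := h.K_le
    linarith
  exact_mod_cast this

lemma obj_eq (ε : ℝ) (B : ℕ) (Λ : ℝ) : ∀ (ks : List ℤ) (L : List ℝ) (p : ℕ) (xs : List ℝ),
    ks.length = xs.length →
    obj ε B Λ ks L p xs =
      dotR (vals ε B ks L p) xs - ((exps ε B ks L p).map (fun e => exp (Λ * e))).sum
  | [], L, p, xs, h => by simp [obj, vals, exps, dotR]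
  | k :: ks, L, p, [], h => by simp at h
  | k :: ks, L, p, x :: xs, h => by
    simp only [List.length_cons, add_left_inj] at h
    simp only [obj, vals, exps, dotR, List.map_cons, List.sum_cons]
    rw [obj_eq ε B Λ ks _ _ xs h]
    ring

lemma vals_length (ε : ℝ) (B : ℕ) : ∀ (ks : List ℤ) (L : List ℝ) (p : ℕ),
    (vals ε B ks L p).length = ks.length
  | [], L, p => by simp [vals]
  | k :: ks, L, p => by simp [vals, vals_length ε B ks]

lemma exps_length (ε : ℝ) (B : ℕ) : ∀ (ks : List ℤ) (L : List ℝ) (p : ℕ),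
    (exps ε B ks L p).length = ks.length
  | [], L, p => by simp [exps]
  | k :: ks, L, p => by simp [exps, exps_length ε B ks]

lemma vals_le {ε : ℝ} (hε : 0 < ε) (B : ℕ) : ∀ (ks : List ℤ) (L : List ℝ) (p : ℕ),
    ∀ v ∈ vals ε B ks L p, v ≤ hd L
  | [], L, p => by simp [vals]
  | k :: ks, L, p => by
    intro v hv
    simp only [vals, List.mem_cons] at hv
    have h1 := step_le_hd hε B L p ks.length k
    rcases hv with rfl | hv
    · exact h1
    · have := vals_le hε B ks _ _ v hv
      simp only [hd, List.headD_cons] at this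
      exact this.trans h1

lemma vals_pairwise {ε : ℝ} (hε : 0 < ε) (B : ℕ) : ∀ (ks : List ℤ) (L : List ℝ) (p : ℕ),
    (vals ε B ks L p).Pairwise (· ≥ ·)
  | [], L, p => by simp [vals]
  | k :: ks, L, p => by
    simp only [vals, List.pairwise_cons]
    refine ⟨?_, vals_pairwise hε B ks _ _⟩
    intro v hv
    have := vals_le hε B ks _ _ v hv
    simpa only [hd, List.headD_cons] using this

lemma fin_fst (ε : ℝ) (B : ℕ) : ∀ (ks : List ℤ) (L : List ℝ) (p : ℕ),
    (fin ε B ks L p).1 = (vals ε B ks L p).reverse ++ L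
  | [], L, p => by simp [fin, vals]
  | k :: ks, L, p => by
    simp only [fin, vals, List.reverse_cons, List.append_assoc, List.singleton_append]
    rw [fin_fst ε B ks]

lemma obj_le (ε : ℝ) (B : ℕ) (Λ : ℝ) (ks : List ℤ) (L : List ℝ) (p : ℕ) (xs : List ℝ)
    (h : ks.length = xs.length) : obj ε B Λ ks L p xs ≤ dotR (vals ε B ks L p) xs := by
  rw [obj_eq ε B Λ ks L p xs h]
  have : 0 ≤ ((exps ε B ks L p).map (fun e => exp (Λ * e))).sum := by
    apply List.sum_nonneg
    intro v hv
    simp only [List.mem_map] at hv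
    obtain ⟨e, _, rfl⟩ := hv
    exact (exp_pos _).le
  linarith

/-- competitor with a cap on its exponents and a bounded loss in its values -/
lemma phase2 {ε a Λ : ℝ} {B r : ℕ} {K : ℤ} (h : Par ε B r a K) (hΛ : 0 ≤ Λ) {D y : ℝ}
    (hD : 0 ≤ D) (hy : -(a + 3) ≤ y) :
    ∀ (xs ts : List ℝ) (L : List ℝ) (p : ℕ), ts.length = xs.length →
      p + ell xs.length ≤ ell r → (∀ x ∈ xs, 0 ≤ x) →
      ts.Pairwise (· ≥ ·) → (∀ t ∈ ts, t ≤ 1) → (∀ t ∈ ts, t ≤ y + D) →
      (∀ t ∈ ts, t ≤ hd L + 1 + D) →
      ∃ ks : List ℤ, ks.length = xs.length ∧ (∀ k ∈ ks, |k| ≤ K) ∧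
        dotR ts xs - (D + 1) * xs.sum - xs.length * exp (Λ * y) ≤ obj ε B Λ ks L p xs := by
  intro xs
  induction xs with
  | nil =>
    intro ts L p hlen _ _ _ _ _ _
    have : ts = [] := by simpa using hlen
    subst this
    exact ⟨[], by simp, by simp, by simp [obj, dotR]⟩
  | cons x xs ih =>
    intro ts L p hlen hp hx hpw h1 h2 h3
    match ts, hlen, hpw, h1, h2, h3 with
    | t :: ts, hlen, hpw, h1, h2, h3 =>
      simp only [List.length_cons, add_left_inj] at hlen
      rw [List.length_cons] at hp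
      rw [List.pairwise_cons] at hpw
      have hs := h.small
      have ha0 := h.a0
      set c := xs.length with hc
      set m := mesh ε p (c + 1) with hm
      have hmpos : 0 < m := mesh_pos hs.pos _ _
      have hρ := rad_pos hs.pos p c
      have hρ' := rad_le hs p c
      have hmρ : 16 * m ≤ rad ε p c := mesh_le_rad hs p c
      set v := max (min t y) (-(a + 3)) with hv
      have hvy : v ≤ y := max_le (min_le_right _ _) hy
      have ht1 : t ≤ 1 := h1 t (by simp)
      have hv1 : v ≤ 1 := max_le ((min_le_left _ _).trans ht1) (by linarith)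
      have hva : -(a + 3) ≤ v := le_max_right _ _
      have hvt : min t y ≤ v := le_max_left _ _
      set k : ℤ := ⌊v / m⌋ with hk
      have hk1 : (k : ℝ) * m ≤ v := by
        have := Int.floor_le (v / m)
        rw [← hk] at this
        rwa [le_div_iff₀ hmpos] at this
      have hk2 : v < (k : ℝ) * m + m := by
        have := Int.lt_floor_add_one (v / m)
        rw [← hk] at this
        rw [div_lt_iff₀ hmpos] at this
        linarith
      have hkK : |k| ≤ K := by
        apply h.bound hp
        rw [← hm, abs_le]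
        constructor <;> linarith
      have hθ := min_le_step hs.pos B L p c k
      set θ := (step ε B L p c k).1 with hθd
      have hθt : t - (D + 1) ≤ θ := by
        refine le_trans (le_min ?_ ?_) hθ
        · have := h3 t (by simp)
          linarith
        · rw [← hm]
          have h5 : t - D ≤ min t y := le_min (by linarith) (by have := h2 t (by simp); linarith)
          linarith
      obtain ⟨ks, hks, hksK, hobj⟩ := ih ts (θ :: L) (step ε B L p c k).2 hlen
        (by have := step_exp_le ε B L p c k; omega)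
        (fun x hx' => hx x (by simp [hx']))
        hpw.2 (fun t ht => h1 t (by simp [ht])) (fun t ht => h2 t (by simp [ht]))
        (by
          intro t' ht'
          have := hpw.1 t' ht'
          simp only [hd, List.headD_cons]
          linarith)
      refine ⟨k :: ks, by simp [hks, hc], ?_, ?_⟩
      · intro k' hk'
        simp only [List.mem_cons] at hk'
        rcases hk' with rfl | hk'
        · exact hkK
        · exact hksK k' hk'
      · simp only [obj, hks, dotR, List.sum_cons, List.length_cons]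
        rw [← hθd, ← hm]
        have hx0 : 0 ≤ x := hx x (by simp)
        have e1 : exp (Λ * (k * m)) ≤ exp (Λ * y) := by
          apply exp_le_exp.mpr
          exact mul_le_mul_of_nonneg_left (hk1.trans hvy) hΛ
        have e2 : (t - (D + 1)) * x ≤ θ * x := mul_le_mul_of_nonneg_right hθt hx0
        push_cast
        nlinarith

/-- joining all remaining coordinates -/
lemma allJoin {ε a : ℝ} {B r : ℕ} {K : ℤ} (h : Par ε B r a K) {y : ℝ} :
    ∀ (n : ℕ) (L : List ℝ) (p : ℕ), p + ell n ≤ ell r → |hd L| ≤ a + 3 →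
      (∀ c, n = c + 1 → hd L - rad ε p c + 2 * mesh ε p (c + 1) ≤ y) →
      ∃ ks : List ℤ, ks.length = n ∧ (∀ k ∈ ks, |k| ≤ K) ∧
        (∀ v ∈ vals ε B ks L p, v = hd L) ∧ (∀ e ∈ exps ε B ks L p, e ≤ y) := by
  intro n
  induction n with
  | zero =>
    intro L p _ _ _
    exact ⟨[], by simp, by simp, by simp [vals], by simp [exps]⟩
  | succ c ih =>
    intro L p hp hL hcond
    have hs := h.small
    have ha0 := h.a0
    have hcond := hcond c rfl
    set m := mesh ε p (c + 1) with hm
    have hmpos : 0 < m := mesh_pos hs.pos _ _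
    have hρ := rad_pos hs.pos p c
    have hρ' := rad_le hs p c
    have hmρ : 16 * m ≤ rad ε p c := mesh_le_rad hs p c
    set k : ℤ := ⌊(hd L - rad ε p c) / m⌋ + 1 with hk
    have hk1 : (k : ℝ) * m ≤ hd L - rad ε p c + m := by
      have := Int.floor_le ((hd L - rad ε p c) / m)
      rw [le_div_iff₀ hmpos] at this
      rw [hk]
      push_cast
      linarith
    have hk2 : hd L - rad ε p c < (k : ℝ) * m := by
      have := Int.lt_floor_add_one ((hd L - rad ε p c) / m)
      rw [div_lt_iff₀ hmpos] at this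
      rw [hk]
      push_cast
      linarith
    have hL' := abs_le.mp hL
    have hkK : |k| ≤ K := by
      apply h.bound hp
      rw [← hm, abs_le]
      constructor <;> linarith
    have hstep : step ε B L p c k = (hd L, p + 1) := by
      rcases step_cases ε B L p c k with ⟨_, h1⟩ | ⟨h1, _⟩ | ⟨h1, _⟩
      · exact h1
      · rw [← hm] at h1; linarith
      · rw [← hm] at h1; linarith
    obtain ⟨ks, hks, hksK, hv, he⟩ := ih (hd L :: L) (p + 1)
      (by have := step_exp_le ε B L p c k; rw [hstep] at this; simp only at this; omega)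
      (by simpa only [hd, List.headD_cons] using hL)
      (by
        intro c' hc'
        subst hc'
        have e1 : mesh ε (p + 1) (c' + 1) = rad ε p (c' + 1) := by
          simp only [mesh, rad]
          congr 1
          omega
        have e2 := mesh_le_rad hs (p + 1) c'
        rw [e1] at e2 ⊢
        simp only [hd, List.headD_cons] at hcond ⊢
        linarith)
    refine ⟨k :: ks, by simp [hks], ?_, ?_, ?_⟩
    · intro k' hk'
      simp only [List.mem_cons] at hk'
      rcases hk' with rfl | hk'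
      · exact hkK
      · exact hksK k' hk'
    · intro v hv'
      simp only [vals, hks, hstep, List.mem_cons] at hv'
      rcases hv' with rfl | hv'
      · rfl
      · have := hv v hv'
        simpa only [hd, List.headD_cons] using this
    · intro e he'
      simp only [exps, hks, hstep, List.mem_cons] at he'
      rcases he' with rfl | he'
      · rw [← hm]
        linarith
      · exact he e he'

lemma dotR_le_of_le {q : ℝ} : ∀ (xs ts us : List ℝ), ts.length = xs.length →
    us.length = xs.length → (∀ x ∈ xs, 0 ≤ x) → (∀ t ∈ ts, t ≤ q) → (∀ u ∈ us, u = q) →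
    dotR ts xs ≤ dotR us xs
  | [], ts, us, h1, h2, _, _, _ => by
    have : ts = [] := by simpa using h1
    have : us = [] := by simpa using h2
    subst_vars
    exact le_rfl
  | x :: xs, [], us, h1, _, _, _, _ => by simp at h1
  | x :: xs, t :: ts, [], _, h2, _, _, _ => by simp at h2
  | x :: xs, t :: ts, u :: us, h1, h2, hx, ht, hu => by
    simp only [List.length_cons, add_left_inj] at h1 h2
    simp only [dotR]
    have ih := dotR_le_of_le xs ts us h1 h2 (fun x hx' => hx x (by simp [hx']))
      (fun t ht' => ht t (by simp [ht'])) (fun u hu' => hu u (by simp [hu']))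
    have h3 : u = q := hu u (by simp)
    have h4 : t ≤ q := ht t (by simp)
    have h5 : 0 ≤ x := hx x (by simp)
    rw [h3]
    have := mul_le_mul_of_nonneg_right h4 h5
    linarith

lemma sum_map_exp_le {Λ y : ℝ} (hΛ : 0 ≤ Λ) : ∀ (es : List ℝ), (∀ e ∈ es, e ≤ y) →
    (es.map (fun e => exp (Λ * e))).sum ≤ es.length * exp (Λ * y)
  | [], _ => by simp
  | e :: es, h => by
    simp only [List.map_cons, List.sum_cons, List.length_cons]
    have ih := sum_map_exp_le hΛ es (fun e he => h e (by simp [he]))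
    have h1 : exp (Λ * e) ≤ exp (Λ * y) :=
      exp_le_exp.mpr (mul_le_mul_of_nonneg_left (h e (by simp)) hΛ)
    push_cast
    linarith

lemma phase1 {ε a Λ : ℝ} {B r : ℕ} {K : ℤ} (h : Par ε B r a K) (hΛ : 0 ≤ Λ) {y : ℝ}
    (xs ts L : List ℝ) (p : ℕ) (hlen : ts.length = xs.length)
    (hp : p + ell xs.length ≤ ell r) (hL : |hd L| ≤ a + 3)
    (hcond : ∀ c, xs.length = c + 1 → hd L - rad ε p c + 2 * mesh ε p (c + 1) ≤ y)
    (hx : ∀ x ∈ xs, 0 ≤ x) (ht : ∀ t ∈ ts, t ≤ hd L) :
    ∃ ks : List ℤ, ks.length = xs.length ∧ (∀ k ∈ ks, |k| ≤ K) ∧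
      dotR ts xs - xs.length * exp (Λ * y) ≤ obj ε B Λ ks L p xs := by
  obtain ⟨ks, hks, hksK, hv, he⟩ := allJoin h (y := y) xs.length L p hp hL hcond
  refine ⟨ks, hks, hksK, ?_⟩
  rw [obj_eq ε B Λ ks L p xs hks]
  have h1 := dotR_le_of_le xs ts (vals ε B ks L p) hlen (by rw [vals_length, hks]) hx ht hv
  have h2 := sum_map_exp_le hΛ _ he
  rw [exps_length, hks] at h2
  linarith

lemma sum_le_length_mul {q : ℝ} : ∀ (xs : List ℝ), (∀ x ∈ xs, x ≤ q) →
    xs.sum ≤ xs.length * q
  | [], _ => by simp
  | x :: xs, h => by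
    simp only [List.sum_cons, List.length_cons]
    have := sum_le_length_mul xs (fun y hy => h y (by simp [hy]))
    have := h x (by simp)
    push_cast
    linarith

/-- lower bound for a coordinate of an optimal choice -/
lemma lower {ε a Λ : ℝ} {B r : ℕ} {K : ℤ} (h : Par ε B r a K) (hΛ : 0 < Λ)
    (hδ : (3 * r + 2) * exp (-(Λ * ε ^ ell r)) ≤ 1) {x : ℝ} {xs : List ℝ} {k : ℤ}
    {ks : List ℤ} {L : List ℝ} {p : ℕ} (hlen : ks.length = xs.length)
    (hk : |k| ≤ K) (hp : p + ell (xs.length + 1) ≤ ell r) (hr : xs.length ≤ r)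
    (hx : 0 < x) (hxs : ∀ y ∈ xs, 0 ≤ y ∧ y ≤ x) (ha : -a * Λ ≤ log x) (hL : hd L ≤ 1)
    (hmax : ∀ ks' : List ℤ, ks'.length = xs.length + 1 → (∀ k ∈ ks', |k| ≤ K) →
      obj ε B Λ ks' L p (x :: xs) ≤ obj ε B Λ (k :: ks) L p (x :: xs)) :
    Λ * (k * mesh ε p (xs.length + 1) - ε ^ ell r) ≤ log x := by
  by_contra hcon
  have hcon := not_le.mp hcon
  have hs := h.small
  have ha0 := h.a0
  set c := xs.length with hc
  set m := mesh ε p (c + 1) with hm
  have hmpos : 0 < m := mesh_pos hs.pos _ _
  have hHpos := h.H_pos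
  have hHm : ε ^ ell r ≤ m := h.le_mesh hp
  have hρ := rad_pos hs.pos p c
  have hρ' := rad_le hs p c
  have hmρ : 16 * m ≤ rad ε p c := mesh_le_rad hs p c
  set H := ε ^ ell r with hH
  -- `k * m > -a`
  have hka : -a < k * m := by
    have h1 : -a * Λ < Λ * (k * m - H) := lt_of_le_of_lt ha hcon
    have h2 : -a < k * m - H := by
      have : Λ * (-a) < Λ * (k * m - H) := by linarith
      exact lt_of_mul_lt_mul_left this hΛ.le
    linarith
  have hkm1 : (((k - 1 : ℤ) : ℝ)) * m = k * m - m := by push_cast; ring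
  set X := exp (Λ * (k * m)) with hX
  have hXpos : 0 < X := exp_pos _
  have hxX : x < X * exp (-(Λ * H)) := by
    rw [hX, ← exp_add, ← log_lt_iff_lt_exp hx]
    linarith
  -- θ values
  have hθ1 := step_le_hd hs.pos B L p c k
  have hθ2 := step_le_add hs.pos B L p c k
  have hθ3 := min_le_step hs.pos B L p c (k - 1)
  rw [← hm] at hθ2 hθ3
  rw [hkm1] at hθ3
  set θ := (step ε B L p c k).1 with hθ
  set θ' := (step ε B L p c (k - 1)).1 with hθ'
  have hdiff : θ - 1 / 2 ≤ θ' := by
    refine le_trans (le_min ?_ ?_) hθ3 <;> linarith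
  -- competitor
  have hkmK : k * m ≤ a + 4 ∨ a + 4 < k * m := le_or_gt _ _
  obtain ⟨ks', hks', hksK', hobj⟩ := phase2 h hΛ.le (D := 1) (y := k * m - m) (by norm_num)
    (by linarith) xs (vals ε B ks (θ :: L) (step ε B L p c k).2) (θ' :: L)
    (step ε B L p c (k - 1)).2 (by rw [vals_length, hlen])
    (by have := step_exp_le ε B L p c (k - 1); rw [← hc]; omega)
    (fun y hy => (hxs y hy).1) (vals_pairwise hs.pos B _ _ _)
    (by
      intro t ht
      have := vals_le hs.pos B _ _ _ t ht
      simp only [hd, List.headD_cons] at this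
      linarith)
    (by
      intro t ht
      have := vals_le hs.pos B _ _ _ t ht
      simp only [hd, List.headD_cons] at this
      linarith)
    (by
      intro t ht
      have := vals_le hs.pos B _ _ _ t ht
      simp only [hd, List.headD_cons] at this ⊢
      linarith)
  rw [← hc] at hks'
  have hmx := hmax ((k - 1) :: ks') (by simp [hks']) (by
    intro k' hk'
    simp only [List.mem_cons] at hk'
    rcases hk' with rfl | hk'
    · rw [abs_le] at hk ⊢
      constructor
      · -- (k-1) m ≥ -a - 1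
        by_contra hneg
        have hneg := not_le.mp hneg
        have h1 : ((k - 1 : ℤ) : ℝ) < ((-K : ℤ) : ℝ) := by exact_mod_cast hneg
        have h2 : ((k - 1 : ℤ) : ℝ) * m < ((-K : ℤ) : ℝ) * m :=
          mul_lt_mul_of_pos_right h1 hmpos
        have hK0 : (0 : ℝ) ≤ K := by
          have : |k| ≤ K := abs_le.mpr hk
          have : (0 : ℤ) ≤ K := (abs_nonneg k).trans this
          exact_mod_cast this
        have h3 : (K : ℝ) * H ≤ K * m := mul_le_mul_of_nonneg_left hHm hK0
        have h4 := h.K_le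
        rw [hkm1] at h2
        push_cast at h2
        linarith
      · linarith [hk.2]
    · exact hksK' k' hk')
  simp only [obj, hks', hlen] at hmx
  rw [← hθ, ← hθ', ← hm, hkm1, ← hX] at hmx
  have h6 := obj_le ε B Λ ks (θ :: L) (step ε B L p c k).2 xs hlen
  have h7 := sum_le_length_mul xs (fun y hy => (hxs y hy).2)
  rw [← hc] at h7 hobj
  have h8 : exp (Λ * (k * m - m)) ≤ X * exp (-(Λ * H)) := by
    rw [hX, ← exp_add]
    apply exp_le_exp.mpr
    have : Λ * H ≤ Λ * m := mul_le_mul_of_nonneg_left hHm hΛ.le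
    linarith
  set Y := X * exp (-(Λ * H)) with hY
  have hYpos : 0 < Y := by positivity
  have hcr : (c : ℝ) ≤ r := by exact_mod_cast hr
  have hc0 : (0 : ℝ) ≤ c := by positivity
  have h9 : (3 * r + 2) * Y ≤ X := by
    rw [hY]
    nlinarith
  -- assemble
  have h10 : θ * x - 1 / 2 * x ≤ θ' * x := by nlinarith
  have h11 : X ≤ 1 / 2 * x + 2 * (c * x) + (c + 1) * exp (Λ * (k * m - m)) := by
    have : (1 + 1 : ℝ) * xs.sum ≤ 2 * (c * x) := by linarith
    linarith
  have h12 : (c + 1) * exp (Λ * (k * m - m)) ≤ (c + 1) * Y :=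
    mul_le_mul_of_nonneg_left h8 (by positivity)
  have h13 : (c : ℝ) * x ≤ c * Y := mul_le_mul_of_nonneg_left hxX.le hc0
  have h14 : (c : ℝ) * Y ≤ r * Y := mul_le_mul_of_nonneg_right hcr hYpos.le
  nlinarith

end Vale.Agent.P072.Tree
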