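import Vale.Agent.P072.CoreStatement

namespace Vale.Agent.P072

structure CoreData (r B : ℕ) (τ m a : ℝ) where
  ι : Type
  fin : Fintype ι
  n : ι → Fin (r + 1) → ℝ
  γ : ι → Fin r → ℝ
  Λ₀ : ℝ
  A : ℝ
  hΛ : 0 < Λ₀
  hnτ : ∀ j i, n j i ≤ τ
  hnA : ∀ j i, |n j i| ≤ A
  hdich : ∀ j, ∀ z : Fin (r + 1) → ℤ, (∀ i, |z i| ≤ B) →
    ∑ i, (z i : ℝ) * n j i = 0 ∨ m ≤ |∑ i, (z i : ℝ) * n j i|
  hconst : ∃ j, (∀ i, n j i = τ) ∧ ∀ Λ, Λ₀ ≤ Λ →
    ∑ s, Real.exp (Λ * γ j s) ≤ Real.exp (τ * Λ) / 2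
  hmain : ∀ Λ, Λ₀ ≤ Λ → ∀ x : Fin (r + 1) → ℝ, (∀ i, 0 < x i) →
    (∀ i, -a * Λ ≤ Real.log (x i)) →
    (∀ j, ∑ i, n j i * x i ≤ τ * Real.exp (τ * Λ) + ∑ s, Real.exp (Λ * γ j s)) →
    ∀ j, ∑ i, n j i * x i = τ * Real.exp (τ * Λ) + ∑ s, Real.exp (Λ * γ j s) →
    ∀ z : Fin (r + 1) → ℤ, (∀ i, |z i| ≤ B) → 0 < ∑ i, (z i : ℝ) * n j i →
      m / 2 * Λ ≤ ∑ i, (z i : ℝ) * Real.log (x i)

theorem core_data (r B : ℕ) (τ : ℝ) (hτ : τ = 1 ∨ τ = -1) :
    ∃ m : ℝ, 0 < m ∧ m ≤ 1 ∧ ∀ a : ℝ, 0 < a → Nonempty (CoreData r B τ m a) := by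
  obtain ⟨m, h0, h1, h⟩ := core r B τ hτ
  refine ⟨m, h0, h1, fun a ha => ?_⟩
  obtain ⟨ι, fin, n, γ, Λ₀, A, a1, a2, a3, a4, a5, a6⟩ := h a ha
  exact ⟨⟨ι, fin, n, γ, Λ₀, A, a1, a2, a3, a4, a5, a6⟩⟩

theorem exists_min (mN : ℕ → ℝ) (h0 : ∀ r, 0 < mN r) (mT : ℝ) (hT : 0 < mT) (D : ℕ) :
    ∃ m : ℝ, 0 < m ∧ m ≤ mT ∧ ∀ r, r < D → m ≤ mN r := by
  induction D with
  | zero => exact ⟨mT, hT, le_rfl, fun r hr => absurd hr (by omega)⟩
  | succ D ih =>
    obtain ⟨m, h1, h2, h3⟩ := ih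
    refine ⟨min m (mN D), lt_min h1 (h0 D), (min_le_left _ _).trans h2, ?_⟩
    intro r hr
    rcases Nat.lt_succ_iff_lt_or_eq.mp hr with h | h
    · exact (min_le_left _ _).trans (h3 r h)
    · rw [h]; exact min_le_right _ _

theorem exists_max (mN : ℕ → ℝ) (mT : ℝ) (D : ℕ) :
    ∃ m : ℝ, 2 ≤ m ∧ mT ≤ m ∧ ∀ r, r < D → mN r ≤ m := by
  induction D with
  | zero => exact ⟨max 2 mT, le_max_left _ _, le_max_right _ _, fun r hr => absurd hr (by omega)⟩
  | succ D ih =>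
    obtain ⟨m, h1, h2, h3⟩ := ih
    refine ⟨max m (mN D), h1.trans (le_max_left _ _), h2.trans (le_max_left _ _), ?_⟩
    intro r hr
    rcases Nat.lt_succ_iff_lt_or_eq.mp hr with h | h
    · exact (h3 r h).trans (le_max_left _ _)
    · rw [h]; exact le_max_right _ _

noncomputable def ext {p d : ℕ} (e : Fin p ↪ Fin d) (v : Fin p → ℝ) : Fin d → ℝ :=
  fun i => ∑ s, if e s = i then v s else 0

theorem sum_mul_ext {p d : ℕ} (e : Fin p ↪ Fin d) (v : Fin p → ℝ) (x : Fin d → ℝ) :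
    ∑ i, x i * ext e v i = ∑ s, x (e s) * v s := by
  unfold ext
  simp_rw [Finset.mul_sum]
  rw [Finset.sum_comm]
  apply Finset.sum_congr rfl
  intro s _
  rw [Finset.sum_eq_single (e s)]
  · simp
  · intro b _ hb
    rw [if_neg (Ne.symm hb), mul_zero]
  · intro h; exact absurd (Finset.mem_univ _) h

theorem sum_ext_mul {p d : ℕ} (e : Fin p ↪ Fin d) (v : Fin p → ℝ) (x : Fin d → ℝ) :
    ∑ i, ext e v i * x i = ∑ s, v s * x (e s) := by
  have := sum_mul_ext e v x
  simpa [mul_comm] using this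

theorem ext_apply {p d : ℕ} (e : Fin p ↪ Fin d) (v : Fin p → ℝ) (s : Fin p) :
    ext e v (e s) = v s := by
  unfold ext
  rw [Finset.sum_eq_single s]
  · simp
  · intro b _ hb
    rw [if_neg]
    intro h; exact hb (e.injective h)
  · intro h; exact absurd (Finset.mem_univ _) h

theorem ext_zero {p d : ℕ} (e : Fin p ↪ Fin d) (v : Fin p → ℝ) (i : Fin d)
    (hi : ∀ s, e s ≠ i) : ext e v i = 0 := by
  unfold ext
  apply Finset.sum_eq_zero
  intro s _
  rw [if_neg (hi s)]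

theorem abs_ext_le {p d : ℕ} (e : Fin p ↪ Fin d) (v : Fin p → ℝ) (A : ℝ) (hA : 0 ≤ A)
    (hv : ∀ s, |v s| ≤ A) (i : Fin d) : |ext e v i| ≤ A := by
  by_cases h : ∃ s, e s = i
  · obtain ⟨s, rfl⟩ := h
    rw [ext_apply]; exact hv s
  · push Not at h
    rw [ext_zero e v i h, abs_zero]; exact hA

theorem exp_two_ge : (4 : ℝ) ≤ Real.exp 2 := by
  have h15 : (2 : ℝ) ≤ Real.exp 1 := by
    have := Real.add_one_le_exp (1 : ℝ); linarith
  have h16 : Real.exp 2 = Real.exp 1 * Real.exp 1 := by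
    rw [← Real.exp_add]; norm_num
  rw [h16]; nlinarith

theorem exp_neg_le_quarter (y : ℝ) (hy : 2 ≤ y) : Real.exp (-y) ≤ 1 / 4 := by
  have h20 : (4 : ℝ) ≤ Real.exp y := exp_two_ge.trans (Real.exp_le_exp.mpr hy)
  rw [Real.exp_neg, inv_le_comm₀ (Real.exp_pos _) (by norm_num)]
  norm_num
  exact h20

theorem two_exp_le (l y : ℝ) (hl : 2 ≤ l) (hy : l + l ≤ y) : 2 * Real.exp l ≤ Real.exp y := by
  have h2 : (2 : ℝ) ≤ Real.exp l := by
    have := Real.add_one_le_exp l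
    linarith
  calc 2 * Real.exp l ≤ Real.exp l * Real.exp l := by
        have := Real.exp_pos l
        nlinarith
    _ = Real.exp (l + l) := (Real.exp_add _ _).symm
    _ ≤ Real.exp y := Real.exp_le_exp.mpr hy

theorem log_bound (l Λ Λ' xi S : ℝ) (hl : 2 ≤ l) (hlΛ : l ≤ Λ') (hΛ : 2 * Λ' ≤ Λ)
    (hxi : 0 < xi) (hup : xi ≤ 2 * Real.exp l) (hS : S ≤ Real.exp (-Λ))
    (hsum : Real.exp (-Λ') / 2 ≤ xi + S) : |Real.log xi| ≤ 2 * Λ' := by
  rw [abs_le]
  constructor
  · have h11 : Real.exp (-Λ) ≤ Real.exp (-Λ') / 4 := by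
      calc Real.exp (-Λ) ≤ Real.exp (-Λ' + -Λ') := Real.exp_le_exp.mpr (by linarith)
        _ = Real.exp (-Λ') * Real.exp (-Λ') := Real.exp_add _ _
        _ ≤ Real.exp (-Λ') * (1 / 4) :=
          mul_le_mul_of_nonneg_left (exp_neg_le_quarter _ (by linarith)) (Real.exp_pos _).le
        _ = Real.exp (-Λ') / 4 := by ring
    have h17 : Real.exp (-Λ') / 4 ≤ xi := by linarith
    rw [Real.le_log_iff_exp_le hxi]
    refine le_trans ?_ h17
    have h18 : Real.exp (-(2 * Λ')) = Real.exp (-Λ') * Real.exp (-Λ') := by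
      rw [← Real.exp_add]; congr 1; ring
    rw [h18]
    have h19 := exp_neg_le_quarter Λ' (by linarith)
    have := Real.exp_pos (-Λ')
    nlinarith
  · rw [Real.log_le_iff_le_exp hxi]
    exact hup.trans (two_exp_le l _ hl (by linarith))

theorem sum_split {p d : ℕ} (e : Fin p ↪ Fin d) (f : Fin d → ℝ)
    [DecidablePred (fun i => ∀ s, e s ≠ i)] :
    ∑ i, f i = ∑ s, f (e s) + ∑ i ∈ Finset.univ.filter (fun i => ∀ s, e s ≠ i), f i := by
  classical
  have h2 : ∑ s, f (e s) = ∑ i ∈ Finset.univ.map e, f i := by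
    rw [Finset.sum_map]
  rw [h2, ← Finset.sum_union]
  · apply Finset.sum_congr _ (fun _ _ => rfl)
    ext i
    simp only [Finset.mem_univ, Finset.mem_union, Finset.mem_map, true_and,
      Finset.mem_filter, true_iff]
    by_cases h : ∃ s, e s = i
    · exact Or.inl h
    · right; push Not at h; exact h
  · rw [Finset.disjoint_left]
    intro i hi hi2
    simp only [Finset.mem_map, Finset.mem_univ, true_and] at hi
    rw [Finset.mem_filter] at hi2
    obtain ⟨s, hs⟩ := hi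
    exact hi2.2 s hs

theorem rest_bound {p d : ℕ} (e : Fin p ↪ Fin d) (B : ℕ) (C : ℝ) (hC : 0 ≤ C)
    (z : Fin d → ℤ) (hz : ∀ i, |z i| ≤ B) (y : Fin d → ℝ)
    (hy : ∀ i, (∀ s, e s ≠ i) → |y i| ≤ C) [DecidablePred (fun i => ∀ s, e s ≠ i)] :
    |∑ i ∈ Finset.univ.filter (fun i => ∀ s, e s ≠ i), (z i : ℝ) * y i| ≤ d * (B * C) := by
  calc |∑ i ∈ Finset.univ.filter (fun i => ∀ s, e s ≠ i), (z i : ℝ) * y i|
      ≤ ∑ i ∈ Finset.univ.filter (fun i => ∀ s, e s ≠ i), |(z i : ℝ) * y i| :=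
        Finset.abs_sum_le_sum_abs _ _
    _ ≤ ∑ _i ∈ Finset.univ.filter (fun i => ∀ s, e s ≠ i), (B * C) := by
        apply Finset.sum_le_sum
        intro i hi
        rw [Finset.mem_filter] at hi
        rw [abs_mul]
        apply mul_le_mul _ (hy i hi.2) (abs_nonneg _) (by positivity)
        have := hz i
        exact_mod_cast this
    _ ≤ d * (B * C) := by
        rw [Finset.sum_const, nsmul_eq_mul]
        apply mul_le_mul_of_nonneg_right _ (by positivity)
        have h2 : (Finset.univ.filter (fun i => ∀ s, e s ≠ i)).card ≤ d := by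
          have := Finset.card_filter_le (Finset.univ : Finset (Fin d))
            (fun i => ∀ s, e s ≠ i)
          simpa using this
        exact_mod_cast h2

theorem bound_num (d' B : ℕ) (m M Λ : ℝ) (hm0 : 0 < m) (hM : M = 8 * (d' + 1) * (B + 1) / m)
    (hM0 : 0 < M) (hΛ : 0 ≤ Λ) :
    ((d' + 1 : ℕ) : ℝ) * (B * (2 * Λ / M)) ≤ m / 4 * Λ := by
  have h2 : M * m = 8 * (d' + 1) * (B + 1) := by
    rw [hM]; field_simp
  have h3 : (0 : ℝ) ≤ d' := Nat.cast_nonneg _
  have h4 : (0 : ℝ) ≤ B := Nat.cast_nonneg _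
  have h6 : ((d' + 1 : ℕ) : ℝ) * (B * (2 * Λ / M)) = (2 * (d' + 1) * B * Λ) / M := by
    push_cast
    field_simp
  rw [h6, div_le_iff₀ hM0]
  have h7 : m / 4 * Λ * M = (M * m) / 4 * Λ := by ring
  rw [h7, h2]
  have h8 : 2 * ((d' : ℝ) + 1) * B ≤ 8 * (d' + 1) * (B + 1) / 4 := by nlinarith
  exact mul_le_mul_of_nonneg_right h8 hΛ

theorem final_num (D m mr l Λ S R : ℝ) (hD : D ≤ m / 4 * l) (hl : l ≤ Λ) (hl0 : 0 ≤ l)
    (hmr : m ≤ mr) (hm0 : 0 < m) (hS : mr / 2 * Λ ≤ S) (hR : |R| ≤ m / 4 * Λ) : D ≤ S + R := by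
  have hfinal := (abs_le.mp hR).1
  have h3 : m / 2 * Λ ≤ mr / 2 * Λ := by nlinarith
  have h4 : m / 4 * l ≤ m / 4 * Λ := by nlinarith
  linarith

theorem exists_family (d : ℕ) (hd : 0 < d) (B : ℕ) :
    ∃ m > 0, ∃ A > 0, ∃ Q > 0, ∃ (ι : Type) (_ : Fintype ι) (n : ι → Fin d → ℝ)
      (g : ι → ℝ → ℝ) (l₀ : ℝ),
      0 < l₀ ∧
      (∀ j, ContDiff ℝ 1 (g j)) ∧
      (∀ j i, |n j i| ≤ A) ∧
      (∀ j, ∀ z : Fin d → ℤ, (∀ i, |z i| ≤ B) →
          ∑ i, (z i : ℝ) * n j i = 0 ∨ m ≤ |∑ i, (z i : ℝ) * n j i|) ∧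
      (∀ l, l₀ ≤ l → ∀ x : Fin d → ℝ, (∀ j, ∑ i, n j i * x i ≤ g j l) →
        ∀ i, Real.exp (-(Q * l)) ≤ x i ∧ x i ≤ Real.exp (Q * l)) ∧
      (∀ x : Fin d → ℝ, (∀ i, 0 < x i) → ∃ L, ∀ l, L ≤ l → ∀ j, ∑ i, n j i * x i < g j l) ∧
      (∀ D : ℝ, ∃ L, ∀ l, L ≤ l → ∀ x : Fin d → ℝ, (∀ j, ∑ i, n j i * x i ≤ g j l) →
        ∀ j, ∑ i, n j i * x i = g j l → ∀ z : Fin d → ℤ, (∀ i, |z i| ≤ B) →
        0 < ∑ i, (z i : ℝ) * n j i → D ≤ ∑ i, (z i : ℝ) * Real.log (x i)) := by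
  classical
  obtain ⟨d', rfl⟩ : ∃ d', d = d' + 1 := ⟨d - 1, by omega⟩
  obtain ⟨mT, hT0, hT1, hT⟩ := core_data d' B 1 (Or.inl rfl)
  choose mN hN0 hN1 hN using fun r => core_data r B (-1) (Or.inr rfl)
  obtain ⟨m, hm0, hmT, hmN⟩ := exists_min mN hN0 mT hT0 (d' + 1)
  have hm1 : m ≤ 1 := hmT.trans hT1
  set M : ℝ := 8 * (d' + 1) * (B + 1) / m with hM
  have hM8 : 8 ≤ M := by
    rw [hM, le_div_iff₀ hm0]
    have h1 : (1 : ℝ) ≤ d' + 1 := by
      have : (0 : ℝ) ≤ d' := Nat.cast_nonneg _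
      linarith
    have h2 : (1 : ℝ) ≤ B + 1 := by
      have : (0 : ℝ) ≤ B := Nat.cast_nonneg _
      linarith
    nlinarith [mul_le_mul h1 h2 zero_le_one (by linarith : (0 : ℝ) ≤ d' + 1)]
  have hM1 : 1 ≤ M := by linarith
  have hM0 : 0 < M := by linarith
  set a : ℝ := M ^ (d' + 1 + 1) with ha
  have ha0 : 0 < a := by positivity
  obtain ⟨T⟩ := hT a ha0
  obtain ⟨N⟩ : Nonempty (∀ r, CoreData r B (-1) (mN r) a) :=
    ⟨fun r => Classical.choice (hN r a ha0)⟩
  let _ := T.fin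
  let _ : ∀ r, Fintype (N r).ι := fun r => (N r).fin
  obtain ⟨A, hA2, hAT, hAN⟩ := exists_max (fun r => (N r).A) T.A (d' + 1)
  obtain ⟨l₀, hl2, hlT, hlN⟩ := exists_max (fun r => (N r).Λ₀) T.Λ₀ (d' + 1)
  let ι : Type := T.ι ⊕ (Σ r : Fin (d' + 1), (Fin (r.1 + 1) ↪ Fin (d' + 1)) × (N r.1).ι)
  let nn : ι → Fin (d' + 1) → ℝ := fun j => match j with
    | Sum.inl j => T.n j
    | Sum.inr ⟨r, e, j⟩ => ext e ((N r.1).n j)
  let g : ι → ℝ → ℝ := fun j => match j with
    | Sum.inl j => fun l => 1 * Real.exp (1 * l) + ∑ s, Real.exp (l * T.γ j s)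
    | Sum.inr ⟨r, e, j⟩ => fun l => -1 * Real.exp (-1 * (M ^ (d' + 1 - r.1) * l)) +
        ∑ s, Real.exp ((M ^ (d' + 1 - r.1) * l) * (N r.1).γ j s)
  have hsc : ∀ (p : ℕ) (l : ℝ), l₀ ≤ l → l ≤ M ^ p * l := by
    intro p l hl
    have h1 : 1 ≤ M ^ p := one_le_pow₀ hM1
    have h2 : 0 ≤ l := by linarith
    nlinarith
  -- lower bound
  have hlow : ∀ l, l₀ ≤ l → ∀ x : Fin (d' + 1) → ℝ, (∀ j, ∑ i, nn j i * x i ≤ g j l) →
      ∀ i, Real.exp (-(M ^ (d' + 1) * l)) ≤ x i := by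
    intro l hl x hx i
    obtain ⟨j, hj, hj2⟩ := (N 0).hconst
    let e : Fin (0 + 1) ↪ Fin (d' + 1) := ⟨fun _ => i, fun a b _ => Fin.ext (by omega)⟩
    have h1 := hx (Sum.inr ⟨⟨0, by omega⟩, e, j⟩)
    simp only [nn, g] at h1
    rw [sum_ext_mul] at h1
    simp only [hj] at h1
    have h3 : ∑ s : Fin (0 + 1), -1 * x (e s) = - x i := by
      rw [Fin.sum_univ_succ]
      simp only [Finset.univ_eq_empty, Finset.sum_empty, add_zero, neg_mul, one_mul, neg_inj]
      rfl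
    rw [h3] at h1
    simp only [Finset.univ_eq_empty, Finset.sum_empty, Nat.sub_zero] at h1
    have h2 : -1 * (M ^ (d' + 1) * l) = -(M ^ (d' + 1) * l) := by ring
    rw [h2] at h1
    linarith
  have hpos : ∀ l, l₀ ≤ l → ∀ x : Fin (d' + 1) → ℝ, (∀ j, ∑ i, nn j i * x i ≤ g j l) →
      ∀ i, 0 < x i := fun l hl x hx i => (Real.exp_pos _).trans_le (hlow l hl x hx i)
  have hup : ∀ l, l₀ ≤ l → ∀ x : Fin (d' + 1) → ℝ, (∀ j, ∑ i, nn j i * x i ≤ g j l) →
      ∀ i, x i ≤ 2 * Real.exp l := by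
    intro l hl x hx i
    obtain ⟨j, hj, hj2⟩ := T.hconst
    have h1 := hx (Sum.inl j)
    simp only [nn, g, hj] at h1
    have h2 := hj2 l (hlT.trans hl)
    have h3 : x i ≤ ∑ i, 1 * x i := by
      simp only [one_mul]
      exact Finset.single_le_sum (fun k _ => (hpos l hl x hx k).le) (Finset.mem_univ i)
    simp only [one_mul] at h1 h2 h3
    have h4 := Real.exp_pos l
    linarith
  refine ⟨m, hm0, A, by linarith, M ^ (d' + 1) + 1, by positivity, ι, inferInstance, nn, g, l₀,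
    by linarith, ?_, ?_, ?_, ?_, ?_, ?_⟩
  · rintro (j | ⟨r, e, j⟩)
    · simp only [g]; fun_prop
    · simp only [g]; fun_prop
  · rintro (j | ⟨r, e, j⟩) i
    · exact (T.hnA j i).trans hAT
    · exact abs_ext_le e _ A (by linarith) (fun s => ((N r.1).hnA j s).trans (hAN r.1 r.2)) i
  · rintro (j | ⟨r, e, j⟩) z hz
    · rcases T.hdich j z hz with h | h
      · exact Or.inl h
      · exact Or.inr (hmT.trans h)
    · simp only [nn]
      rw [sum_mul_ext]
      rcases (N r.1).hdich j (fun s => z (e s)) (fun s => hz (e s)) with h | h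
      · exact Or.inl h
      · exact Or.inr ((hmN r.1 r.2).trans h)
  · intro l hl x hx i
    have hl0 : 0 ≤ l := by linarith
    constructor
    · refine le_trans ?_ (hlow l hl x hx i)
      apply Real.exp_le_exp.mpr
      nlinarith
    · refine (hup l hl x hx i).trans ?_
      have h2 : (2 : ℝ) ≤ Real.exp l := by
        have := Real.add_one_le_exp l
        linarith
      calc 2 * Real.exp l ≤ Real.exp l * Real.exp l := by
            have := Real.exp_pos l
            nlinarith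
        _ = Real.exp (l + l) := (Real.exp_add _ _).symm
        _ ≤ Real.exp ((M ^ (d' + 1) + 1) * l) := by
            apply Real.exp_le_exp.mpr
            have := hsc (d' + 1) l hl
            linarith
  · intro x hx
    have hfin : ∀ j : ι, ∃ L, ∀ l, L ≤ l → ∑ i, nn j i * x i < g j l := by
      rintro (j | ⟨r, e, j⟩)
      · refine ⟨∑ i, nn (Sum.inl j) i * x i, fun l hl => ?_⟩
        simp only [g]
        have h1 : 0 ≤ ∑ s, Real.exp (l * T.γ j s) :=
          Finset.sum_nonneg (fun s _ => (Real.exp_pos _).le)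
        have h2 := Real.add_one_le_exp l
        rw [one_mul, one_mul]
        linarith
      · let c : ℝ := x (e 0)
        have hc : 0 < c := hx _
        refine ⟨max 1 (-Real.log c + 1), fun l hl => ?_⟩
        have hl1 : 1 ≤ l := (le_max_left _ _).trans hl
        have hl2' : -Real.log c + 1 ≤ l := (le_max_right _ _).trans hl
        simp only [g, nn]
        rw [sum_ext_mul]
        have h1 : 0 ≤ ∑ s, Real.exp ((M ^ (d' + 1 - r.1) * l) * (N r.1).γ j s) :=
          Finset.sum_nonneg (fun s _ => (Real.exp_pos _).le)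
        have h2 : ∑ s, (N r.1).n j s * x (e s) ≤ ∑ s, -1 * x (e s) :=
          Finset.sum_le_sum (fun s _ =>
            mul_le_mul_of_nonneg_right ((N r.1).hnτ j s) (hx (e s)).le)
        have h3 : ∑ s, -1 * x (e s) ≤ -c := by
          rw [← Finset.mul_sum]
          have : c ≤ ∑ s, x (e s) :=
            Finset.single_le_sum (f := fun s => x (e s)) (fun k _ => (hx (e k)).le)
              (Finset.mem_univ 0)
          linarith
        have h4 : Real.exp (-1 * (M ^ (d' + 1 - r.1) * l)) < c := by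
          rw [← Real.exp_log hc]
          apply Real.exp_lt_exp.mpr
          have h5 : 1 ≤ M ^ (d' + 1 - r.1) := one_le_pow₀ hM1
          nlinarith
        linarith
    choose L hL using hfin
    refine ⟨∑ j, |L j|, fun l hl j => hL j l ?_⟩
    calc L j ≤ |L j| := le_abs_self _
      _ ≤ ∑ j, |L j| := Finset.single_le_sum (f := fun j => |L j|) (fun k _ => abs_nonneg _)
          (Finset.mem_univ j)
      _ ≤ l := hl
  · intro D
    refine ⟨max l₀ (4 * D / m), fun l hl x hx j hj z hz hzn => ?_⟩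
    have hl0 : l₀ ≤ l := (le_max_left _ _).trans hl
    have hlD : 4 * D / m ≤ l := (le_max_right _ _).trans hl
    have hl2' : 2 ≤ l := hl2.trans hl0
    have hDm : D ≤ m / 4 * l := by
      rw [div_le_iff₀ hm0] at hlD
      linarith
    have hx0 := hpos l hl0 x hx
    have hlogl : ∀ i, -(M ^ (d' + 1) * l) ≤ Real.log (x i) := by
      intro i
      rw [Real.le_log_iff_exp_le (hx0 i)]
      exact hlow l hl0 x hx i
    rcases j with j | ⟨r, e, j⟩
    · have h1 := T.hmain l (hlT.trans hl0) x hx0 (fun i => by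
        refine le_trans ?_ (hlogl i)
        have h2 : M ^ (d' + 1) ≤ a := by
          rw [ha]; exact pow_le_pow_right₀ hM1 (by omega)
        nlinarith) (fun j => hx (Sum.inl j)) j hj z hz hzn
      have h3 : m / 2 * l ≤ mT / 2 * l := by
        have : 0 ≤ l := by linarith
        nlinarith
      nlinarith
    · have hrlt := r.2
      set Λ : ℝ := M ^ (d' + 1 - r.1) * l with hΛdef
      have hlΛ : l ≤ Λ := hsc _ l hl0
      have hlΛ0 : 0 ≤ l := by linarith
      simp only [nn] at hj hzn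
      rw [sum_ext_mul] at hj
      rw [sum_mul_ext] at hzn
      have hcons : ∀ j, ∑ s, (N r.1).n j s * x (e s) ≤
          -1 * Real.exp (-1 * Λ) + ∑ s, Real.exp (Λ * (N r.1).γ j s) := by
        intro j
        have := hx (Sum.inr ⟨r, e, j⟩)
        simp only [nn, g] at this
        rwa [sum_ext_mul] at this
      have h1 := (N r.1).hmain Λ ((hlN r.1 r.2).trans (hl0.trans hlΛ)) (fun s => x (e s))
        (fun s => hx0 (e s)) (fun s => by
          refine le_trans ?_ (hlogl (e s))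
          have h2 : a = M * M ^ (d' + 1) := by
            rw [ha, pow_succ]; ring
          have h3 : 0 < M ^ (d' + 1) := by positivity
          have h4 : M ^ (d' + 1) * l ≤ a * Λ := by
            rw [h2]
            calc M ^ (d' + 1) * l ≤ M ^ (d' + 1) * Λ := mul_le_mul_of_nonneg_left hlΛ h3.le
              _ ≤ (M * M ^ (d' + 1)) * Λ := by
                apply mul_le_mul_of_nonneg_right _ (by linarith)
                nlinarith
          linarith) hcons j hj (fun s => z (e s)) (fun s => hz (e s)) hzn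
      have hrest : ∀ i, (∀ s, e s ≠ i) → |Real.log (x i)| ≤ 2 * Λ / M := by
        intro i hi
        have hrd : r.1 + 1 < d' + 1 := by
          by_contra hcon
          have hreq : r.1 + 1 = d' + 1 := by omega
          have hcard : Fintype.card (Fin (r.1 + 1)) = Fintype.card (Fin (d' + 1)) := by
            rw [hreq]
          have hbij : Function.Bijective e :=
            (Fintype.bijective_iff_injective_and_card e).mpr ⟨e.injective, hcard⟩
          obtain ⟨s, hs⟩ := hbij.2 i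
          exact hi s hs
        obtain ⟨p, hp⟩ : ∃ p, d' + 1 - r.1 = p + 1 + 1 := ⟨d' + 1 - r.1 - 2, by omega⟩
        have hΛ2 : Λ / M = M ^ (p + 1) * l := by
          rw [hΛdef, hp, pow_succ M (p + 1)]
          field_simp
        have hΛ' : l ≤ Λ / M := by rw [hΛ2]; exact hsc _ l hl0
        have hΛM : Λ = M * (Λ / M) := by field_simp
        set Λ' : ℝ := Λ / M with hΛ'def
        have h2Λ : 2 * Λ / M = 2 * Λ' := by rw [hΛ'def]; ring
        rw [h2Λ]
        obtain ⟨jc, hjc, hjc2⟩ := (N (r.1 + 1)).hconst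
        let e' : Fin (r.1 + 1 + 1) ↪ Fin (d' + 1) :=
          ⟨Fin.cons i (fun s => e s), by
            rw [Fin.cons_injective_iff]
            refine ⟨?_, e.injective⟩
            rintro ⟨s, hs⟩
            exact hi s hs⟩
        have h3 := hx (Sum.inr ⟨⟨r.1 + 1, hrd⟩, e', jc⟩)
        simp only [nn, g] at h3
        rw [sum_ext_mul] at h3
        have h4 : d' + 1 - (r.1 + 1) = p + 1 := by omega
        rw [h4, ← hΛ2] at h3
        simp only [hjc] at h3
        have h5 := hjc2 Λ' ((hlN (r.1 + 1) hrd).trans (hl0.trans hΛ'))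
        have h6 : ∑ s, -1 * x (e' s) = -(x i + ∑ s, x (e s)) := by
          rw [← Finset.mul_sum, Fin.sum_univ_succ]
          simp [e', Fin.cons_succ, Fin.cons_zero]
        rw [h6] at h3
        have h7 : ∑ s, x (e s) ≤ Real.exp (-1 * Λ) := by
          have h8 : ∑ s, (N r.1).n j s * x (e s) ≤ ∑ s, -1 * x (e s) :=
            Finset.sum_le_sum (fun s _ =>
              mul_le_mul_of_nonneg_right ((N r.1).hnτ j s) (hx0 (e s)).le)
          rw [← Finset.mul_sum] at h8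
          have h9 : 0 ≤ ∑ s, Real.exp (Λ * (N r.1).γ j s) :=
            Finset.sum_nonneg (fun s _ => (Real.exp_pos _).le)
          have h10 : ∑ s, (N r.1).n j s * x (e s) =
              -1 * Real.exp (-1 * Λ) + ∑ s, Real.exp (Λ * (N r.1).γ j s) := hj
          linarith
        rw [neg_one_mul] at h7
        simp only [neg_one_mul] at h3 h5
        exact log_bound l Λ Λ' (x i) (∑ s, x (e s)) hl2' hΛ' (by rw [hΛM]; nlinarith)
          (hx0 i) (hup l hl0 x hx i) h7 (by linarith)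
      have hrestsum := rest_bound e B (2 * Λ / M) (by positivity) z hz
        (fun i => Real.log (x i)) hrest
      rw [sum_split e (fun i => (z i : ℝ) * Real.log (x i))]
      exact final_num D m (mN r.1) l Λ _ _ hDm hlΛ hlΛ0 (hmN r.1 r.2) hm0 h1
        (hrestsum.trans (bound_num d' B m M Λ hm0 hM hM0 (by linarith)))

end Vale.Agent.P072
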