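import Vale.Agent.P072.Endo

namespace Vale.Agent.P072

theorem contDiff_massAction {d : ℕ} (R : Finset (Reaction d)) (k : Reaction d → ℝ) :
    ContDiff ℝ 1 (massAction R k) := by
  unfold massAction
  apply ContDiff.sum
  intro r _
  have h1 : ContDiff ℝ 1 (fun x : Fin d → ℝ => ∏ i, x i ^ r.1 i) := by
    apply contDiff_prod
    intro i _
    exact (contDiff_apply ℝ ℝ i).pow _
  have h2 : ContDiff ℝ 1 (fun x : Fin d → ℝ => k r * ∏ i, x i ^ r.1 i) := contDiff_const.mul h1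
  exact h2.smul contDiff_const

theorem massAction_mem {d : ℕ} (R : Finset (Reaction d)) (k : Reaction d → ℝ)
    (x : Fin d → ℝ) : massAction R k x ∈ stoichiometricSubspace R := by
  unfold massAction stoichiometricSubspace
  apply Submodule.sum_mem
  intro r hr
  apply Submodule.smul_mem
  exact Submodule.subset_span ⟨r, hr, rfl⟩

/- n is a normal with |z.n| = 0 or >= m for bounded integer z; B bounds |y_i - y'_i| for all
complexes of R.  If bounded integer z with z.n > 0 satisfy z.log x >= D then n.f(x) is negative,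
quantitatively. -/
theorem dot_massAction_le {d : ℕ} (R : Finset (Reaction d)) (hR : WeaklyReversible R)
    (k : Reaction d → ℝ) (hk : ∀ r ∈ R, 0 < k r) (B : ℕ)
    (hB : ∀ r ∈ R, ∀ i, r.1 i ≤ B ∧ r.2 i ≤ B) (m a : ℝ) (hm : 0 < m) (ha : 0 < a) :
    ∃ D : ℝ, ∃ δ > 0, ∀ (n x : Fin d → ℝ) (κ : ℝ), (∀ i, |n i| ≤ a) → 0 < κ → κ ≤ 1 →
      (∀ i, κ ≤ x i) →
      (∀ z : Fin d → ℤ, (∀ i, |z i| ≤ B) → ∑ i, (z i : ℝ) * n i = 0 ∨
        m ≤ |∑ i, (z i : ℝ) * n i|) →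
      (∀ z : Fin d → ℤ, (∀ i, |z i| ≤ B) → 0 < ∑ i, (z i : ℝ) * n i →
        D ≤ ∑ i, (z i : ℝ) * Real.log (x i)) →
      (∀ r ∈ R, ∑ i, n i * reactionVector r i = 0) ∨
        ∑ i, n i * massAction R k x i ≤ -δ * κ ^ (d * B) := by
  obtain ⟨ε, hε, hkε⟩ := exists_rate_bound R k hk
  obtain ⟨D, δ, hδ, h⟩ := dot_massAction_le_of_endotactic R hR.endotactic ε hε B hB m a hm ha
  exact ⟨D, δ, hδ, h k hkε⟩

end Vale.Agent.P072
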