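import Vale.Agent.P072.Defs
import Vale.Agent.P072.CaraMain

namespace Vale.Agent.P072

open MeasureTheory Set Filter Topology

theorem cara_of_classical {d : ℕ} {f : (Fin d → ℝ) → (Fin d → ℝ)} (hf : Continuous f)
    {J : Set ℝ} (hJ0 : ∀ t ∈ J, 0 ≤ t) (hJ : ∀ t ∈ J, Icc 0 t ⊆ J) {x : ℝ → Fin d → ℝ}
    (h : IsSolutionOn f J x) : IsCaratheodorySolutionOn (fun _ => f) J x := by
  have hc : ContinuousOn x J := fun t ht => (h t ht).continuousWithinAt
  refine ⟨hc, ?_⟩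
  intro t ht
  have ht0 := hJ0 t ht
  have hcI : ContinuousOn x (uIcc 0 t) := by
    rw [uIcc_of_le ht0]
    exact hc.mono (hJ t ht)
  have hint : IntervalIntegrable (fun s => f (x s)) volume 0 t :=
    (hf.comp_continuousOn hcI).intervalIntegrable
  refine ⟨hint, ?_⟩
  have h1 := intervalIntegral.integral_eq_sub_of_hasDeriv_right (f := x)
    (f' := fun s => f (x s)) hcI (by
      intro s hs
      rw [min_eq_left ht0, max_eq_right ht0] at hs
      have hsJ : s ∈ J := hJ t ht ⟨hs.1.le, hs.2.le⟩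
      have h2 : J ∈ 𝓝 s := mem_of_superset (Icc_mem_nhds hs.1 hs.2) (hJ t ht)
      exact ((h s hsJ).hasDerivAt h2).hasDerivWithinAt) hint
  rw [h1]
  abel

theorem classical_of_cara {d : ℕ} {f : (Fin d → ℝ) → (Fin d → ℝ)} (hf : Continuous f)
    {x : ℝ → Fin d → ℝ} (h : IsCaratheodorySolutionOn (fun _ => f) (Ici 0) x) :
    IsSolutionOn f (Ici 0) x := by
  have hX : Continuous (fun t : ℝ => x (max t 0)) :=
    h.1.comp_continuous (by fun_prop) (fun t => mem_Ici.mpr (le_max_right t 0))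
  have hfX : Continuous (fun t : ℝ => f (x (max t 0))) := hf.comp hX
  have hW : ∀ t, HasDerivAt (fun t => x 0 + ∫ s in (0 : ℝ)..t, f (x (max s 0)))
      (f (x (max t 0))) t := by
    intro t
    exact (intervalIntegral.integral_hasDerivAt_right (hfX.intervalIntegrable 0 t)
      (hfX.stronglyMeasurableAtFilter _ _) hfX.continuousAt).const_add _
  have heq : ∀ t ∈ Ici (0 : ℝ), x t = x 0 + ∫ s in (0 : ℝ)..t, f (x (max s 0)) := by
    intro t ht
    have ht : 0 ≤ t := ht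
    rw [(h.2 t ht).2]
    congr 1
    apply intervalIntegral.integral_congr
    intro s hs
    rw [uIcc_of_le ht] at hs
    simp only [max_eq_left hs.1]
  intro t ht
  have h1 := (hW t).hasDerivWithinAt (s := Ici 0)
  have ht' : 0 ≤ t := ht
  rw [max_eq_left ht'] at h1
  exact h1.congr heq (heq t ht)

theorem field_of_contDiff {d : ℕ} {f : (Fin d → ℝ) → (Fin d → ℝ)} (hf : ContDiff ℝ 1 f)
    {S : Submodule ℝ (Fin d → ℝ)} (hS : ∀ x, f x ∈ S) : Cara.Field (fun _ => f) S where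
  meas := fun x hx => (hf.continuous.comp hx).aestronglyMeasurable
  lip := by
    intro R
    obtain ⟨C, hC⟩ := LocallyLipschitzOn.exists_lipschitzOnWith_of_compact
      (isCompact_closedBall (0 : Fin d → ℝ) R) (hf.locallyLipschitz.locallyLipschitzOn)
    refine ⟨C, C.coe_nonneg, fun t _ x y hx hy => ?_⟩
    rw [← dist_eq_norm, ← dist_eq_norm]
    exact hC.dist_le_mul x (mem_closedBall_zero_iff.mpr hx) y (mem_closedBall_zero_iff.mpr hy)
  bdd := by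
    intro R
    obtain ⟨M, hM⟩ := (isCompact_closedBall (0 : Fin d → ℝ) R).exists_bound_of_continuousOn
      hf.continuous.continuousOn
    exact ⟨M, fun t _ x hx => hM x (mem_closedBall_zero_iff.mpr hx)⟩
  mem := fun _ x => hS x

theorem isCompact_region {d : ℕ} (S : Submodule ℝ (Fin d → ℝ)) (c : Fin d → ℝ)
    {ι : Type*} (n : ι → Fin d → ℝ) (g : ι → ℝ)
    (hbdd : Bornology.IsBounded {x : Fin d → ℝ | x - c ∈ S ∧ ∀ j, ∑ i, n j i * x i ≤ g j}) :
    IsCompact {x : Fin d → ℝ | x - c ∈ S ∧ ∀ j, ∑ i, n j i * x i ≤ g j} := by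
  apply Metric.isCompact_of_isClosed_isBounded _ hbdd
  have h1 : IsClosed {x : Fin d → ℝ | x - c ∈ S} :=
    (Submodule.closed_of_finiteDimensional S).preimage (by fun_prop)
  have h2 : IsClosed {x : Fin d → ℝ | ∀ j, ∑ i, n j i * x i ≤ g j} := by
    have : {x : Fin d → ℝ | ∀ j, ∑ i, n j i * x i ≤ g j} =
        ⋂ j, {x : Fin d → ℝ | ∑ i, n j i * x i ≤ g j} := by
      ext x
      simp
    rw [this]
    exact isClosed_iInter fun j => isClosed_le (by fun_prop) continuous_const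
  exact h1.inter h2

theorem permanentOn_of_trapping {d : ℕ} (f : (Fin d → ℝ) → (Fin d → ℝ))
    (hf : ContDiff ℝ 1 f) (S : Submodule ℝ (Fin d → ℝ)) (hS : ∀ x, f x ∈ S)
    (c : Fin d → ℝ) {ι : Type} [Fintype ι] (n : ι → Fin d → ℝ) (g : ι → ℝ → ℝ)
    (hg : ∀ j, ContDiff ℝ 1 (g j)) (l₀ : ℝ)
    (hpos : ∀ l, l₀ ≤ l → ∀ x : Fin d → ℝ, x - c ∈ S → (∀ j, ∑ i, n j i * x i ≤ g j l) →
      ∀ i, 0 < x i)
    (hbdd : ∀ l, l₀ ≤ l →
      Bornology.IsBounded {x : Fin d → ℝ | x - c ∈ S ∧ ∀ j, ∑ i, n j i * x i ≤ g j l})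
    (hcover : ∀ x : Fin d → ℝ, (∀ i, 0 < x i) → x - c ∈ S →
      ∃ l, l₀ ≤ l ∧ ∀ j, ∑ i, n j i * x i ≤ g j l)
    (hin : ∀ l₁, l₀ ≤ l₁ → ∃ δ > 0, ∀ l ∈ Set.Icc l₀ l₁, ∀ x : Fin d → ℝ, x - c ∈ S →
      (∀ j, ∑ i, n j i * x i ≤ g j l) → ∀ j, ∑ i, n j i * x i = g j l →
      ∑ i, n j i * f x i ≤ -δ) :
    PermanentOn f {x | (∀ i, 0 < x i) ∧ x - c ∈ S} := by
  obtain ⟨h1, h2⟩ := Cara.trap (field_of_contDiff hf hS) c n g hg l₀ hpos hbdd hcover (by
    intro l₁ hl₁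
    obtain ⟨δ, hδ, h⟩ := hin l₁ hl₁
    exact ⟨δ, hδ, fun t _ l hl x => h l hl x⟩)
  refine ⟨?_, ?_⟩
  · rintro x₀ ⟨hx₀, hx₀S⟩
    obtain ⟨x, hx0, hxs, hxp, hxu⟩ := h1 x₀ hx₀ hx₀S
    refine ⟨x, hx0, classical_of_cara hf.continuous hxs, hxp, ?_⟩
    intro T hT y hy0 hys
    exact hxu T hT y hy0 (cara_of_classical (J := Ico 0 T) hf.continuous (fun t ht => ht.1)
      (fun t ht s hs => ⟨hs.1, hs.2.trans_lt ht.2⟩) hys)
  · refine ⟨{x | x - c ∈ S ∧ ∀ j, ∑ i, n j i * x i ≤ g j l₀}, ?_,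
      isCompact_region S c n _ (hbdd l₀ le_rfl), ?_⟩
    · rintro x ⟨hxS, hx⟩
      exact ⟨hpos l₀ le_rfl x hxS hx, hxS⟩
    · rintro x ⟨hx0, hx0S⟩ hxs
      exact h2 x hx0 hx0S (cara_of_classical (J := Ici 0) hf.continuous (fun t ht => ht)
        (fun t _ s hs => hs.1) hxs)

end Vale.Agent.P072
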