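import Vale.Agent.P072.Family
import Vale.Agent.P072.ODE
import Vale.Agent.P072.MassAction

namespace Vale.Agent.P072

theorem dot_eq_of_orth {d : ℕ} (R : Finset (Reaction d)) (n : Fin d → ℝ)
    (hn : ∀ r ∈ R, ∑ i, n i * reactionVector r i = 0) (v : Fin d → ℝ)
    (hv : v ∈ stoichiometricSubspace R) : ∑ i, n i * v i = 0 := by
  unfold stoichiometricSubspace at hv
  induction hv using Submodule.span_induction with
  | mem x hx =>
    obtain ⟨r, hr, rfl⟩ := hx
    exact hn r hr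
  | zero => simp
  | add x y _ _ hx hy =>
    simp only [Pi.add_apply, mul_add, Finset.sum_add_distrib, hx, hy, add_zero]
  | smul a x _ hx =>
    simp only [Pi.smul_apply, smul_eq_mul]
    have : ∑ i, n i * (a * x i) = a * ∑ i, n i * x i := by
      rw [Finset.mul_sum]
      exact Finset.sum_congr rfl (fun i _ => by ring)
    rw [this, hx, mul_zero]

theorem exists_bound {d : ℕ} (R : Finset (Reaction d)) :
    ∃ B : ℕ, ∀ r ∈ R, ∀ i, r.1 i ≤ B ∧ r.2 i ≤ B := by
  refine ⟨∑ r ∈ R, ∑ i, (r.1 i + r.2 i), fun r hr i => ?_⟩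
  have h1 : ∑ i, (r.1 i + r.2 i) ≤ ∑ r ∈ R, ∑ i, (r.1 i + r.2 i) :=
    Finset.single_le_sum (f := fun r : Reaction d => ∑ i, (r.1 i + r.2 i))
      (fun _ _ => Nat.zero_le _) hr
  have h2 : r.1 i + r.2 i ≤ ∑ i, (r.1 i + r.2 i) :=
    Finset.single_le_sum (f := fun i => r.1 i + r.2 i) (fun _ _ => Nat.zero_le _)
      (Finset.mem_univ i)
  omega

theorem permanent_main (d : ℕ) (hd : 0 < d) (R : Finset (Reaction d)) (hR : WeaklyReversible R)
    (k : Reaction d → ℝ) (hk : ∀ r ∈ R, 0 < k r) (c : Fin d → ℝ) (hc : ∀ i, 0 < c i) :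
    PermanentOn (massAction R k) (positiveClass R c) := by
  obtain ⟨B, hB⟩ := exists_bound R
  obtain ⟨m, hm, A, hA, Q, hQ, ι, _, n, g, l₀, hl₀, hg, hnA, hdich, hbox, hcov, hact⟩ :=
    exists_family d hd B
  obtain ⟨D, δ, hδ, hdot⟩ := dot_massAction_le R hR k hk B hB m A hm hA
  obtain ⟨L1, hL1⟩ := hact D
  obtain ⟨L2, hL2⟩ := hcov c hc
  obtain ⟨l₁, hl₁⟩ : ∃ l₁, l₁ = max l₀ (max L1 L2) := ⟨_, rfl⟩
  have h10 : l₀ ≤ l₁ := by rw [hl₁]; exact le_max_left _ _
  have h11 : L1 ≤ l₁ := by rw [hl₁]; exact (le_max_left _ _).trans (le_max_right _ _)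
  have h12 : L2 ≤ l₁ := by rw [hl₁]; exact (le_max_right _ _).trans (le_max_right _ _)
  refine permanentOn_of_trapping (massAction R k) (contDiff_massAction R k)
    (stoichiometricSubspace R) (massAction_mem R k) c n g hg l₁ ?_ ?_ ?_ ?_
  · intro l hl x _ hx i
    exact (Real.exp_pos _).trans_le (hbox l (h10.trans hl) x hx i).1
  · intro l hl
    rw [Metric.isBounded_iff_subset_closedBall 0]
    refine ⟨Real.exp (Q * l), ?_⟩
    rintro x ⟨_, hx⟩
    rw [mem_closedBall_zero_iff]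
    rw [pi_norm_le_iff_of_nonneg (Real.exp_pos _).le]
    intro i
    obtain ⟨h1, h2⟩ := hbox l (h10.trans hl) x hx i
    rw [Real.norm_eq_abs, abs_of_pos ((Real.exp_pos _).trans_le h1)]
    exact h2
  · intro x hx _
    obtain ⟨L, hL⟩ := hcov x hx
    exact ⟨max l₁ L, le_max_left _ _, fun j => (hL _ (le_max_right _ _) j).le⟩
  · intro l₂ hl₂
    have hκ : 0 < Real.exp (-(Q * l₂)) := Real.exp_pos _
    refine ⟨δ * Real.exp (-(Q * l₂)) ^ (d * B), by positivity, ?_⟩
    intro l hl x hxc hx j hj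
    have hl1 := hl.1
    have hbx := hbox l (h10.trans hl1) x hx
    have h1 := hdot (n j) x (Real.exp (-(Q * l₂))) (hnA j) hκ (by
      rw [Real.exp_le_one_iff]
      have : 0 ≤ l₂ := (hl₀.le.trans h10).trans hl₂
      have : 0 ≤ Q * l₂ := by positivity
      linarith) (fun i => by
        refine le_trans (Real.exp_le_exp.mpr ?_) (hbx i).1
        have : Q * l ≤ Q * l₂ := mul_le_mul_of_nonneg_left hl.2 hQ.le
        linarith) (hdich j) (fun z hz hzn => hL1 l (h11.trans hl1) x hx j hj z hz hzn)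
    rcases h1 with h1 | h1
    · exfalso
      have h2 := dot_eq_of_orth R (n j) h1 (x - c) hxc
      have h3 : ∑ i, n j i * x i = ∑ i, n j i * c i := by
        simp only [Pi.sub_apply, mul_sub, Finset.sum_sub_distrib] at h2
        linarith
      have h4 := hL2 l (h12.trans hl1) j
      linarith
    · rw [← neg_mul]; exact h1

end Vale.Agent.P072
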