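import Vale.Agent.P072.Exchange

namespace Vale.Agent.P072.Tree

open Real

lemma crit_gap {ε : ℝ} {B r : ℕ} (hε : Small ε B r) {L : List ℝ} {p c : ℕ} (hc : c ≤ r)
    (hG : Good (bd B (c + 1)) (ε ^ p) L) {t t' : ℝ} (ht : IsCrit (bd B c) L t)
    (ht' : IsCrit (bd B c) L t') : t = t' ∨ ε ^ (p + 1) ≤ |t - t'| := by
  rcases crit_sep hG ht ht' with h | h
  · exact Or.inl h
  · right
    have h1 := hε.bd_le hc
    have h2 : ε ^ (p + 1) = ε ^ p * ε := pow_succ _ _
    rw [h2]
    have h3 : 0 ≤ |t - t'| := abs_nonneg _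
    have h4 : (bd B c : ℝ) ^ 2 * ε ≤ 1 := by
      have : 0 ≤ (bd B c : ℝ) ^ 2 * ε := by have := hε.pos; positivity
      linarith
    calc ε ^ p * ε ≤ ((bd B c : ℝ) ^ 2 * |t - t'|) * ε :=
          mul_le_mul_of_nonneg_right h hε.pos.le
      _ = ((bd B c : ℝ) ^ 2 * ε) * |t - t'| := by ring
      _ ≤ 1 * |t - t'| := mul_le_mul_of_nonneg_right h4 h3
      _ = |t - t'| := one_mul _

/-- an affordable competitor cannot have a larger value -/
lemma no_gain {ε a Λ : ℝ} {B r : ℕ} {K : ℤ} (h : Par ε B r a K) (hΛ : 0 < Λ)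
    (hδ : (r + 1) * exp (-(Λ * ε ^ ell r)) < ε ^ ell r) {x : ℝ} {xs : List ℝ} {k k' : ℤ}
    {ks : List ℤ} {L : List ℝ} {p : ℕ} (hlen : ks.length = xs.length)
    (hp : p + ell (xs.length + 1) ≤ ell r) (hr : xs.length ≤ r)
    (hx : 0 < x) (hxs : ∀ y ∈ xs, 0 ≤ y) (hL : hd L ≤ 1) (hL' : -(a + 2) ≤ hd L)
    (hk1 : -(a + 2) ≤ k' * mesh ε p (xs.length + 1))
    (hk2 : Λ * (k' * mesh ε p (xs.length + 1)) ≤ log x - Λ * ε ^ ell r)
    (hk3 : k' * mesh ε p (xs.length + 1) ≤ a + 4)
    (hθ : (step ε B L p xs.length k).1 + mesh ε p (xs.length + 1) ≤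
      (step ε B L p xs.length k').1)
    (hmax : ∀ ks' : List ℤ, ks'.length = xs.length + 1 → (∀ k ∈ ks', |k| ≤ K) →
      obj ε B Λ ks' L p (x :: xs) ≤ obj ε B Λ (k :: ks) L p (x :: xs)) : False := by
  have hs := h.small
  have ha0 := h.a0
  set c := xs.length with hc
  set m := mesh ε p (c + 1) with hm
  have hmpos : 0 < m := mesh_pos hs.pos _ _
  have hHpos := h.H_pos
  have hHm : ε ^ ell r ≤ m := h.le_mesh hp
  have hρ := rad_pos hs.pos p c
  have hρ' := rad_le hs p c
  have hmρ : 16 * m ≤ rad ε p c := mesh_le_rad hs p c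
  set H := ε ^ ell r with hH
  have hkK : |k'| ≤ K := by
    apply h.bound hp
    rw [← hm, abs_le]
    constructor <;> linarith
  have hθ1 := step_le_hd hs.pos B L p c k'
  have hθ3 := min_le_step hs.pos B L p c k'
  rw [← hm] at hθ3
  have hcond : ∀ c', xs.length = c' + 1 →
      (step ε B L p c k').1 - rad ε (step ε B L p c k').2 c' +
        2 * mesh ε (step ε B L p c k').2 (c' + 1) ≤ k' * m := by
    intro c' hc'
    have hcc : c = c' + 1 := hc'
    have e1 : mesh ε (p + 1) (c' + 1) = rad ε p (c' + 1) := by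
      simp only [mesh, rad]
      congr 1
      omega
    have e2 := mesh_le_rad hs (p + 1) c'
    have e3 := mesh_pos hs.pos (p + 1) (c' + 1)
    rcases step_cases ε B L p c k' with ⟨h1, h2⟩ | ⟨h1, h2, h3, h4⟩ | ⟨h1, h2, h3⟩
    · rw [h2]
      rw [← hm, hcc] at h1
      simp only
      rw [e1] at e2 e3 ⊢
      linarith
    · rw [h4]
      have h5 := (abs_lt.mp h3).1
      rw [← hm] at h5
      have e4 : rad ε p c = rad ε p (c' + 1) := by rw [hcc]
      rw [e4] at h5
      rw [e1] at e2 e3 ⊢
      linarith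
    · rw [h3, ← hm]
      simp only
      have e5 := mesh_le_rad hs (p + ell c + 2) c'
      have e6 := mesh_pos hs.pos (p + ell c + 2) (c' + 1)
      linarith
  set θ := (step ε B L p c k).1 with hθd
  set θ' := (step ε B L p c k').1 with hθd'
  have hθ'low : -(a + 3) ≤ θ' := le_trans (le_min (by linarith) (by linarith)) hθ3
  obtain ⟨ks', hks', hksK', hobj⟩ := phase1 h hΛ.le (y := k' * m) xs
    (vals ε B ks (θ :: L) (step ε B L p c k).2) (θ' :: L)
    (step ε B L p c k').2 (by rw [vals_length, hlen])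
    (by have := step_exp_le ε B L p c k'; rw [← hc]; omega)
    (by
      simp only [hd, List.headD_cons]
      rw [abs_le]
      constructor
      · linarith
      · linarith)
    (by
      intro c' hc'
      simpa only [hd, List.headD_cons] using hcond c' hc')
    hxs
    (by
      intro t ht
      have := vals_le hs.pos B _ _ _ t ht
      simp only [hd, List.headD_cons] at this ⊢
      linarith)
  rw [← hc] at hks' hobj
  have hmx := hmax (k' :: ks') (by simp [hks']) (by
    intro k'' hk''
    simp only [List.mem_cons] at hk''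
    rcases hk'' with rfl | hk''
    · exact hkK
    · exact hksK' _ hk'')
  simp only [obj, hks', hlen] at hmx
  rw [← hθd, ← hθd', ← hm] at hmx
  have h6 := obj_le ε B Λ ks (θ :: L) (step ε B L p c k).2 xs hlen
  have h8 : exp (Λ * (k' * m)) ≤ x * exp (-(Λ * H)) := by
    have e1 : x * exp (-(Λ * H)) = exp (log x - Λ * H) := by
      rw [sub_eq_add_neg, exp_add, exp_log hx]
    rw [e1]
    exact exp_le_exp.mpr hk2
  have hcr : (c : ℝ) ≤ r := by exact_mod_cast hr
  have hc0 : (0 : ℝ) ≤ c := by positivity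
  have h9 : 0 < exp (Λ * (k * m)) := exp_pos _
  have h10 : (θ + m) * x ≤ θ' * x := mul_le_mul_of_nonneg_right hθ hx.le
  have h11 : H * x ≤ m * x := mul_le_mul_of_nonneg_right hHm hx.le
  have h12 : H * x ≤ (c + 1) * exp (Λ * (k' * m)) := by linarith
  have h13 : (c + 1) * exp (Λ * (k' * m)) ≤ (r + 1) * (x * exp (-(Λ * H))) :=
    mul_le_mul (by linarith) h8 (exp_pos _).le (by positivity)
  have h14 : (r + 1) * (x * exp (-(Λ * H))) < H * x := by
    have := mul_lt_mul_of_pos_right hδ hx
    linarith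
  linarith

lemma upper_aux {ε a Λ : ℝ} {B r : ℕ} {K : ℤ} (h : Par ε B r a K) (hΛ : 0 < Λ)
    (hδ : (r + 1) * exp (-(Λ * ε ^ ell r)) < ε ^ ell r) {x : ℝ} {xs : List ℝ} {k : ℤ}
    {ks : List ℤ} {L : List ℝ} {p : ℕ} (hlen : ks.length = xs.length)
    (hp : p + ell (xs.length + 1) ≤ ell r) (hr : xs.length ≤ r)
    (hx : 0 < x) (hxs : ∀ y ∈ xs, 0 ≤ y) (ha : -a * Λ ≤ log x) (hxu : log x ≤ 2 * Λ)
    (hL : hd L ≤ 1) (hL' : -(a + 2) ≤ hd L)
    (hmax : ∀ ks' : List ℤ, ks'.length = xs.length + 1 → (∀ k ∈ ks', |k| ≤ K) →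
      obj ε B Λ ks' L p (x :: xs) ≤ obj ε B Λ (k :: ks) L p (x :: xs))
    {w : ℝ} (hw : Λ * w < log x)
    (hgap : ∀ k' : ℤ, w - 2 * mesh ε p (xs.length + 1) < k' * mesh ε p (xs.length + 1) →
      (step ε B L p xs.length k).1 + mesh ε p (xs.length + 1) ≤
      (step ε B L p xs.length k').1) : False := by
  have hs := h.small
  have ha0 := h.a0
  set m := mesh ε p (xs.length + 1) with hm
  have hmpos : 0 < m := mesh_pos hs.pos _ _
  have hHpos := h.H_pos
  have hHm : ε ^ ell r ≤ m := h.le_mesh hp
  have hρ' := rad_le hs p xs.length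
  have hmρ : 16 * m ≤ rad ε p xs.length := mesh_le_rad hs p _
  set H := ε ^ ell r with hH
  set v : ℝ := log x / Λ - H with hv
  have hv1 : -a - 1 ≤ v := by
    have : -a ≤ log x / Λ := by rw [le_div_iff₀ hΛ]; exact ha
    linarith
  have hv2 : v ≤ 2 := by
    have : log x / Λ ≤ 2 := by rw [div_le_iff₀ hΛ]; exact hxu
    linarith
  have hv3 : w - H < v := by
    have : w < log x / Λ := by rw [lt_div_iff₀ hΛ]; linarith
    linarith
  have hv4 : Λ * v = log x - Λ * H := by
    rw [hv]; field_simp
  set k' : ℤ := ⌊v / m⌋ with hk'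
  have hk1 : (k' : ℝ) * m ≤ v := by
    have := Int.floor_le (v / m)
    rwa [le_div_iff₀ hmpos] at this
  have hk2 : v < (k' : ℝ) * m + m := by
    have := Int.lt_floor_add_one (v / m)
    rw [div_lt_iff₀ hmpos] at this
    rw [hk']
    linarith
  refine no_gain h hΛ hδ (k := k) (k' := k') hlen hp hr hx hxs hL hL' ?_ ?_ ?_ ?_ hmax
  · rw [← hm]
    linarith
  · rw [← hm, ← hH, ← hv4]
    exact mul_le_mul_of_nonneg_left hk1 hΛ.le
  · rw [← hm]
    linarith
  · rw [← hm]
    apply hgap
    linarith

lemma upper {ε a Λ : ℝ} {B r : ℕ} {K : ℤ} (h : Par ε B r a K) (hΛ : 0 < Λ)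
    (hδ : (r + 1) * exp (-(Λ * ε ^ ell r)) < ε ^ ell r) {x : ℝ} {xs : List ℝ} {k : ℤ}
    {ks : List ℤ} {L : List ℝ} {p : ℕ} (hlen : ks.length = xs.length)
    (hp : p + ell (xs.length + 1) ≤ ell r) (hr : xs.length ≤ r)
    (hG : Good (bd B (xs.length + 1)) (ε ^ p) L) (hLne : L ≠ [])
    (hx : 0 < x) (hxs : ∀ y ∈ xs, 0 ≤ y) (ha : -a * Λ ≤ log x)
    (hxu : log x ≤ Λ * (hd L + 3 * mesh ε p (xs.length + 1)))
    (hL : hd L ≤ 1) (hL' : -(a + 2) ≤ hd L)
    (hmax : ∀ ks' : List ℤ, ks'.length = xs.length + 1 → (∀ k ∈ ks', |k| ≤ K) →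
      obj ε B Λ ks' L p (x :: xs) ≤ obj ε B Λ (k :: ks) L p (x :: xs)) :
    log x ≤ Λ * ((step ε B L p xs.length k).1 +
      3 * ε ^ ((step ε B L p xs.length k).2 + ell xs.length)) := by
  have hs := h.small
  have ha0 := h.a0
  by_contra hcon
  have hcon := not_le.mp hcon
  have hρ' := rad_le hs p xs.length
  have hmρ : 16 * mesh ε p (xs.length + 1) ≤ rad ε p xs.length := mesh_le_rad hs p _
  have hmpos : 0 < mesh ε p (xs.length + 1) := mesh_pos hs.pos _ _
  have hρ := rad_pos hs.pos p xs.length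
  have hxu2 : log x ≤ 2 * Λ := by nlinarith
  rcases step_cases ε B L p xs.length k with ⟨h1, h2⟩ | ⟨h1, h2, h3, h4⟩ | ⟨h1, h2, h3⟩
  · -- join
    rw [h2] at hcon
    simp only at hcon
    have e1 : mesh ε p (xs.length + 1) ≤ ε ^ (p + 1 + ell xs.length) :=
      hs.pow_le (by simp only [ell]; omega)
    have e2 : Λ * (hd L + 3 * mesh ε p (xs.length + 1)) ≤
        Λ * (hd L + 3 * ε ^ (p + 1 + ell xs.length)) :=
      mul_le_mul_of_nonneg_left (by linarith) hΛ.le
    linarith
  · -- critical
    rw [h4] at hcon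
    have e0 : ε ^ (p + 1 + ell xs.length) = rad ε p xs.length := by
      simp only [rad]
      congr 1
      omega
    rw [e0] at hcon
    refine upper_aux h hΛ hδ hlen hp hr hx hxs ha hxu2 hL hL' hmax hcon ?_
    intro k' hk'
    refine le_trans (le_min ?_ ?_) (min_le_step hs.pos B L p xs.length k')
    · obtain ⟨t₀, L', rfl⟩ := List.exists_cons_of_ne_nil hLne
      have hcr : IsCrit (bd B xs.length) (t₀ :: L') t₀ := isCrit_hd (one_le_bd _ _)
      have h5 := (abs_lt.mp h3).1
      simp only [hd, List.headD_cons] at h1 ⊢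
      rcases crit_gap hs hr hG h2 hcr with h6 | h6
      · exfalso
        rw [h6] at h5
        linarith
      · have e3 : rad ε p xs.length ≤ ε ^ (p + 1) := hs.pow_le (by omega)
        have e4 : (step ε B (t₀ :: L') p xs.length k).1 ≤ t₀ := by linarith
        rw [abs_sub_comm, abs_of_nonneg (by linarith)] at h6
        linarith
    · linarith
  · -- new value
    rw [h3] at hcon
    have e0 : ε ^ (p + ell xs.length + 2 + ell xs.length) = mesh ε p (xs.length + 1) := by
      simp only [mesh, ell]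
      congr 1
      omega
    simp only at hcon
    rw [e0] at hcon
    refine upper_aux h hΛ hδ hlen hp hr hx hxs ha hxu2 hL hL' hmax hcon ?_
    intro k' hk'
    rw [h3]
    simp only
    set m := mesh ε p (xs.length + 1) with hm
    have hkk : k + 1 < k' := by
      have : ((k + 1 : ℤ) : ℝ) * m < k' * m := by push_cast; linarith
      have := lt_of_mul_lt_mul_right this hmpos.le
      exact_mod_cast this
    have hkk2 : k + 2 ≤ k' := by omega
    have hkk3 : (k : ℝ) * m + 2 * m ≤ k' * m := by
      have : ((k + 2 : ℤ) : ℝ) ≤ k' := by exact_mod_cast hkk2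
      have := mul_le_mul_of_nonneg_right this hmpos.le
      push_cast at this
      linarith
    rcases step_cases ε B L p xs.length k' with ⟨g1, g2⟩ | ⟨g1, g2, g3, g4⟩ | ⟨g1, g2, g3⟩
    · rw [g2]
      simp only
      linarith
    · have g5 := h2 _ g2
      have g6 := (abs_lt.mp g3).2
      rw [← hm] at g6
      rcases le_or_gt (k * m) ((step ε B L p xs.length k').1) with g7 | g7
      · rw [abs_sub_comm, abs_of_nonneg (by linarith)] at g5
        linarith
      · rw [abs_of_pos (by linarith)] at g5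
        linarith
    · rw [g3]
      simp only
      rw [← hm]
      linarith

/-- the main induction -/
theorem near_main {ε a Λ : ℝ} {B r : ℕ} {K : ℤ} (h : Par ε B r a K) (hΛ : 0 < Λ)
    (hδ1 : (3 * r + 2) * exp (-(Λ * ε ^ ell r)) ≤ 1)
    (hδ2 : (r + 1) * exp (-(Λ * ε ^ ell r)) < ε ^ ell r) :
    ∀ (xs : List ℝ) (ks : List ℤ) (t₀ : ℝ) (L : List ℝ) (x₀ : ℝ) (Xh : List ℝ) (p : ℕ),
      ks.length = xs.length → (∀ k ∈ ks, |k| ≤ K) → xs.length ≤ r →
      Good (bd B xs.length) (ε ^ p) (t₀ :: L) → p + ell xs.length ≤ ell r → t₀ ≤ 1 →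
      (x₀ :: xs).Pairwise (· ≥ ·) → (∀ x ∈ x₀ :: xs, 0 < x ∧ -a * Λ ≤ log x) →
      List.Forall₂ (fun t x => |log x - Λ * t| ≤ 3 * ε ^ (p + ell xs.length) * Λ)
        (t₀ :: L) (x₀ :: Xh) →
      (∀ ks' : List ℤ, ks'.length = xs.length → (∀ k ∈ ks', |k| ≤ K) →
        obj ε B Λ ks' (t₀ :: L) p xs ≤ obj ε B Λ ks (t₀ :: L) p xs) →
      List.Forall₂ (fun t x => |log x - Λ * t| ≤ 3 * ε ^ ((fin ε B ks (t₀ :: L) p).2 + 1) * Λ)
        (fin ε B ks (t₀ :: L) p).1 (xs.reverse ++ (x₀ :: Xh)) := by
  intro xs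
  induction xs with
  | nil =>
    intro ks t₀ L x₀ Xh p hlen _ _ _ _ _ _ _ hnear _
    have : ks = [] := by simpa using hlen
    subst this
    simpa only [fin, List.reverse_nil, List.nil_append, List.length_nil, ell] using hnear
  | cons x xs ih =>
    intro ks t₀ L x₀ Xh p hlen hK hr hG hp ht0 hpw hpos hnear hmax
    match ks, hlen, hK, hmax with
    | k :: ks, hlen, hK, hmax =>
      simp only [List.length_cons, add_left_inj] at hlen
      simp only [List.length_cons] at hr hG hp hmax hnear
      have hs := h.small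
      have ha0 := h.a0
      have hrr : xs.length ≤ r := by omega
      have hx := hpos x (by simp)
      have hx0 := hpos x₀ (by simp)
      rw [List.pairwise_cons] at hpw
      have hpw2 := List.pairwise_cons.mp hpw.2
      have hxx0 : x ≤ x₀ := hpw.1 x (by simp)
      have hmpos : 0 < mesh ε p (xs.length + 1) := mesh_pos hs.pos _ _
      have hρ := rad_pos hs.pos p xs.length
      have hρ' := rad_le hs p xs.length
      have hmρ : 16 * mesh ε p (xs.length + 1) ≤ rad ε p xs.length := mesh_le_rad hs p _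
      have hHpos := h.H_pos
      have hHm : ε ^ ell r ≤ mesh ε p (xs.length + 1) := h.le_mesh hp
      have hn0 := (List.forall₂_cons.mp hnear).1
      have hme : ε ^ (p + ell (xs.length + 1)) = mesh ε p (xs.length + 1) := rfl
      rw [hme] at hn0
      have hn1 := abs_le.mp hn0
      have hxu : log x ≤ Λ * (hd (t₀ :: L) + 3 * mesh ε p (xs.length + 1)) := by
        have := log_le_log hx.1 hxx0
        simp only [hd, List.headD_cons]
        linarith [hn1.2]
      have hL' : -(a + 2) ≤ hd (t₀ :: L) := by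
        simp only [hd, List.headD_cons]
        have h1 : -a * Λ ≤ log x₀ := hx0.2
        have h2 : Λ * (-a) ≤ Λ * (t₀ + 3 * mesh ε p (xs.length + 1)) := by linarith [hn1.2]
        have h3 := le_of_mul_le_mul_left h2 hΛ
        linarith
      have hL : hd (t₀ :: L) ≤ 1 := by simpa only [hd, List.headD_cons] using ht0
      have hlow := lower h hΛ hδ1 hlen (hK k (by simp)) hp hrr hx.1
        (fun y hy => ⟨(hpos y (by simp [hy])).1.le, hpw2.1 y hy⟩) hx.2 hL hmax
      have hup := upper h hΛ hδ2 hlen hp hrr hG (by simp) hx.1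
        (fun y hy => (hpos y (by simp [hy])).1.le) hx.2 hxu hL hL' hmax
      have hnext := step_exp_le ε B (t₀ :: L) p xs.length k
      have hrad : ε ^ (p + ell (xs.length + 1)) ≤
          ε ^ ((step ε B (t₀ :: L) p xs.length k).2 + ell xs.length) := hs.pow_le hnext
      have hlow2 : Λ * ((step ε B (t₀ :: L) p xs.length k).1 -
          3 * ε ^ ((step ε B (t₀ :: L) p xs.length k).2 + ell xs.length)) ≤ log x := by
        refine le_trans (mul_le_mul_of_nonneg_left ?_ hΛ.le) hlow
        rcases step_cases ε B (t₀ :: L) p xs.length k with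
          ⟨h1, h2⟩ | ⟨h1, h2, h3, h4⟩ | ⟨h1, h2, h3⟩
        · rw [h2]
          simp only
          have e0 : ε ^ (p + 1 + ell xs.length) = rad ε p xs.length := by
            simp only [rad]
            congr 1
            omega
          rw [e0]
          linarith
        · rw [h4]
          have e0 : ε ^ (p + 1 + ell xs.length) = rad ε p xs.length := by
            simp only [rad]
            congr 1
            omega
          rw [e0]
          have := (abs_lt.mp h3).1
          linarith
        · rw [h3]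
          simp only
          have e0 : ε ^ (p + ell xs.length + 2 + ell xs.length) =
              mesh ε p (xs.length + 1) := by
            simp only [mesh, ell]
            congr 1
            omega
          rw [e0]
          linarith
      have key := ih ks (step ε B (t₀ :: L) p xs.length k).1 (t₀ :: L) x (x₀ :: Xh)
        (step ε B (t₀ :: L) p xs.length k).2 hlen (fun k' hk' => hK k' (by simp [hk'])) hrr
        (good_step hs (by simp) hrr hG k) (by omega)
        ((step_le_hd hs.pos B (t₀ :: L) p xs.length k).trans hL) hpw.2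
        (fun y hy => hpos y (by simp only [List.mem_cons] at hy ⊢; tauto))
        (by
          refine List.Forall₂.cons ?_ ?_
          · rw [abs_le]
            constructor <;> linarith
          · refine hnear.imp ?_
            intro t y hty
            refine hty.trans ?_
            exact mul_le_mul_of_nonneg_right (by linarith) hΛ.le)
        (by
          intro ks' hks' hks'K
          have := hmax (k :: ks') (by simp [hks']) (by
            intro k' hk'
            simp only [List.mem_cons] at hk'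
            rcases hk' with rfl | hk'
            · exact hK _ (by simp)
            · exact hks'K _ hk')
          simp only [obj, hks', hlen] at this
          linarith)
      simp only [fin, hlen, List.reverse_cons, List.append_assoc, List.singleton_append]
      exact key

end Vale.Agent.P072.Tree
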