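import Vale.Agent.P072.Induct

namespace Vale.Agent.P072.Tree

open Real

lemma dotR_ofFn : ∀ (n : ℕ) (l : List ℝ) (x : Fin n → ℝ), l.length = n →
    dotR l (List.ofFn x) = ∑ i : Fin n, l.getD i 0 * x i
  | 0, l, x, h => by
    have : l = [] := by simpa using h
    subst this
    simp [dotR]
  | n + 1, [], x, h => by simp at h
  | n + 1, t :: l, x, h => by
    simp only [List.length_cons, add_left_inj] at h
    rw [List.ofFn_succ, Fin.sum_univ_succ]
    simp only [dotR]
    rw [dotR_ofFn n l _ h]
    simp

lemma dot_ofFn : ∀ (n : ℕ) (l : List ℝ) (z : Fin n → ℤ), l.length = n →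
    dot (List.ofFn z) l = ∑ i : Fin n, (z i : ℝ) * l.getD i 0
  | 0, l, z, h => by
    have : l = [] := by simpa using h
    subst this
    simp [dot]
  | n + 1, [], z, h => by simp at h
  | n + 1, t :: l, z, h => by
    simp only [List.length_cons, add_left_inj] at h
    rw [List.ofFn_succ, Fin.sum_univ_succ]
    simp only [dot]
    rw [dot_ofFn n l _ h]
    simp

lemma sum_map_getD (f : ℝ → ℝ) : ∀ (n : ℕ) (l : List ℝ), l.length = n →
    (l.map f).sum = ∑ i : Fin n, f (l.getD i 0)
  | 0, l, h => by
    have : l = [] := by simpa using h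
    subst this
    simp
  | n + 1, [], h => by simp at h
  | n + 1, t :: l, h => by
    simp only [List.length_cons, add_left_inj] at h
    rw [Fin.sum_univ_succ, List.map_cons, List.sum_cons, sum_map_getD f n l h]
    simp

lemma dot_append : ∀ (z z' : List ℤ) (l l' : List ℝ), z.length = l.length →
    dot (z ++ z') (l ++ l') = dot z l + dot z' l'
  | [], z', l, l', h => by
    have : l = [] := by simpa using h.symm
    subst this
    simp [dot]
  | w :: z, z', [], l', h => by simp at h
  | w :: z, z', t :: l, l', h => by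
    simp only [List.length_cons, add_left_inj] at h
    simp only [List.cons_append, dot]
    rw [dot_append z z' l l' h]
    ring

lemma dot_reverse : ∀ (z : List ℤ) (l : List ℝ), z.length = l.length →
    dot z.reverse l.reverse = dot z l
  | [], l, h => by
    have : l = [] := by simpa using h.symm
    subst this
    simp
  | w :: z, [], h => by simp at h
  | w :: z, t :: l, h => by
    simp only [List.length_cons, add_left_inj] at h
    rw [List.reverse_cons, List.reverse_cons, dot_append _ _ _ _ (by simpa using h),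
      dot_reverse z l h]
    simp only [dot]
    ring

lemma good_fin {ε : ℝ} {B r : ℕ} (hε : Small ε B r) : ∀ (ks : List ℤ) (L : List ℝ) (p : ℕ),
    L ≠ [] → ks.length ≤ r → Good (bd B ks.length) (ε ^ p) L →
    Good (bd B 0) (ε ^ (fin ε B ks L p).2) (fin ε B ks L p).1
  | [], L, p, _, _, hG => by simpa [fin] using hG
  | k :: ks, L, p, hL, hr, hG => by
    simp only [fin]
    simp only [List.length_cons] at hr hG
    exact good_fin hε ks _ _ (by simp) (by omega) (good_step hε hL (by omega) hG k)

lemma fin_exp_le (ε : ℝ) (B : ℕ) : ∀ (ks : List ℤ) (L : List ℝ) (p : ℕ),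
    (fin ε B ks L p).2 + 1 ≤ p + ell ks.length
  | [], L, p => by simp [fin, ell]
  | k :: ks, L, p => by
    simp only [fin, List.length_cons]
    have h1 := fin_exp_le ε B ks ((step ε B L p ks.length k).1 :: L)
      (step ε B L p ks.length k).2
    have h2 := step_exp_le ε B L p ks.length k
    omega

/-- comparing with all swaps gives similar ordering -/
lemma monovary_of_swaps {n : ℕ} (u x : Fin n → ℝ)
    (h : ∀ ω : Equiv.Perm (Fin n), ∑ i, u i * x (ω i) ≤ ∑ i, u i * x i) {i j : Fin n}
    (hij : u i < u j) : x i ≤ x j := by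
  have hne : i ≠ j := by
    rintro rfl
    exact lt_irrefl _ hij
  have h1 := h (Equiv.swap i j)
  have h2 : ∑ l, (u l * x (Equiv.swap i j l) - u l * x l) =
      (u i * x (Equiv.swap i j i) - u i * x i) + (u j * x (Equiv.swap i j j) - u j * x j) := by
    apply Fintype.sum_eq_add i j hne
    intro l hl
    rw [Equiv.swap_apply_of_ne_of_ne hl.1 hl.2, sub_self]
  rw [Finset.sum_sub_distrib, Equiv.swap_apply_left, Equiv.swap_apply_right] at h2
  by_contra hcon
  have hcon := not_le.mp hcon
  nlinarith

lemma exists_sort {n : ℕ} (u x : Fin n → ℝ)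
    (h : ∀ ω : Equiv.Perm (Fin n), ∑ i, u i * x (ω i) ≤ ∑ i, u i * x i) :
    ∃ σ : Equiv.Perm (Fin n), Antitone (u ∘ σ) ∧ Antitone (x ∘ σ) := by
  let f : Fin n → ℝᵒᵈ ×ₗ ℝᵒᵈ := fun i => toLex (OrderDual.toDual (u i), OrderDual.toDual (x i))
  refine ⟨Tuple.sort f, ?_, ?_⟩
  · intro i j hij
    have h1 := Tuple.monotone_sort f hij
    simp only [Function.comp, f] at h1
    rw [Prod.Lex.toLex_le_toLex] at h1
    rcases h1 with h1 | h1
    · exact (OrderDual.toDual_lt_toDual.mp h1).le
    · exact (OrderDual.toDual_inj.mp h1.1).symm.le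
  · intro i j hij
    have h1 := Tuple.monotone_sort f hij
    simp only [Function.comp, f] at h1
    rw [Prod.Lex.toLex_le_toLex] at h1
    rcases h1 with h1 | h1
    · exact monovary_of_swaps u x h (OrderDual.toDual_lt_toDual.mp h1)
    · exact OrderDual.toDual_le_toDual.mp h1.2

end Vale.Agent.P072.Tree
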