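import Vale.Agent.P072.ListFin

namespace Vale.Agent.P072.Tree

open Real

lemma dotR_replicate (q : ℝ) : ∀ (xs : List ℝ),
    dotR (List.replicate xs.length q) xs = q * xs.sum
  | [] => by simp [dotR]
  | x :: xs => by
    rw [List.length_cons, List.replicate_succ, List.sum_cons]
    simp only [dotR]
    rw [dotR_replicate q xs]
    ring

/-- the first coordinate at an active constraint -/
lemma start {ε a Λ τ : ℝ} {B r : ℕ} {K : ℤ} (h : Par ε B r a K) (hτ : τ = 1 ∨ τ = -1)
    (hΛ : 0 < Λ) (hδ1 : (3 * r + 2) * exp (-(Λ * ε ^ ell r)) ≤ 1)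
    (hlog : log (2 * (r + 1)) ≤ ε ^ ell r * Λ) {x₀ : ℝ} {xs : List ℝ} {ks : List ℤ}
    (hlen : ks.length = xs.length) (hr : xs.length = r) (hx0 : 0 < x₀)
    (hxs : ∀ y ∈ xs, 0 ≤ y ∧ y ≤ x₀)
    (hall : ∀ ks' : List ℤ, ks'.length = r → (∀ k ∈ ks', |k| ≤ K) →
      τ * x₀ + obj ε B Λ ks' [τ] 0 xs ≤ τ * exp (τ * Λ))
    (hact : τ * x₀ + obj ε B Λ ks [τ] 0 xs = τ * exp (τ * Λ)) :
    |log x₀ - Λ * τ| ≤ ε ^ ell r * Λ := by
  have hs := h.small
  have ha0 := h.a0
  have hHpos := h.H_pos
  set H := ε ^ ell r with hH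
  have hτ1 : |τ| = 1 := by rcases hτ with rfl | rfl <;> simp
  obtain ⟨ks', hks', hksK', hobj⟩ := phase1 h hΛ.le (y := τ - H) xs
    (List.replicate xs.length τ) [τ] 0 (by simp) (by rw [hr]; simp)
    (by simp only [hd, List.headD_cons]; linarith)
    (by
      intro c hc
      simp only [hd, List.headD_cons]
      have h1 := mesh_le_rad hs 0 c
      have h2 : ε ^ ell r ≤ mesh ε 0 (c + 1) := h.le_mesh (by rw [← hc, hr]; simp)
      have h3 := mesh_pos hs.pos 0 (c + 1)
      rw [← hH] at h2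
      linarith)
    (fun y hy => (hxs y hy).1)
    (by
      intro t ht
      have := List.eq_of_mem_replicate ht
      simp only [hd, List.headD_cons]
      exact this.le)
  rw [dotR_replicate] at hobj
  have h1 := hall ks' (by rw [hks', hr]) hksK'
  have h2 := obj_le ε B Λ ks [τ] 0 xs hlen
  have h3 := dotR_le_of_le xs (vals ε B ks [τ] 0) (List.replicate xs.length τ)
    (by rw [vals_length, hlen]) (by simp) (fun y hy => (hxs y hy).1)
    (by
      intro t ht
      have := vals_le hs.pos B ks [τ] 0 t ht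
      simpa only [hd, List.headD_cons] using this)
    (fun u hu => List.eq_of_mem_replicate hu)
  rw [dotR_replicate] at h3
  have h4 := sum_le_length_mul xs (fun y hy => (hxs y hy).2)
  have h4' : 0 ≤ xs.sum := List.sum_nonneg (fun y hy => (hxs y hy).1)
  rw [hr] at h4 hobj
  have h5 : exp (Λ * (τ - H)) = exp (τ * Λ) * exp (-(Λ * H)) := by
    rw [← exp_add]
    congr 1
    ring
  rw [h5] at hobj
  have hE : 0 < exp (τ * Λ) := exp_pos _
  have hδ : 0 < exp (-(Λ * H)) := exp_pos _
  set E := exp (τ * Λ) with hEd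
  set δ := exp (-(Λ * H)) with hδd
  have hrδ : (r : ℝ) * δ ≤ 1 / 3 := by nlinarith
  have hrδE : (r : ℝ) * (E * δ) ≤ E / 3 := by nlinarith
  have hr0 : (0 : ℝ) ≤ r := by positivity
  have hlowx : E / (2 * (r + 1)) ≤ x₀ := by
    rw [div_le_iff₀ (by positivity)]
    rcases hτ with rfl | rfl
    · nlinarith
    · nlinarith
  have hupx : x₀ ≤ E * 2 := by
    rcases hτ with rfl | rfl
    · nlinarith
    · nlinarith
  have hl1 : log E = Λ * τ := by rw [hEd, log_exp]; ring
  have hl2 : Λ * τ - log (2 * (r + 1)) ≤ log x₀ := by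
    have := log_le_log (by positivity) hlowx
    rw [log_div hE.ne' (by positivity), hl1] at this
    exact this
  have hl3 : log x₀ ≤ Λ * τ + log 2 := by
    have := log_le_log hx0 hupx
    rw [log_mul hE.ne' (by norm_num), hl1] at this
    exact this
  have hl4 : log 2 ≤ log (2 * (r + 1)) := log_le_log (by norm_num) (by linarith)
  rw [abs_le]
  constructor <;> linarith

end Vale.Agent.P072.Tree
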