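import Vale.Agent.P072.Tree

namespace Vale.Agent.P072.Tree

open Real

/-- smallness of `ε` used everywhere -/
structure Small (ε : ℝ) (B r : ℕ) : Prop where
  pos : 0 < ε
  le : 4 * (bd B r : ℝ) ^ 2 * ε ≤ 1

lemma Small.le_quarter {ε : ℝ} {B r : ℕ} (h : Small ε B r) : ε ≤ 1 / 4 := by
  have h1 : (1 : ℝ) ≤ bd B r := by exact_mod_cast one_le_bd B r
  have h2 : (1 : ℝ) ≤ (bd B r : ℝ) ^ 2 := one_le_pow₀ h1
  have := h.le
  have := h.pos
  nlinarith

lemma Small.lt_one {ε : ℝ} {B r : ℕ} (h : Small ε B r) : ε < 1 := by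
  have := h.le_quarter
  linarith

lemma Small.bd_le {ε : ℝ} {B r : ℕ} (h : Small ε B r) {c : ℕ} (hc : c ≤ r) :
    4 * (bd B c : ℝ) ^ 2 * ε ≤ 1 := by
  have h1 : (bd B c : ℝ) ≤ bd B r := by exact_mod_cast bd_mono B hc
  have h0 : (0 : ℝ) ≤ bd B c := by positivity
  have h2 : (bd B c : ℝ) ^ 2 ≤ (bd B r : ℝ) ^ 2 := by gcongr
  have := h.le
  have := h.pos
  nlinarith

lemma Small.pow_le {ε : ℝ} {B r : ℕ} (h : Small ε B r) {a b : ℕ} (hab : a ≤ b) :
    ε ^ b ≤ ε ^ a := pow_le_pow_of_le_one h.pos.le h.lt_one.le hab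

lemma mesh_pos {ε : ℝ} (h : 0 < ε) (p c : ℕ) : 0 < mesh ε p c := pow_pos h _

lemma rad_pos {ε : ℝ} (h : 0 < ε) (p c : ℕ) : 0 < rad ε p c := pow_pos h _

/-- `16 * mesh ≤ rad` -/
lemma mesh_le_rad {ε : ℝ} {B r : ℕ} (h : Small ε B r) (p c : ℕ) :
    16 * mesh ε p (c + 1) ≤ rad ε p c := by
  have h1 : mesh ε p (c + 1) = rad ε p c * ε ^ (ell c + 1) := by
    simp only [mesh, rad, ell]
    rw [← pow_add]
    congr 1
    ring
  have h2 : ε ^ (ell c + 1) ≤ ε ^ 2 := h.pow_le (by have := one_le_ell c; omega)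
  have h3 : ε ^ 2 ≤ 1 / 16 := by
    have := h.le_quarter
    have := h.pos
    nlinarith
  have h4 := rad_pos h.pos p c
  rw [h1]
  nlinarith

lemma rad_le {ε : ℝ} {B r : ℕ} (h : Small ε B r) (p c : ℕ) : rad ε p c ≤ 1 / 16 := by
  have h2 : ε ^ (p + ell c + 1) ≤ ε ^ 2 := h.pow_le (by have := one_le_ell c; omega)
  have h3 : ε ^ 2 ≤ 1 / 16 := by
    have := h.le_quarter
    have := h.pos
    nlinarith
  exact h2.trans h3

/-- the three cases for a step -/
lemma step_cases (ε : ℝ) (B : ℕ) (L : List ℝ) (p c : ℕ) (k : ℤ) :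
    (hd L - rad ε p c < k * mesh ε p (c + 1) ∧ step ε B L p c k = (hd L, p + 1)) ∨
    (k * mesh ε p (c + 1) ≤ hd L - rad ε p c ∧ IsCrit (bd B c) L (step ε B L p c k).1 ∧
      |k * mesh ε p (c + 1) - (step ε B L p c k).1| < rad ε p c ∧
      (step ε B L p c k).2 = p + 1) ∨
    (k * mesh ε p (c + 1) ≤ hd L - rad ε p c ∧
      (∀ t, IsCrit (bd B c) L t → rad ε p c ≤ |k * mesh ε p (c + 1) - t|) ∧
      step ε B L p c k = (k * mesh ε p (c + 1), p + ell c + 2)) := by
  by_cases h1 : hd L - rad ε p c < k * mesh ε p (c + 1)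
  · left
    exact ⟨h1, by simp only [step]; rw [if_pos h1]⟩
  · right
    by_cases h2 : ∃ t, IsCrit (bd B c) L t ∧ |k * mesh ε p (c + 1) - t| < rad ε p c
    · left
      have : step ε B L p c k = (h2.choose, p + 1) := by
        simp only [step]
        rw [if_neg h1, dif_pos h2]
      rw [this]
      exact ⟨not_lt.mp h1, h2.choose_spec.1, h2.choose_spec.2, rfl⟩
    · right
      refine ⟨not_lt.mp h1, ?_, ?_⟩
      · intro t ht
        by_contra h3
        exact h2 ⟨t, ht, not_le.mp h3⟩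
      · simp only [step]
        rw [if_neg h1, dif_neg h2]

lemma step_le_hd {ε : ℝ} (hε : 0 < ε) (B : ℕ) (L : List ℝ) (p c : ℕ) (k : ℤ) :
    (step ε B L p c k).1 ≤ hd L := by
  have hr := rad_pos hε p c
  rcases step_cases ε B L p c k with ⟨_, h⟩ | ⟨h1, _, h3, _⟩ | ⟨h1, _, h3⟩
  · rw [h]
  · have := (abs_lt.mp h3).1
    linarith
  · rw [h3]
    simp only
    linarith

lemma step_le_add {ε : ℝ} (hε : 0 < ε) (B : ℕ) (L : List ℝ) (p c : ℕ) (k : ℤ) :
    (step ε B L p c k).1 ≤ k * mesh ε p (c + 1) + rad ε p c := by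
  have hr := rad_pos hε p c
  rcases step_cases ε B L p c k with ⟨h0, h⟩ | ⟨h1, _, h3, _⟩ | ⟨h1, _, h3⟩
  · rw [h]
    simp only
    linarith
  · have := (abs_lt.mp h3).1
    linarith
  · rw [h3]
    simp only
    linarith

lemma min_le_step {ε : ℝ} (hε : 0 < ε) (B : ℕ) (L : List ℝ) (p c : ℕ) (k : ℤ) :
    min (hd L) (k * mesh ε p (c + 1) - rad ε p c) ≤ (step ε B L p c k).1 := by
  have hr := rad_pos hε p c
  rcases step_cases ε B L p c k with ⟨h0, h⟩ | ⟨h1, _, h3, _⟩ | ⟨h1, _, h3⟩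
  · rw [h]
    exact min_le_left _ _
  · have := (abs_lt.mp h3).2
    exact (min_le_right _ _).trans (by linarith)
  · rw [h3]
    exact (min_le_right _ _).trans (by simp only; linarith)

/-- exponent bookkeeping -/
lemma step_exp_le (ε : ℝ) (B : ℕ) (L : List ℝ) (p c : ℕ) (k : ℤ) :
    (step ε B L p c k).2 + ell c ≤ p + ell (c + 1) := by
  simp only [ell]
  rcases step_cases ε B L p c k with ⟨h0, h⟩ | ⟨h1, _, h3, h4⟩ | ⟨h1, _, h3⟩
  · rw [h]
    simp only
    omega
  · rw [h4]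
    omega
  · rw [h3]
    simp only
    omega

/-- the integer forms stay good -/
lemma good_step {ε : ℝ} {B r : ℕ} (hε : Small ε B r) {L : List ℝ} (hL : L ≠ []) {p c : ℕ}
    (hc : c ≤ r) (hG : Good (bd B (c + 1)) (ε ^ p) L) (k : ℤ) :
    Good (bd B c) (ε ^ (step ε B L p c k).2) ((step ε B L p c k).1 :: L) := by
  have hb1 := one_le_bd B c
  obtain ⟨t₀, L', rfl⟩ := List.exists_cons_of_ne_nil hL
  have hpow : ε ^ (step ε B (t₀ :: L') p c k).2 ≤ ε ^ p := by
    apply hε.pow_le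
    rcases step_cases ε B (t₀ :: L') p c k with ⟨h0, h⟩ | ⟨h1, _, h3, h4⟩ | ⟨h1, _, h3⟩
    · rw [h]; simp only; omega
    · rw [h4]; omega
    · rw [h3]; simp only; omega
  have hsep : ∀ t, IsCrit (bd B c) (t₀ :: L') t → ∀ t', IsCrit (bd B c) (t₀ :: L') t' →
      t = t' ∨ ε ^ (p + 1) ≤ |t - t'| := by
    intro t ht t' ht'
    rcases crit_sep hG ht ht' with h | h
    · exact Or.inl h
    · right
      have h1 := hε.bd_le hc
      have h2 : ε ^ (p + 1) = ε ^ p * ε := pow_succ _ _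
      rw [h2]
      have h3 : 0 ≤ |t - t'| := abs_nonneg _
      have h4 : (bd B c : ℝ) ^ 2 * ε ≤ 1 := by
        have : 0 ≤ (bd B c : ℝ) ^ 2 * ε := by have := hε.pos; positivity
        linarith
      calc ε ^ p * ε ≤ ((bd B c : ℝ) ^ 2 * |t - t'|) * ε :=
            mul_le_mul_of_nonneg_right h hε.pos.le
        _ = ((bd B c : ℝ) ^ 2 * ε) * |t - t'| := by ring
        _ ≤ 1 * |t - t'| := mul_le_mul_of_nonneg_right h4 h3
        _ = |t - t'| := one_mul _
  intro z hz hzb
  match z, hz, hzb with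
  | a :: z0, hz, hzb =>
    simp only [List.length_cons, add_left_inj] at hz
    have hz0 : ∀ w ∈ z0, |w| ≤ ((bd B c : ℕ) : ℤ) := fun w hw => hzb w (by simp [hw])
    have hab : |a| ≤ ((bd B c : ℕ) : ℤ) := hzb a (by simp)
    by_cases ha : a = 0
    · subst ha
      simp only [dot, Int.cast_zero, zero_mul, zero_add]
      have hz0' : ∀ w ∈ z0, |w| ≤ ((bd B (c + 1) : ℕ) : ℤ) := fun w hw =>
        (hz0 w hw).trans (by exact_mod_cast bd_le_succ B c)
      rcases hG z0 (by simpa using hz) hz0' with h | h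
      · exact Or.inl h
      · exact Or.inr (hpow.trans h)
    · have haR : (a : ℝ) ≠ 0 := by exact_mod_cast ha
      set t : ℝ := -(dot z0 (t₀ :: L')) / a with ht
      have hcrit : IsCrit (bd B c) (t₀ :: L') t := by
        refine ⟨a, z0, ha, hab, by simpa using hz, hz0, ?_⟩
        rw [ht]
        field_simp
        ring
      have hdot : dot (a :: z0) ((step ε B (t₀ :: L') p c k).1 :: (t₀ :: L')) =
          a * ((step ε B (t₀ :: L') p c k).1 - t) := by
        have e : dot (a :: z0) ((step ε B (t₀ :: L') p c k).1 :: (t₀ :: L')) =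
            a * (step ε B (t₀ :: L') p c k).1 + dot z0 (t₀ :: L') := rfl
        rw [e, ht]
        field_simp
        ring
      have ha1 : (1 : ℝ) ≤ |(a : ℝ)| := by
        have : (1 : ℤ) ≤ |a| := Int.one_le_abs ha
        exact_mod_cast this
      have hmul : ∀ η : ℝ, 0 ≤ η → η ≤ |(step ε B (t₀ :: L') p c k).1 - t| →
          η ≤ |dot (a :: z0) ((step ε B (t₀ :: L') p c k).1 :: (t₀ :: L'))| := by
        intro η hη h
        rw [hdot, abs_mul]
        nlinarith [abs_nonneg ((step ε B (t₀ :: L') p c k).1 - t)]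
      rcases step_cases ε B (t₀ :: L') p c k with ⟨h0, h⟩ | ⟨h1, hcr, h3, h4⟩ | ⟨h1, hfar, h3⟩
      · have hcr : IsCrit (bd B c) (t₀ :: L') (step ε B (t₀ :: L') p c k).1 := by
          rw [h]
          exact isCrit_hd hb1
        rcases hsep _ hcr _ hcrit with h5 | h5
        · left
          rw [hdot, h5, sub_self, mul_zero]
        · right
          apply hmul _ (by have := hε.pos; positivity)
          rw [h] at h5 ⊢
          exact h5
      · rcases hsep _ hcr _ hcrit with h5 | h5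
        · left
          rw [hdot, h5, sub_self, mul_zero]
        · right
          apply hmul _ (by have := hε.pos; positivity)
          rw [h4]
          exact h5
      · right
        apply hmul _ (by have := hε.pos; positivity)
        have h6 := hfar t hcrit
        rw [h3]
        simp only
        refine le_trans ?_ h6
        exact hε.pow_le (by omega)

end Vale.Agent.P072.Tree
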