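import Vale.Agent.P072.Family
import Vale.Agent.P072.ODE
import Vale.Agent.P072.Final

namespace Vale.Agent.P072

open MeasureTheory Set

lemma monomial_continuous {d : ℕ} (r : Reaction d) :
    Continuous (fun x : Fin d → ℝ => ∏ i, x i ^ r.1 i) := by
  fun_prop

lemma monomial_contDiff {d : ℕ} (r : Reaction d) :
    ContDiff ℝ 1 (fun x : Fin d → ℝ => ∏ i, x i ^ r.1 i) := by
  apply contDiff_prod
  intro i _
  exact (contDiff_apply ℝ ℝ i).pow _

/-- the mass-action field with bounded measurable rates satisfies the standing assumptions -/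
theorem field_variable {d : ℕ} (R : Finset (Reaction d)) (ε : ℝ) (hε : 0 < ε)
    (k : Reaction d → ℝ → ℝ) (hkm : ∀ r ∈ R, Measurable (k r))
    (hk : ∀ r ∈ R, ∀ t, 0 ≤ t → ε ≤ k r t ∧ k r t ≤ 1 / ε) :
    Cara.Field (fun t => massAction R (fun r => k r t)) (stoichiometricSubspace R) where
  meas := by
    intro x hx
    apply Measurable.aestronglyMeasurable
    simp only [massAction]
    apply Finset.measurable_fun_sum
    intro r hr
    apply Measurable.smul_const
    exact (hkm r hr).mul ((monomial_continuous r).comp hx).measurable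
  lip := by
    intro M
    have h1 : ∀ r : Reaction d, ∃ C : ℝ, 0 ≤ C ∧ ∀ x y : Fin d → ℝ, ‖x‖ ≤ M → ‖y‖ ≤ M →
        |∏ i, x i ^ r.1 i - ∏ i, y i ^ r.1 i| ≤ C * ‖x - y‖ := by
      intro r
      obtain ⟨C, hC⟩ := LocallyLipschitzOn.exists_lipschitzOnWith_of_compact
        (isCompact_closedBall (0 : Fin d → ℝ) M)
        ((monomial_contDiff r).locallyLipschitz.locallyLipschitzOn)
      refine ⟨C, C.coe_nonneg, fun x y hx hy => ?_⟩
      have := hC.dist_le_mul x (mem_closedBall_zero_iff.mpr hx) y (mem_closedBall_zero_iff.mpr hy)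
      rw [Real.dist_eq, dist_eq_norm] at this
      exact this
    choose C hC0 hC using h1
    refine ⟨∑ r ∈ R, 1 / ε * C r * ‖reactionVector r‖, ?_, ?_⟩
    · apply Finset.sum_nonneg
      intro r _
      have := hC0 r
      positivity
    · intro t ht x y hx hy
      simp only [massAction]
      rw [← Finset.sum_sub_distrib, Finset.sum_mul]
      refine (norm_sum_le _ _).trans (Finset.sum_le_sum fun r hr => ?_)
      rw [← sub_smul, ← mul_sub, norm_smul, Real.norm_eq_abs, abs_mul]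
      have hkr := hk r hr t ht
      have h2 : |k r t| ≤ 1 / ε := by
        rw [abs_of_pos (hε.trans_le hkr.1)]
        exact hkr.2
      have h3 := hC r x y hx hy
      calc |k r t| * |∏ i, x i ^ r.1 i - ∏ i, y i ^ r.1 i| * ‖reactionVector r‖
          ≤ (1 / ε * (C r * ‖x - y‖)) * ‖reactionVector r‖ := by
            apply mul_le_mul_of_nonneg_right _ (norm_nonneg _)
            exact mul_le_mul h2 h3 (abs_nonneg _) (by positivity)
        _ = 1 / ε * C r * ‖reactionVector r‖ * ‖x - y‖ := by ring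
  bdd := by
    intro M
    have h1 : ∀ r : Reaction d, ∃ C : ℝ, 0 ≤ C ∧ ∀ x : Fin d → ℝ, ‖x‖ ≤ M →
        |∏ i, x i ^ r.1 i| ≤ C := by
      intro r
      obtain ⟨C, hC⟩ := (isCompact_closedBall (0 : Fin d → ℝ) M).exists_bound_of_continuousOn
        (monomial_continuous r).continuousOn
      refine ⟨max C 0, le_max_right _ _, fun x hx => ?_⟩
      exact (hC x (mem_closedBall_zero_iff.mpr hx)).trans (le_max_left _ _)
    choose C hC0 hC using h1
    refine ⟨∑ r ∈ R, 1 / ε * C r * ‖reactionVector r‖, ?_⟩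
    intro t ht x hx
    simp only [massAction]
    refine (norm_sum_le _ _).trans (Finset.sum_le_sum fun r hr => ?_)
    rw [norm_smul, Real.norm_eq_abs, abs_mul]
    have hkr := hk r hr t ht
    have h2 : |k r t| ≤ 1 / ε := by
      rw [abs_of_pos (hε.trans_le hkr.1)]
      exact hkr.2
    apply mul_le_mul_of_nonneg_right _ (norm_nonneg _)
    exact mul_le_mul h2 (hC r x hx) (abs_nonneg _) (by positivity)
  mem := fun t x => massAction_mem R _ x

theorem strong_main (d : ℕ) (hd : 0 < d) (R : Finset (Reaction d)) (hR : Endotactic R)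
    (ε : ℝ) (hε : 0 < ε) (c : Fin d → ℝ) (hc : ∀ i, 0 < c i) :
    ∃ K : Set (Fin d → ℝ), K ⊆ positiveClass R c ∧ IsCompact K ∧
      ∀ k : Reaction d → ℝ → ℝ, (∀ r ∈ R, Measurable (k r)) →
        (∀ r ∈ R, ∀ t, 0 ≤ t → ε ≤ k r t ∧ k r t ≤ 1 / ε) →
        (∀ x₀ ∈ positiveClass R c, ∃ x : ℝ → Fin d → ℝ, x 0 = x₀ ∧
          IsCaratheodorySolutionOn (fun t => massAction R (fun r => k r t)) (Set.Ici 0) x ∧
          (∀ t, 0 ≤ t → ∀ i, 0 < x t i) ∧
          ∀ T : ℝ, 0 < T → ∀ y : ℝ → Fin d → ℝ, y 0 = x₀ →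
            IsCaratheodorySolutionOn (fun t => massAction R (fun r => k r t)) (Set.Ico 0 T) y →
            ∀ t ∈ Set.Ico 0 T, y t = x t) ∧
        ∀ x : ℝ → Fin d → ℝ, x 0 ∈ positiveClass R c →
          IsCaratheodorySolutionOn (fun t => massAction R (fun r => k r t)) (Set.Ici 0) x →
          ∃ T : ℝ, ∀ t, T ≤ t → x t ∈ K := by
  obtain ⟨B, hB⟩ := exists_bound R
  obtain ⟨m, hm, A, hA, Q, hQ, ι, _, n, g, l₀, hl₀, hg, hnA, hdich, hbox, hcov, hact⟩ :=
    exists_family d hd B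
  obtain ⟨D, δ, hδ, hdot⟩ := dot_massAction_le_of_endotactic R hR ε hε B hB m A hm hA
  obtain ⟨L1, hL1⟩ := hact D
  obtain ⟨L2, hL2⟩ := hcov c hc
  obtain ⟨l₁, hl₁⟩ : ∃ l₁, l₁ = max l₀ (max L1 L2) := ⟨_, rfl⟩
  have h10 : l₀ ≤ l₁ := by rw [hl₁]; exact le_max_left _ _
  have h11 : L1 ≤ l₁ := by rw [hl₁]; exact (le_max_left _ _).trans (le_max_right _ _)
  have h12 : L2 ≤ l₁ := by rw [hl₁]; exact (le_max_right _ _).trans (le_max_right _ _)
  have hpos : ∀ l, l₁ ≤ l → ∀ x : Fin d → ℝ, x - c ∈ stoichiometricSubspace R →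
      (∀ j, ∑ i, n j i * x i ≤ g j l) → ∀ i, 0 < x i := by
    intro l hl x _ hx i
    exact (Real.exp_pos _).trans_le (hbox l (h10.trans hl) x hx i).1
  have hbdd : ∀ l, l₁ ≤ l → Bornology.IsBounded
      {x : Fin d → ℝ | x - c ∈ stoichiometricSubspace R ∧ ∀ j, ∑ i, n j i * x i ≤ g j l} := by
    intro l hl
    rw [Metric.isBounded_iff_subset_closedBall 0]
    refine ⟨Real.exp (Q * l), ?_⟩
    rintro x ⟨_, hx⟩
    rw [mem_closedBall_zero_iff]
    rw [pi_norm_le_iff_of_nonneg (Real.exp_pos _).le]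
    intro i
    obtain ⟨h1, h2⟩ := hbox l (h10.trans hl) x hx i
    rw [Real.norm_eq_abs, abs_of_pos ((Real.exp_pos _).trans_le h1)]
    exact h2
  refine ⟨{x | x - c ∈ stoichiometricSubspace R ∧ ∀ j, ∑ i, n j i * x i ≤ g j l₁}, ?_,
    isCompact_region _ c n _ (hbdd l₁ le_rfl), ?_⟩
  · rintro x ⟨hxS, hx⟩
    exact ⟨hpos l₁ le_rfl x hxS hx, hxS⟩
  intro k hkm hk
  obtain ⟨h1, h2⟩ := Cara.trap (field_variable R ε hε k hkm hk) c n g hg l₁ hpos hbdd (by
      intro x hx _
      obtain ⟨L, hL⟩ := hcov x hx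
      exact ⟨max l₁ L, le_max_left _ _, fun j => (hL _ (le_max_right _ _) j).le⟩) (by
    intro l₂ hl₂
    have hκ : 0 < Real.exp (-(Q * l₂)) := Real.exp_pos _
    refine ⟨δ * Real.exp (-(Q * l₂)) ^ (d * B), by positivity, ?_⟩
    intro t ht l hl x hxc hx j hj
    have hl1 := hl.1
    have hbx := hbox l (h10.trans hl1) x hx
    have h1 := hdot (fun r => k r t) (fun r hr => hk r hr t ht) (n j) x
      (Real.exp (-(Q * l₂))) (hnA j) hκ (by
      rw [Real.exp_le_one_iff]
      have : 0 ≤ l₂ := (hl₀.le.trans h10).trans hl₂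
      have : 0 ≤ Q * l₂ := by positivity
      linarith) (fun i => by
        refine le_trans (Real.exp_le_exp.mpr ?_) (hbx i).1
        have : Q * l ≤ Q * l₂ := mul_le_mul_of_nonneg_left hl.2 hQ.le
        linarith) (hdich j) (fun z hz hzn => hL1 l (h11.trans hl1) x hx j hj z hz hzn)
    rcases h1 with h1 | h1
    · exfalso
      have h2 := dot_eq_of_orth R (n j) h1 (x - c) hxc
      have h3 : ∑ i, n j i * x i = ∑ i, n j i * c i := by
        simp only [Pi.sub_apply, mul_sub, Finset.sum_sub_distrib] at h2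
        linarith
      have h4 := hL2 l (h12.trans hl1) j
      linarith
    · rw [← neg_mul]; exact h1)
  refine ⟨?_, ?_⟩
  · rintro x₀ ⟨hx₀, hx₀S⟩
    exact h1 x₀ hx₀ hx₀S
  · rintro x ⟨hx0, hx0S⟩ hxs
    exact h2 x hx0 hx0S hxs

theorem strong_captured (d : ℕ) (hd : 0 < d) (R : Finset (Reaction d)) (hR : Endotactic R)
    (ε : ℝ) (hε : 0 < ε) (c : Fin d → ℝ) (hc : ∀ i, 0 < c i) :
    ∃ K : Set (Fin d → ℝ), K ⊆ positiveClass R c ∧ IsCompact K ∧
      ∀ k : Reaction d → ℝ → ℝ, AdmissibleRates R ε k →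
        CapturedBy (variableMassAction R k) (positiveClass R c) K := by
  obtain ⟨K, hK1, hK2, hK3⟩ := strong_main d hd R hR ε hε c hc
  exact ⟨K, hK1, hK2, fun k hk => hK3 k hk.1 hk.2⟩

theorem permanent_of_endotactic (d : ℕ) (hd : 0 < d) (R : Finset (Reaction d))
    (hR : Endotactic R) (k : Reaction d → ℝ) (hk : ∀ r ∈ R, 0 < k r) (c : Fin d → ℝ)
    (hc : ∀ i, 0 < c i) : PermanentOn (massAction R k) (positiveClass R c) := by
  obtain ⟨ε, hε, hkε⟩ := exists_rate_bound R k hk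
  obtain ⟨K, hK1, hK2, hK3⟩ := strong_captured d hd R hR ε hε c hc
  have hcont : Continuous (massAction R k) := (contDiff_massAction R k).continuous
  have hf : variableMassAction R (fun r _ => k r) = fun _ => massAction R k := rfl
  obtain ⟨h1, h2⟩ := hK3 (fun r _ => k r) ⟨fun r _ => measurable_const, fun r hr t _ => hkε r hr⟩
  rw [hf] at h1 h2
  refine ⟨?_, K, hK1, hK2, ?_⟩
  · intro x₀ hx₀
    obtain ⟨x, hx0, hxs, hxp, hxu⟩ := h1 x₀ hx₀
    refine ⟨x, hx0, classical_of_cara hcont hxs, hxp, ?_⟩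
    intro T hT y hy0 hys
    exact hxu T hT y hy0 (cara_of_classical (J := Ico 0 T) hcont (fun t ht => ht.1)
      (fun t ht s hs => ⟨hs.1, hs.2.trans_lt ht.2⟩) hys)
  · intro x hx0 hxs
    exact h2 x hx0 (cara_of_classical (J := Ici 0) hcont (fun t ht => ht)
        (fun t _ s hs => hs.1) hxs)

end Vale.Agent.P072
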