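import Mathlib

namespace Vale.Agent.P072.Tree

open Real

def ell : ℕ → ℕ
  | 0 => 1
  | c + 1 => 2 * ell c + 2

def bd (B : ℕ) : ℕ → ℕ
  | 0 => B + 1
  | c + 1 => 2 * (bd B c) ^ 2

def dot : List ℤ → List ℝ → ℝ
  | z :: zs, t :: ts => z * t + dot zs ts
  | _, _ => 0

def dotR : List ℝ → List ℝ → ℝ
  | z :: zs, t :: ts => z * t + dotR zs ts
  | _, _ => 0

def Good (b : ℕ) (δ : ℝ) (L : List ℝ) : Prop :=
  ∀ z : List ℤ, z.length = L.length → (∀ w ∈ z, |w| ≤ (b : ℤ)) → dot z L = 0 ∨ δ ≤ |dot z L|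

def IsCrit (b : ℕ) (L : List ℝ) (t : ℝ) : Prop :=
  ∃ (a : ℤ) (z : List ℤ), a ≠ 0 ∧ |a| ≤ (b : ℤ) ∧ z.length = L.length ∧
    (∀ w ∈ z, |w| ≤ (b : ℤ)) ∧ a * t + dot z L = 0

noncomputable def mesh (ε : ℝ) (p c : ℕ) : ℝ := ε ^ (p + ell c)

noncomputable def rad (ε : ℝ) (p c : ℕ) : ℝ := ε ^ (p + ell c + 1)

noncomputable def hd (L : List ℝ) : ℝ := L.headD 0

open Classical in
/-- next value and next exponent, `c` coordinates remain after this one. -/
noncomputable def step (ε : ℝ) (B : ℕ) (L : List ℝ) (p c : ℕ) (k : ℤ) : ℝ × ℕ :=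
  if hd L - rad ε p c < k * mesh ε p (c + 1) then (hd L, p + 1)
  else if h : ∃ t, IsCrit (bd B c) L t ∧ |k * mesh ε p (c + 1) - t| < rad ε p c then
    (h.choose, p + 1)
  else (k * mesh ε p (c + 1), p + ell c + 2)

noncomputable def obj (ε : ℝ) (B : ℕ) (Λ : ℝ) : List ℤ → List ℝ → ℕ → List ℝ → ℝ
  | k :: ks, L, p, x :: xs =>
    (step ε B L p ks.length k).1 * x - exp (Λ * (k * mesh ε p (ks.length + 1))) +
      obj ε B Λ ks ((step ε B L p ks.length k).1 :: L) (step ε B L p ks.length k).2 xs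
  | _, _, _, _ => 0

noncomputable def vals (ε : ℝ) (B : ℕ) : List ℤ → List ℝ → ℕ → List ℝ
  | k :: ks, L, p =>
    (step ε B L p ks.length k).1 ::
      vals ε B ks ((step ε B L p ks.length k).1 :: L) (step ε B L p ks.length k).2
  | [], _, _ => []

noncomputable def exps (ε : ℝ) (B : ℕ) : List ℤ → List ℝ → ℕ → List ℝ
  | k :: ks, L, p =>
    (k * mesh ε p (ks.length + 1)) ::
      exps ε B ks ((step ε B L p ks.length k).1 :: L) (step ε B L p ks.length k).2
  | [], _, _ => []

noncomputable def fin (ε : ℝ) (B : ℕ) : List ℤ → List ℝ → ℕ → List ℝ × ℕ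
  | k :: ks, L, p =>
    fin ε B ks ((step ε B L p ks.length k).1 :: L) (step ε B L p ks.length k).2
  | [], L, p => (L, p)

/-! ### elementary facts -/

lemma one_le_ell (c : ℕ) : 1 ≤ ell c := by
  induction c with
  | zero => simp [ell]
  | succ c ih => simp [ell]

lemma one_le_bd (B c : ℕ) : 1 ≤ bd B c := by
  induction c with
  | zero => simp [bd]
  | succ c ih =>
    simp only [bd]
    have : 1 ≤ bd B c ^ 2 := Nat.one_le_pow _ _ ih
    omega

lemma bd_le_succ (B c : ℕ) : bd B c ≤ bd B (c + 1) := by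
  have h := one_le_bd B c
  simp only [bd]
  nlinarith

lemma bd_mono (B : ℕ) : Monotone (bd B) := monotone_nat_of_le_succ (bd_le_succ B)

lemma dot_zipWith (α β : ℤ) : ∀ (z z' : List ℤ) (L : List ℝ), z.length = L.length →
    z'.length = L.length →
    dot (List.zipWith (fun u v => α * u + β * v) z z') L = α * dot z L + β * dot z' L
  | [], z', L, h, h' => by
    have : L = [] := by simpa using h.symm
    subst this
    simp [dot]
  | a :: z, [], L, h, h' => by
    have : L = [] := by simpa using h'.symm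
    subst this
    simp at h
  | a :: z, b :: z', [], h, h' => by simp at h
  | a :: z, b :: z', t :: L, h, h' => by
    simp only [List.length_cons, add_left_inj] at h h'
    simp only [List.zipWith_cons_cons, dot, dot_zipWith α β z z' L h h']
    push_cast
    ring

lemma zipWith_bound (b : ℕ) (α β : ℤ) (hα : |α| ≤ (b : ℤ)) (hβ : |β| ≤ (b : ℤ)) :
    ∀ (z z' : List ℤ), (∀ w ∈ z, |w| ≤ (b : ℤ)) → (∀ w ∈ z', |w| ≤ (b : ℤ)) →
    ∀ w ∈ List.zipWith (fun u v => α * u + β * v) z z', |w| ≤ ((2 * b ^ 2 : ℕ) : ℤ)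
  | [], z', _, _ => by simp
  | a :: z, [], _, _ => by simp
  | a :: z, c :: z', h, h' => by
    intro w hw
    simp only [List.zipWith_cons_cons, List.mem_cons] at hw
    rcases hw with rfl | hw
    · have h1 : |a| ≤ (b : ℤ) := h a (by simp)
      have h2 : |c| ≤ (b : ℤ) := h' c (by simp)
      calc |α * a + β * c| ≤ |α * a| + |β * c| := abs_add_le _ _
        _ = |α| * |a| + |β| * |c| := by rw [abs_mul, abs_mul]
        _ ≤ b * b + b * b := by
          have h0 : (0 : ℤ) ≤ b := by positivity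
          exact add_le_add (mul_le_mul hα h1 (abs_nonneg _) h0)
            (mul_le_mul hβ h2 (abs_nonneg _) h0)
        _ = ((2 * b ^ 2 : ℕ) : ℤ) := by push_cast; ring
    · exact zipWith_bound b α β hα hβ z z' (fun w hw => h w (by simp [hw]))
        (fun w hw => h' w (by simp [hw])) w hw

/-- two critical values are equal or far apart -/
lemma crit_sep {b : ℕ} {δ : ℝ} {L : List ℝ} (hG : Good (2 * b ^ 2) δ L) {t t' : ℝ}
    (ht : IsCrit b L t) (ht' : IsCrit b L t') : t = t' ∨ δ ≤ (b : ℝ) ^ 2 * |t - t'| := by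
  obtain ⟨a, z, ha, hab, hz, hzb, he⟩ := ht
  obtain ⟨a', z', ha', hab', hz', hzb', he'⟩ := ht'
  have hlen : (List.zipWith (fun u v => (-a') * u + a * v) z z').length = L.length := by
    simp [hz, hz']
  have hb := zipWith_bound b (-a') a (by rwa [abs_neg]) hab z z' hzb hzb'
  have key := hG _ hlen hb
  rw [dot_zipWith (-a') a z z' L hz hz'] at key
  have e1 : ((-a' : ℤ) : ℝ) * dot z L + (a : ℝ) * dot z' L = (a * a' : ℝ) * (t - t') := by
    have h1 : dot z L = -(a * t) := by linarith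
    have h2 : dot z' L = -(a' * t') := by linarith
    rw [h1, h2]
    push_cast
    ring
  rw [e1] at key
  have haa : (a * a' : ℝ) ≠ 0 := by
    have : (a : ℝ) ≠ 0 := by exact_mod_cast ha
    have : (a' : ℝ) ≠ 0 := by exact_mod_cast ha'
    positivity
  rcases key with key | key
  · left
    have := (mul_eq_zero.mp key).resolve_left haa
    linarith
  · right
    rw [abs_mul] at key
    refine key.trans (mul_le_mul_of_nonneg_right ?_ (abs_nonneg _))
    rw [abs_mul, pow_two]
    have h1 : |(a : ℝ)| ≤ b := by exact_mod_cast hab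
    have h2 : |(a' : ℝ)| ≤ b := by exact_mod_cast hab'
    exact mul_le_mul h1 h2 (abs_nonneg _) (by positivity)

lemma dot_replicate_zero : ∀ (n : ℕ) (L : List ℝ), dot (List.replicate n 0) L = 0
  | 0, L => by simp [dot]
  | n + 1, [] => by simp [List.replicate_succ, dot]
  | n + 1, t :: L => by simp [List.replicate_succ, dot, dot_replicate_zero n L]

lemma isCrit_hd {b : ℕ} (hb : 1 ≤ b) {t : ℝ} {L : List ℝ} : IsCrit b (t :: L) t := by
  refine ⟨1, (-1) :: List.replicate L.length 0, one_ne_zero, by simpa using hb, by simp, ?_, ?_⟩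
  · intro w hw
    simp only [List.mem_cons] at hw
    rcases hw with rfl | hw
    · simpa using hb
    · have := List.eq_of_mem_replicate hw
      simp [this]
  · simp [dot, dot_replicate_zero]

end Vale.Agent.P072.Tree
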