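import Vale.Agent.P072.Defs

namespace Vale.Agent.P072

/-- Endotactic network: whenever a reaction `y → y'` has `w · (y' - y) > 0`, some reaction
`z → z'` has `w · z > w · y` and `w · (z' - z) < 0`. -/
def Endotactic {d : ℕ} (R : Finset (Reaction d)) : Prop :=
  ∀ w : Fin d → ℝ, ∀ r ∈ R, 0 < ∑ i, w i * reactionVector r i →
    ∃ s ∈ R, ∑ i, w i * (r.1 i : ℝ) < ∑ i, w i * (s.1 i : ℝ) ∧
      ∑ i, w i * reactionVector s i < 0

/-- Carathéodory solution of `x' = G t x` on an interval `J` starting at time `0`: continuous on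
`J`, with `s ↦ G s (x s)` integrable up to each time of `J`, and
`x t = x 0 + ∫₀ᵗ G s (x s) ds`. -/
def IsCaratheodorySolutionOn {d : ℕ} (G : ℝ → (Fin d → ℝ) → (Fin d → ℝ)) (J : Set ℝ)
    (x : ℝ → Fin d → ℝ) : Prop :=
  ContinuousOn x J ∧ ∀ t ∈ J,
    IntervalIntegrable (fun s => G s (x s)) MeasureTheory.volume 0 t ∧
      x t = x 0 + ∫ s in (0 : ℝ)..t, G s (x s)

/-- the mass-action field with time-dependent rates -/
noncomputable def variableMassAction {d : ℕ} (R : Finset (Reaction d))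
    (k : Reaction d → ℝ → ℝ) (t : ℝ) (x : Fin d → ℝ) : Fin d → ℝ :=
  massAction R (fun r => k r t) x

/-- measurable rates with values in `[ε, 1/ε]` for nonnegative times -/
def AdmissibleRates {d : ℕ} (R : Finset (Reaction d)) (ε : ℝ) (k : Reaction d → ℝ → ℝ) : Prop :=
  (∀ r ∈ R, Measurable (k r)) ∧ ∀ r ∈ R, ∀ t, 0 ≤ t → ε ≤ k r t ∧ k r t ≤ 1 / ε

/-- Existence, positivity and uniqueness of global Carathéodory solutions from every point of
`P`, and eventual capture of each of them by `K`. -/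
def CapturedBy {d : ℕ} (G : ℝ → (Fin d → ℝ) → (Fin d → ℝ)) (P K : Set (Fin d → ℝ)) : Prop :=
  (∀ x₀ ∈ P, ∃ x : ℝ → Fin d → ℝ, x 0 = x₀ ∧ IsCaratheodorySolutionOn G (Set.Ici 0) x ∧
    (∀ t, 0 ≤ t → ∀ i, 0 < x t i) ∧
    ∀ T : ℝ, 0 < T → ∀ y : ℝ → Fin d → ℝ, y 0 = x₀ →
      IsCaratheodorySolutionOn G (Set.Ico 0 T) y → ∀ t ∈ Set.Ico 0 T, y t = x t) ∧
  ∀ x : ℝ → Fin d → ℝ, x 0 ∈ P → IsCaratheodorySolutionOn G (Set.Ici 0) x →
    ∃ T : ℝ, ∀ t, T ≤ t → x t ∈ K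

end Vale.Agent.P072
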